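import Vale.Agent.P290.Stm

set_option linter.unusedSectionVars false

open Set Filter Topology Metric MeasureTheory
open scoped Manifold ContDiff LinearAlgebra.Projectivization

noncomputable section
namespace Vale.Agent.P290

variable {X : Type*} [MetricSpace X] [ChartedSpace E X] [IsManifold 𝓘(ℂ, E) ω X]

namespace AddX

theorem norm0 (hN : NormS) {F G : Type} [NormedAddCommGroup F] [NormedSpace ℂ F]
    [FiniteDimensional ℂ F] [NormedAddCommGroup G] [NormedSpace ℂ G] [FiniteDimensional ℂ G]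
    {K : Set F} (hK : CK K) (g : F × G → ℙ ℂ E) (v : F × G → E)
    (h : ∀ z ∈ K, HolAt g (z, 0) ∧ AnalyticAt ℂ v (z, 0) ∧ Ln (g (z, 0)) (v (z, 0))) :
    ∃ u : F × G → E, ∀ z ∈ K, AnalyticAt ℂ u (z, 0) ∧ u (z, 0) = v (z, 0) ∧
      (∀ᶠ q in 𝓝 ((z, 0) : F × G), Ln (g q) (u q)) ∧
      ∀ᶠ q in 𝓝 ((z, 0) : F × G), Ln (g q) (v q) → u q = v q := by
  obtain ⟨u, h1, h2⟩ := hN (F × G) _ g v (hK.prod 0)
    (by rintro ⟨z, _⟩ ⟨hz, rfl⟩; exact (h z hz).1)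
    (by rintro ⟨z, _⟩ ⟨hz, rfl⟩; exact (h z hz).2.1)
    (by rintro ⟨z, _⟩ ⟨hz, rfl⟩; exact (h z hz).2.2)
  refine ⟨u, fun z hz => ?_⟩
  have h3 := eventually_nhdsSet_iff_forall.1 h2 (z, 0) ⟨hz, rfl⟩
  exact ⟨h1 _ ⟨hz, rfl⟩, h3.self_of_nhds.2 (h z hz).2.2, h3.mono fun _ h => h.1,
    h3.mono fun _ h => h.2⟩

section
variable {F G : Type} [NormedAddCommGroup F] [NormedSpace ℂ F] [NormedAddCommGroup G]
  [NormedSpace ℂ G]

/-- forget the new parameter -/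
def pr (q : F × (G × ℂ)) : F × G := (q.1, q.2.1)

/-- new parameter zero -/
def inc : F × G →L[ℂ] F × (G × ℂ) :=
  (ContinuousLinearMap.fst ℂ F G).prod ((ContinuousLinearMap.snd ℂ F G).prod 0)

theorem an_pr (q : F × (G × ℂ)) : AnalyticAt ℂ pr q :=
  analyticAt_fst.prod (analyticAt_fst.comp analyticAt_snd)

theorem td_pr (z : F) : Tendsto (pr : F × (G × ℂ) → F × G) (𝓝 (z, 0)) (𝓝 (z, 0)) :=
  (an_pr (z, 0)).continuousAt

theorem td_inc (z : F) : Tendsto (inc : F × G → F × (G × ℂ)) (𝓝 (z, 0)) (𝓝 (z, 0)) :=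
  inc.continuous.continuousAt (x := (z, 0))

end

end AddX

open AddX in
theorem add_pf {ι : Type*} (T : Sys X ι) (hN : NormS) (hE : T.ExtS) : T.AddS := by
  intro F _ _ _ K K' g c i j v w a hK hK' hKK hv hw hl
  have a0 : ∀ z ∈ K, An c.S (z, 0) := fun z hz => c.an _ (c.sub z hz)
  obtain ⟨v₁, h1⟩ := norm0 hN hK (fun q => T.p i (c.S q)) (fun q => v q.1) fun z hz =>
    ⟨(T.hol i).comp (a0 z hz), AnalyticAt.comp (f := Prod.fst) (hv z hz) analyticAt_fst,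
      by rw [c.core z hz]; exact (hl z hz).1⟩
  obtain ⟨S₁, hS₁⟩ : ∃ S₁ : F × c.G → X, S₁ = fun q => T.s i (c.S q) (v₁ q) a := ⟨_, rfl⟩
  have a1 : ∀ z ∈ K, An S₁ (z, 0) := fun z hz => by
    rw [hS₁]
    exact (T.spr i).an (a0 z hz) (h1 z hz).1 analyticAt_const (h1 z hz).2.2.1
  have c1 : ∀ z ∈ K, S₁ (z, 0) = T.s i (g z) (v z) a := fun z hz => by
    rw [hS₁]
    simp only [c.core z hz, (h1 z hz).2.1]
  obtain ⟨w₁, h2⟩ := norm0 hN hK (fun q => T.p j (S₁ q)) (fun q => w q.1) fun z hz =>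
    ⟨(T.hol j).comp (a1 z hz), AnalyticAt.comp (f := Prod.fst) (hw z hz) analyticAt_fst,
      by rw [c1 z hz]; exact (hl z hz).2⟩
  obtain ⟨S₂, hS₂⟩ : ∃ S₂ : F × (c.G × ℂ) → X,
    S₂ = fun q => T.s j (S₁ (pr q)) (w₁ (pr q)) q.2.2 := ⟨_, rfl⟩
  have b1 : ∀ z ∈ K, An (fun q : F × (c.G × ℂ) => c.S (pr q)) (z, 0) ∧
      AnalyticAt ℂ (fun q : F × (c.G × ℂ) => v₁ (pr q)) (z, 0) ∧
      AnalyticAt ℂ (fun _ : F × (c.G × ℂ) => a) (z, 0) ∧
      ∀ᶠ q in 𝓝 ((z, 0) : F × (c.G × ℂ)), Ln (T.p i (c.S (pr q))) (v₁ (pr q)) := fun z hz =>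
    ⟨An.comp (φ := pr) (a0 z hz) (an_pr _), AnalyticAt.comp (f := pr) (h1 z hz).1 (an_pr _),
      analyticAt_const, (td_pr z).eventually (h1 z hz).2.2.1⟩
  have b2 : ∀ z ∈ K, An (fun q : F × (c.G × ℂ) => S₁ (pr q)) (z, 0) ∧
      AnalyticAt ℂ (fun q : F × (c.G × ℂ) => w₁ (pr q)) (z, 0) ∧
      AnalyticAt ℂ (fun q : F × (c.G × ℂ) => q.2.2) (z, 0) ∧
      ∀ᶠ q in 𝓝 ((z, 0) : F × (c.G × ℂ)), Ln (T.p j (S₁ (pr q))) (w₁ (pr q)) := fun z hz =>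
    ⟨An.comp (φ := pr) (a1 z hz) (an_pr _), AnalyticAt.comp (f := pr) (h2 z hz).1 (an_pr _),
      analyticAt_snd.comp analyticAt_snd, (td_pr z).eventually (h2 z hz).2.2.1⟩
  have a2 : ∀ z ∈ K, An S₂ (z, 0) := fun z hz => by
    rw [hS₂]
    exact (T.spr j).an (b2 z hz).1 (b2 z hz).2.1 (b2 z hz).2.2.1 (b2 z hz).2.2.2
  have k2 : ∀ r : F × c.G, Ln (T.p j (S₁ r)) (w₁ r) → S₂ (inc r) = S₁ r := fun r hr => by
    rw [hS₂]; exact (T.spr j).zero hr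
  have k1 : ∀ r : F × c.G, Ln (T.p i (c.S r)) (v₁ r) → Ln (T.p i (S₁ r)) (v₁ r) := fun r hr => by
    rw [hS₁]; exact (T.spr i).ln hr a
  obtain ⟨V, h3⟩ := norm0 hN hK (fun q => T.p i (S₂ q)) (fun q => v₁ (pr q)) fun z hz =>
    ⟨(T.hol i).comp (a2 z hz), (b1 z hz).2.1, by
      rw [show ((z, 0) : F × (c.G × ℂ)) = inc (z, 0) from rfl,
        k2 _ (h2 z hz).2.2.1.self_of_nhds]
      exact k1 _ (h1 z hz).2.2.1.self_of_nhds⟩
  have key : ∀ z ∈ K, ∀ᶠ r in 𝓝 ((z, 0) : F × c.G),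
      T.s i (S₂ (inc r)) (V (inc r)) (-a) = c.S r := fun z hz => by
    filter_upwards [(h1 z hz).2.2.1, (h2 z hz).2.2.1, (td_inc z).eventually (h3 z hz).2.2.2]
      with r r1 r2 r3
    rw [k2 r r2] at r3
    rw [k2 r r2, r3 (k1 r r1), hS₁]
    exact ((T.spr i).add a (-a) r1).trans (by rw [add_neg_cancel]; exact (T.spr i).zero r1)
  obtain ⟨O₁, o1, s1, -, e1⟩ := hE F K K' (c.G × ℂ) _ i _ _ hK hK' hKK b1
  obtain ⟨O₂, o2, s2, -, e2⟩ := hE F K K' (c.G × ℂ) _ j _ _ hK hK' hKK b2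
  obtain ⟨O₃, o3, s3, a3, e3⟩ := hE F K K' (c.G × ℂ) S₂ i V (fun _ => -a) hK hK' hKK
    fun z hz => ⟨a2 z hz, (h3 z hz).1, analyticAt_const, (h3 z hz).2.2.1⟩
  have cp : Continuous (pr : F × (c.G × ℂ) → F × c.G) :=
    continuous_iff_continuousAt.2 fun q => (an_pr q).continuousAt
  refine ⟨{ G := c.G × ℂ
            S := fun q => T.s i (S₂ q) (V q) (-a)
            O := O₁ ∩ O₂ ∩ O₃ ∩ pr ⁻¹' c.O
            op := ((o1.inter o2).inter o3).inter (c.op.preimage cp)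
            sub := fun z hz => ⟨⟨⟨s1 z hz, s2 z hz⟩, s3 z hz⟩, c.sub z hz⟩
            an := fun q hq => a3 q hq.1.2
            core := fun z hz => (key z hz).self_of_nhds.trans (c.core z hz)
            ch := fun η hη hO => ?_ }, fun α => (α, 0), (0, 1), fun z hz α => ?_,
    fun z hz => ?_⟩
  · refine (e3 η hη fun z hz => (hO z hz).1.2).trans ?_
    rw [hS₂]
    refine (e2 η hη fun z hz => (hO z hz).1.1.2).trans ?_
    rw [hS₁]
    refine (e1 η hη fun z hz => (hO z hz).1.1.1).trans ?_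
    exact c.ch (fun z => (η z).1) (fun z hz => analyticAt_fst.comp (hη z hz))
      fun z hz => (hO z hz).2
  · rw [← Dv_congr (key z hz)]
    have := Dv_comp (φ := (inc : F × c.G →L[ℂ] F × (c.G × ℂ))) (z := (z, 0)) (a3 _ (s3 z hz))
      (inc : F × c.G →L[ℂ] F × (c.G × ℂ)).differentiableAt (0, α)
    rw [ContinuousLinearMap.fderiv] at this
    exact this.symm
  · have ht : Tendsto (fun τ : ℂ => ((z, τ • ((0, 1) : c.G × ℂ)) : F × (c.G × ℂ))) (𝓝 0)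
        (𝓝 (z, 0)) := by
      have : Continuous fun τ : ℂ => ((z, τ • ((0, 1) : c.G × ℂ)) : F × (c.G × ℂ)) := by
        fun_prop
      simpa using this.tendsto 0
    filter_upwards [ht.eventually (h3 z hz).2.2.1] with τ hτ
    have e : S₂ (z, τ • ((0, 1) : c.G × ℂ)) = T.s j (T.s i (g z) (v z) a) (w z) τ := by
      rw [hS₂]
      simp only [pr, Prod.smul_mk, smul_zero, smul_eq_mul, mul_one, c1 z hz, (h2 z hz).2.1]
    refine ⟨V (z, τ • ((0, 1) : c.G × ℂ)), e ▸ hτ, ?_⟩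
    rw [← e]

end Vale.Agent.P290
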