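import Vale.Agent.P290.Stm

set_option linter.unusedSectionVars false

open Set Filter Topology Metric MeasureTheory
open scoped Manifold ContDiff LinearAlgebra.Projectivization

noncomputable section
namespace Vale.Agent.P290

variable {X : Type*} [MetricSpace X] [ChartedSpace E X] [IsManifold 𝓘(ℂ, E) ω X]

namespace AffX

variable {p : X → ℙ ℂ E} {l m : E →L[ℂ] ℂ} {q w : X → ℂ}

theorem ne_iff (l : E →L[ℂ] ℂ) {a : ℙ ℂ E} {v : E} (h : Ln a v) : l a.rep ≠ 0 ↔ l v ≠ 0 := by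
  obtain ⟨c, hc, e⟩ := h.exists_smul (ln_rep a)
  rw [e, map_smul, smul_eq_mul, mul_ne_zero_iff_left hc]

theorem div_eq (l m : E →L[ℂ] ℂ) {a : ℙ ℂ E} {v : E} (h : Ln a v) :
    m a.rep / l a.rep = m v / l v := by
  obtain ⟨c, hc, e⟩ := h.exists_smul (ln_rep a)
  rw [e, map_smul, map_smul, smul_eq_mul, smul_eq_mul, mul_div_mul_left _ _ hc]

theorem lt_iff (l m : E →L[ℂ] ℂ) {a : ℙ ℂ E} {v : E} (h : Ln a v) (R : ℝ) :
    R * ‖l a.rep‖ < ‖m a.rep‖ ↔ R * ‖l v‖ < ‖m v‖ := by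
  obtain ⟨c, hc, e⟩ := h.exists_smul (ln_rep a)
  rw [e, map_smul, map_smul, norm_smul, norm_smul, mul_left_comm,
    mul_lt_mul_iff_right₀ (norm_pos_iff.2 hc)]

theorem ev (hq : ∀ x, q x = m (p x).rep / l (p x).rep) {w : X → E} {x : X}
    (h : ∀ᶠ y in 𝓝 x, Ln (p y) (w y)) : q =ᶠ[𝓝 x] fun y => m (w y) / l (w y) :=
  h.mono fun y hy => (hq y).trans (div_eq l m hy)

theorem der (hq : ∀ x, q x = m (p x).rep / l (p x).rep) {w : X → E} {x : X} (hw : AnX w x)
    (h : ∀ᶠ y in 𝓝 x, Ln (p y) (w y)) (h0 : l (w x) ≠ 0) (ξ : E) :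
    l (w x) ^ 2 * Dx q x ξ = l (w x) * m (Dx w x ξ) - m (w x) * l (Dx w x ξ) := by
  have h1 : HasFDerivAt (fun u : E => m u * (l u)⁻¹) _ (w x) :=
    m.hasFDerivAt.mul ((hasDerivAt_inv h0).comp_hasFDerivAt (w x) l.hasFDerivAt)
  rw [Dx_congr (ev hq h)]
  simp only [div_eq_mul_inv]
  rw [Dx_post (φ := fun u : E => m u * (l u)⁻¹) h1.differentiableAt hw, h1.fderiv]
  simp only [ContinuousLinearMap.add_apply, ContinuousLinearMap.smul_apply, smul_eq_mul,
    Function.comp_apply]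
  field_simp
  ring

theorem prp [CompactSpace X] (hH : HamS X) {lam : X → ℂ} (hl : Form lam) (hp : HolP p)
    (hq : ∀ x, q x = m (p x).rep / l (p x).rep) (h : ∀ u : E, u ≠ 0 → l u = 0 → m u ≠ 0) :
    Prp {x | l (p x).rep ≠ 0} (Ham lam q) q := by
  have han : ∀ x ∈ {x | l (p x).rep ≠ 0}, AnX q x := fun x hx => by
    obtain ⟨w, h1, h2⟩ := hp x
    exact (AnX.post (φ := fun u : E => m u / l u) ((m.analyticAt _).div (l.analyticAt _)
      ((ne_iff l h2.self_of_nhds).1 hx)) h1).congr (ev hq h2)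
  refine ⟨isOpen_iff_mem_nhds.2 fun x hx => ?_, hH lam hl q _ han, han,
    fun x _ => by rw [← ham_spec (hl.ne x), det2_self, mul_zero], fun R => ?_⟩
  · obtain ⟨w, h1, h2⟩ := hp x
    filter_upwards [h2, (l.continuous.continuousAt.comp h1.cont).eventually_ne
      ((ne_iff l h2.self_of_nhds).1 hx)] with y a b using (ne_iff l a).2 b
  · have e : {x | x ∈ {x | l (p x).rep ≠ 0} ∧ ‖q x‖ ≤ R} =
        {x | R * ‖l (p x).rep‖ < ‖m (p x).rep‖}ᶜ := by
      ext x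
      simp only [mem_ofPred_eq, mem_compl_iff, not_lt, hq, norm_div]
      by_cases h0 : l (p x).rep = 0
      · simp [h0, h _ (p x).rep_nonzero h0]
      · rw [div_le_iff₀ (norm_pos_iff.2 h0), and_iff_right h0]
    rw [e]
    refine (isOpen_iff_mem_nhds.2 fun x hx => ?_).isClosed_compl.isCompact
    obtain ⟨w, h1, h2⟩ := hp x
    filter_upwards [h2, (continuousAt_const.mul
      (l.continuous.continuousAt.comp h1.cont).norm).eventually_lt
      (m.continuous.continuousAt.comp h1.cont).norm ((lt_iff l m h2.self_of_nhds R).1 hx)]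
      with y a b using (lt_iff l m a R).2 b

end AffX

theorem aff_pf [CompactSpace X] (hH : HamS X) : AffS X := by
  intro lam hl p hp
  have h2 : ∀ x, -((p x).rep.1 / (p x).rep.2) = (-ContinuousLinearMap.fst ℂ ℂ ℂ) (p x).rep /
      ContinuousLinearMap.snd ℂ ℂ ℂ (p x).rep := fun x => (neg_div _ _).symm
  refine ⟨AffX.prp (l := .fst ℂ ℂ ℂ) (m := .snd ℂ ℂ ℂ) hH hl hp (fun _ => rfl)
      fun u hu h => (ne_zero_iff.1 hu).resolve_left (not_not.2 h),
    AffX.prp hH hl hp h2 fun u hu h => neg_ne_zero.2 ((ne_zero_iff.1 hu).resolve_right (not_not.2 h)),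
    fun x w hw h ξ => ⟨fun h0 => ?_, fun h0 => (AffX.der h2 hw h h0 ξ).trans ?_⟩⟩
  · exact AffX.der (l := .fst ℂ ℂ ℂ) (m := .snd ℂ ℂ ℂ) (fun _ => rfl) hw h h0 ξ
  · simp only [det2, ContinuousLinearMap.neg_apply, ContinuousLinearMap.coe_fst',
      ContinuousLinearMap.coe_snd']
    ring

end Vale.Agent.P290
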