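import Vale.Agent.P290.Defs
import Vale.Agent.P274.SCV1

/-! Problem P290: working definitions and elementary facts. -/

set_option linter.unusedSectionVars false

open Set Filter Topology Metric
open scoped Manifold ContDiff LinearAlgebra.Projectivization

noncomputable section
namespace Vale.Agent.P290

abbrev E := ℂ × ℂ

scoped instance (priority := 50) fdComplete {F : Type*} [NormedAddCommGroup F] [NormedSpace ℂ F]
    [FiniteDimensional ℂ F] : CompleteSpace F := FiniteDimensional.complete ℂ F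

scoped instance (priority := 50) fdProper {F : Type*} [NormedAddCommGroup F] [NormedSpace ℂ F]
    [FiniteDimensional ℂ F] : ProperSpace F := FiniteDimensional.proper ℂ F

/-! ### lines in the plane -/

def det2 (u v : E) : ℂ := u.1 * v.2 - u.2 * v.1

/-- `v` is a nonzero vector on the line `l` -/
def Ln (l : ℙ ℂ E) (v : E) : Prop := ∃ h : v ≠ 0, l = Projectivization.mk ℂ v h

theorem det2_self (u : E) : det2 u u = 0 := by simp [det2, mul_comm]

theorem det2_swap (u v : E) : det2 u v = -det2 v u := by simp only [det2]; ring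

theorem det2_smul_left (c : ℂ) (u v : E) : det2 (c • u) v = c * det2 u v := by
  simp only [det2, Prod.smul_fst, Prod.smul_snd, smul_eq_mul]; ring

theorem det2_smul_right (c : ℂ) (u v : E) : det2 u (c • v) = c * det2 u v := by
  simp only [det2, Prod.smul_fst, Prod.smul_snd, smul_eq_mul]; ring

theorem det2_add_right (u v w : E) : det2 u (v + w) = det2 u v + det2 u w := by
  simp only [det2, Prod.fst_add, Prod.snd_add]; ring

theorem det2_add_left (u v w : E) : det2 (u + v) w = det2 u w + det2 v w := by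
  simp only [det2, Prod.fst_add, Prod.snd_add]; ring

theorem det2_map (A : E →L[ℂ] E) (u v : E) :
    det2 (A u) (A v) = det2 (A (1, 0)) (A (0, 1)) * det2 u v := by
  have e : ∀ ξ : E, A ξ = ξ.1 • A (1, 0) + ξ.2 • A (0, 1) := fun ξ => by
    rw [← map_smul, ← map_smul, ← map_add]; congr 1; ext <;> simp
  rw [e u, e v]
  simp only [det2, Prod.fst_add, Prod.snd_add, Prod.smul_fst, Prod.smul_snd, smul_eq_mul]
  ring

/-- Cramer's rule -/
theorem det2_cramer (a b x : E) : det2 x b • a + det2 a x • b = det2 a b • x := by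
  ext <;> simp only [det2, Prod.fst_add, Prod.snd_add, Prod.smul_fst, Prod.smul_snd,
    smul_eq_mul] <;> ring

theorem ne_zero_iff {v : E} : v ≠ 0 ↔ v.1 ≠ 0 ∨ v.2 ≠ 0 := by
  rw [Ne, Prod.ext_iff, not_and_or]; rfl

theorem exists_smul_of_det2 {v w : E} (hv : v ≠ 0) (h : det2 v w = 0) : ∃ c : ℂ, w = c • v := by
  unfold det2 at h
  rcases ne_zero_iff.1 hv with h1 | h1
  · refine ⟨w.1 / v.1, Prod.ext ?_ ?_⟩ <;> simp only [Prod.smul_fst, Prod.smul_snd, smul_eq_mul]
    · field_simp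
    · field_simp; linear_combination h
  · refine ⟨w.2 / v.2, Prod.ext ?_ ?_⟩ <;> simp only [Prod.smul_fst, Prod.smul_snd, smul_eq_mul]
    · field_simp; linear_combination -h
    · field_simp

theorem eq_of_det2 {u v : E} (h : ∀ ξ, det2 u ξ = det2 v ξ) : u = v := by
  have h1 := h (0, 1)
  have h2 := h (1, 0)
  simp only [det2, mul_one, mul_zero, sub_zero, zero_sub, neg_inj] at h1 h2
  exact Prod.ext h1 h2

theorem Ln.ne {l : ℙ ℂ E} {v : E} (h : Ln l v) : v ≠ 0 := h.1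

theorem ln_rep (l : ℙ ℂ E) : Ln l l.rep := ⟨l.rep_nonzero, l.mk_rep.symm⟩

theorem Ln.smul {l : ℙ ℂ E} {v : E} (h : Ln l v) {c : ℂ} (hc : c ≠ 0) : Ln l (c • v) := by
  obtain ⟨hv, rfl⟩ := h
  exact ⟨smul_ne_zero hc hv, ((Projectivization.mk_eq_mk_iff' ℂ _ _ _ _).2 ⟨c, rfl⟩).symm⟩

theorem Ln.exists_smul {l : ℙ ℂ E} {v w : E} (h : Ln l v) (h' : Ln l w) :
    ∃ c : ℂ, c ≠ 0 ∧ w = c • v := by
  obtain ⟨hv, rfl⟩ := h
  obtain ⟨hw, e⟩ := h'
  obtain ⟨c, hc⟩ := (Projectivization.mk_eq_mk_iff' ℂ _ _ _ _).1 e.symm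
  exact ⟨c, fun h0 => hw (by rw [← hc, h0, zero_smul]), hc.symm⟩

theorem Ln.det {l : ℙ ℂ E} {v w : E} (h : Ln l v) (h' : Ln l w) : det2 v w = 0 := by
  obtain ⟨c, -, rfl⟩ := h.exists_smul h'
  rw [det2_smul_right, det2_self, mul_zero]

theorem Ln.of_det {l : ℙ ℂ E} {v w : E} (h : Ln l v) (hw : w ≠ 0) (hd : det2 v w = 0) :
    Ln l w := by
  obtain ⟨c, rfl⟩ := exists_smul_of_det2 h.ne hd
  exact h.smul fun h0 => hw (by rw [h0, zero_smul])

theorem Ln.eq {l l' : ℙ ℂ E} {v : E} (h : Ln l v) (h' : Ln l' v) : l = l' := h.2.trans h'.2.symm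

/-! ### compact convex sets -/

section
variable {F G : Type*} [NormedAddCommGroup F] [NormedSpace ℂ F] [NormedAddCommGroup G]
  [NormedSpace ℂ G]

/-- compact convex sets -/
structure CK (K : Set F) : Prop where
  cpt : IsCompact K
  cvx : ∀ x ∈ K, ∀ y ∈ K, ∀ t : ℝ, 0 ≤ t → t ≤ 1 → x + (t : ℂ) • (y - x) ∈ K

theorem coe_smul' [Module ℝ F] [IsScalarTower ℝ ℂ F] (t : ℝ) (v : F) : (t : ℂ) • v = t • v :=
  algebraMap_smul ℂ t v

theorem CK.convex [Module ℝ F] [IsScalarTower ℝ ℂ F] {K : Set F} (h : CK K) : Convex ℝ K := by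
  rw [convex_iff_add_mem]
  intro x hx y hy a b ha hb hab
  have := h.cvx x hx y hy b hb (by linarith)
  rw [coe_smul'] at this
  rwa [show a = 1 - b by linarith, show (1 - b) • x + b • y = x + b • (y - x) by module]

theorem ck_of_convex [Module ℝ F] [IsScalarTower ℝ ℂ F] {K : Set F} (h : IsCompact K)
    (h' : Convex ℝ K) : CK K :=
  ⟨h, fun x hx y hy t h0 h1 => by
    rw [coe_smul']; exact h'.add_smul_sub_mem hx hy ⟨h0, h1⟩⟩

theorem ck_closedBall [FiniteDimensional ℂ F] (x : F) (r : ℝ) : CK (closedBall x r) :=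
  ck_of_convex (isCompact_closedBall x r) (convex_closedBall x r)

theorem CK.image {K : Set F} (h : CK K) (L : F →L[ℂ] G) : CK (L '' K) := by
  refine ⟨h.cpt.image L.continuous, ?_⟩
  rintro _ ⟨x, hx, rfl⟩ _ ⟨y, hy, rfl⟩ t h0 h1
  exact ⟨_, h.cvx x hx y hy t h0 h1, by simp⟩

theorem CK.prod {K : Set F} (h : CK K) (c : G) : CK (K ×ˢ ({c} : Set G)) := by
  refine ⟨h.cpt.prod isCompact_singleton, ?_⟩
  rintro ⟨x, a⟩ ⟨hx, rfl⟩ ⟨y, b⟩ ⟨hy, rfl⟩ t h0 h1
  exact ⟨h.cvx x hx y hy t h0 h1, by simp⟩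

/-- holomorphic maps to the projective line -/
def HolAt (g : F → ℙ ℂ E) (z : F) : Prop :=
  ∃ w : F → E, AnalyticAt ℂ w z ∧ ∀ᶠ y in 𝓝 z, Ln (g y) (w y)

theorem HolAt.eventually [CompleteSpace F] {g : F → ℙ ℂ E} {z : F} (h : HolAt g z) :
    ∀ᶠ y in 𝓝 z, HolAt g y := by
  obtain ⟨w, h1, h2⟩ := h
  filter_upwards [h1.eventually_analyticAt, h2.eventually_nhds] with y a b using ⟨w, a, b⟩

theorem analyticAt_det2 {u v : F → E} {z : F} (hu : AnalyticAt ℂ u z) (hv : AnalyticAt ℂ v z) :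
    AnalyticAt ℂ (fun y => det2 (u y) (v y)) z :=
  ((analyticAt_fst.comp hu).mul (analyticAt_snd.comp hv)).sub
    ((analyticAt_snd.comp hu).mul (analyticAt_fst.comp hv))

/-- two holomorphic lifts differ by a holomorphic factor -/
theorem exists_ratio {u v : F → E} {z : F} (hu : AnalyticAt ℂ u z) (hv : AnalyticAt ℂ v z)
    (h0 : u z ≠ 0) (h : ∀ᶠ y in 𝓝 z, det2 (u y) (v y) = 0) :
    ∃ k : F → ℂ, AnalyticAt ℂ k z ∧ ∀ᶠ y in 𝓝 z, v y = k y • u y := by
  rcases ne_zero_iff.1 h0 with h1 | h1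
  · have a1 := analyticAt_fst.comp hu
    refine ⟨fun y => (v y).1 / (u y).1, (analyticAt_fst.comp hv).div a1 h1, ?_⟩
    filter_upwards [h, a1.continuousAt.eventually_ne h1] with y hy hy1
    obtain ⟨c, hc⟩ := exists_smul_of_det2 (ne_zero_iff.2 (Or.inl hy1)) hy
    rw [hc, Prod.smul_fst, smul_eq_mul, mul_div_cancel_right₀ c (show (u y).1 ≠ 0 from hy1)]
  · have a1 := analyticAt_snd.comp hu
    refine ⟨fun y => (v y).2 / (u y).2, (analyticAt_snd.comp hv).div a1 h1, ?_⟩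
    filter_upwards [h, a1.continuousAt.eventually_ne h1] with y hy hy1
    obtain ⟨c, hc⟩ := exists_smul_of_det2 (ne_zero_iff.2 (Or.inr hy1)) hy
    rw [hc, Prod.smul_snd, smul_eq_mul, mul_div_cancel_right₀ c (show (u y).2 ≠ 0 from hy1)]

end

/-- a curve in the projective line with nonzero velocity at `0` -/
def Mov (c : ℂ → ℙ ℂ E) : Prop :=
  ∃ u : ℂ → E, AnalyticAt ℂ u 0 ∧ (∀ᶠ τ in 𝓝 0, Ln (c τ) (u τ)) ∧ det2 (u 0) (deriv u 0) ≠ 0

theorem Mov.congr {c c' : ℂ → ℙ ℂ E} (h : Mov c) (e : c =ᶠ[𝓝 0] c') : Mov c' := by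
  obtain ⟨u, h1, h2, h3⟩ := h
  refine ⟨u, h1, ?_, h3⟩
  filter_upwards [h2, e] with τ a b using b ▸ a

theorem Mov.det {c : ℂ → ℙ ℂ E} (h : Mov c) {v : ℂ → E} (hv : AnalyticAt ℂ v 0)
    (hl : ∀ᶠ τ in 𝓝 0, Ln (c τ) (v τ)) : det2 (v 0) (deriv v 0) ≠ 0 := by
  obtain ⟨u, h1, h2, h3⟩ := h
  obtain ⟨k, hk, he⟩ := exists_ratio hv h1 hl.self_of_nhds.ne
    ((hl.and h2).mono fun τ h => h.1.det h.2)
  have e : u =ᶠ[𝓝 0] fun y => k y • v y := he
  rw [e.deriv_eq, e.self_of_nhds, deriv_fun_smul hk.differentiableAt hv.differentiableAt,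
    det2_smul_left, det2_add_right, det2_smul_right, det2_smul_right, det2_self] at h3
  intro h0
  exact h3 (by rw [h0]; ring)

/-! ### analytic maps and manifolds -/

section
variable {X : Type*} [TopologicalSpace X] [ChartedSpace E X]
  {F G V : Type*} [NormedAddCommGroup F] [NormedSpace ℂ F] [NormedAddCommGroup G]
  [NormedSpace ℂ G] [NormedAddCommGroup V] [NormedSpace ℂ V]

/-- analytic maps into `X` -/
def An (f : F → X) (z : F) : Prop := ContMDiffAt 𝓘(ℂ, F) 𝓘(ℂ, E) ω f z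

/-- analytic functions on `X` -/
def AnX (w : X → V) (x : X) : Prop := ContMDiffAt 𝓘(ℂ, E) 𝓘(ℂ, V) ω w x

/-- analytic families of self maps -/
def AnP (φ : X × V → X) (q : X × V) : Prop :=
  ContMDiffAt (𝓘(ℂ, E).prod 𝓘(ℂ, V)) 𝓘(ℂ, E) ω φ q

/-- differential of a map into `X` -/
def Dv (f : F → X) (z : F) : F →L[ℂ] E := mfderiv 𝓘(ℂ, F) 𝓘(ℂ, E) f z

/-- differential of a function on `X` -/
def Dx (w : X → V) (x : X) : E →L[ℂ] V := mfderiv 𝓘(ℂ, E) 𝓘(ℂ, V) w x

/-- the preferred chart -/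
abbrev ch (x : X) : OpenPartialHomeomorph X E := chartAt E x

theorem cm_an {f : F → V} {z : F} (h : ContMDiffAt 𝓘(ℂ, F) 𝓘(ℂ, V) ω f z) : AnalyticAt ℂ f z :=
  (contMDiffAt_iff_contDiffAt.1 h).analyticAt

theorem an_cm [CompleteSpace V] {f : F → V} {z : F} (h : AnalyticAt ℂ f z) :
    ContMDiffAt 𝓘(ℂ, F) 𝓘(ℂ, V) ω f z := contMDiffAt_iff_contDiffAt.2 h.contDiffAt

theorem An.cont {f : F → X} {z : F} (h : An f z) : ContinuousAt f z := h.continuousAt

theorem AnX.cont {w : X → V} {x : X} (h : AnX w x) : ContinuousAt w x := h.continuousAt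

theorem AnP.cont {φ : X × V → X} {q : X × V} (h : AnP φ q) : ContinuousAt φ q := h.continuousAt

theorem An.md {f : F → X} {z : F} (h : An f z) : MDifferentiableAt 𝓘(ℂ, F) 𝓘(ℂ, E) f z :=
  h.mdifferentiableAt (by simp)

theorem AnX.md {w : X → V} {x : X} (h : AnX w x) : MDifferentiableAt 𝓘(ℂ, E) 𝓘(ℂ, V) w x :=
  h.mdifferentiableAt (by simp)

theorem An.congr {f g : F → X} {z : F} (h : An f z) (e : g =ᶠ[𝓝 z] f) : An g z :=
  h.congr_of_eventuallyEq e

theorem AnX.congr {w w' : X → V} {x : X} (h : AnX w x) (e : w' =ᶠ[𝓝 x] w) : AnX w' x :=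
  h.congr_of_eventuallyEq e

theorem AnP.congr {φ ψ : X × V → X} {q : X × V} (h : AnP φ q) (e : ψ =ᶠ[𝓝 q] φ) : AnP ψ q :=
  h.congr_of_eventuallyEq e

theorem an_const (x : X) (z : F) : An (fun _ => x) z := contMDiffAt_const

theorem An.comp [CompleteSpace F] {f : F → X} {φ : G → F} {z : G} (h : An f (φ z))
    (hφ : AnalyticAt ℂ φ z) : An (fun y => f (φ y)) z := ContMDiffAt.comp z h (an_cm hφ)

theorem AnX.comp {w : X → V} {f : F → X} {z : F} (h : AnX w (f z)) (hf : An f z) :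
    AnalyticAt ℂ (fun y => w (f y)) z := cm_an (ContMDiffAt.comp z h hf)

theorem AnX.post [CompleteSpace G] {w : X → V} {x : X} {φ : V → G} (hφ : AnalyticAt ℂ φ (w x))
    (h : AnX w x) : AnX (fun y => φ (w y)) x := ContMDiffAt.comp x (an_cm hφ) h

theorem AnX.pair {w : X → V} {w' : X → G} {x : X} (h : AnX w x) (h' : AnX w' x) :
    AnX (fun y => (w y, w' y)) x := h.prodMk_space h'

theorem AnP.comp [CompleteSpace V] {φ : X × V → X} {g : F → X} {a : F → V} {z : F}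
    (h : AnP φ (g z, a z)) (hg : An g z) (ha : AnalyticAt ℂ a z) : An (fun y => φ (g y, a y)) z :=
  ContMDiffAt.comp₂ h hg (an_cm ha)

/-- composition of families: `(x, b) ↦ φ (ψ (x, b), a (x, b))` -/
theorem AnP.compP {φ : X × V → X} {ψ : X × G → X} {a : X × G → V} {q : X × G}
    (h : AnP φ (ψ q, a q)) (hψ : AnP ψ q)
    (ha : ContMDiffAt (𝓘(ℂ, E).prod 𝓘(ℂ, G)) 𝓘(ℂ, V) ω a q) : AnP (fun r => φ (ψ r, a r)) q :=
  ContMDiffAt.comp₂ h hψ ha

theorem anP_fst (q : X × V) : AnP (Prod.fst : X × V → X) q := contMDiffAt_fst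

theorem cm_snd [CompleteSpace V] {a : G → V} {q : X × G} (h : AnalyticAt ℂ a q.2) :
    ContMDiffAt (𝓘(ℂ, E).prod 𝓘(ℂ, G)) 𝓘(ℂ, V) ω (fun r : X × G => a r.2) q :=
  ContMDiffAt.comp q (an_cm h) contMDiffAt_snd

theorem Dv_congr {f g : F → X} {z : F} (e : f =ᶠ[𝓝 z] g) : Dv f z = Dv g z := e.mfderiv_eq

theorem Dx_congr {w w' : X → V} {x : X} (e : w =ᶠ[𝓝 x] w') : Dx w x = Dx w' x := e.mfderiv_eq

theorem Dv_const (x : X) (z : F) : Dv (fun _ => x) z = 0 := mfderiv_const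

theorem Dv_comp {f : F → X} {φ : G → F} {z : G} (h : An f (φ z))
    (hφ : DifferentiableAt ℂ φ z) (a : G) :
    Dv (fun y => f (φ y)) z a = Dv f (φ z) (fderiv ℂ φ z a) := by
  have := mfderiv_comp_apply z h.md hφ.mdifferentiableAt a
  rw [mfderiv_eq_fderiv] at this
  exact this

theorem fderiv_comp_An {w : X → V} {f : F → X} {z : F} (h : AnX w (f z)) (hf : An f z) (a : F) :
    fderiv ℂ (fun y => w (f y)) z a = Dx w (f z) (Dv f z a) := by
  have := mfderiv_comp_apply z h.md hf.md a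
  rw [mfderiv_eq_fderiv] at this
  exact this

theorem Dx_post {w : X → V} {x : X} {φ : V → G} (hφ : DifferentiableAt ℂ φ (w x)) (h : AnX w x)
    (ξ : E) : Dx (fun y => φ (w y)) x ξ = fderiv ℂ φ (w x) (Dx w x ξ) := by
  have := mfderiv_comp_apply x hφ.mdifferentiableAt h.md ξ
  rw [mfderiv_eq_fderiv] at this
  exact this

variable [IsManifold 𝓘(ℂ, E) ω X]

theorem An.eventually {f : F → X} {z : F} (h : An f z) : ∀ᶠ y in 𝓝 z, An f y :=
  (contMDiffAt_iff_contMDiffAt_nhds (by simp)).1 h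

theorem AnX.eventually {w : X → V} {x : X} (h : AnX w x) : ∀ᶠ y in 𝓝 x, AnX w y :=
  (contMDiffAt_iff_contMDiffAt_nhds (by simp)).1 h

theorem AnP.eventually {φ : X × V → X} {q : X × V} (h : AnP φ q) : ∀ᶠ r in 𝓝 q, AnP φ r :=
  (contMDiffAt_iff_contMDiffAt_nhds (by simp)).1 h

theorem isOpen_An (f : F → X) : IsOpen {z | An f z} :=
  isOpen_iff_mem_nhds.2 fun _ h => An.eventually h

theorem an_symm (x : X) {y : E} (hy : y ∈ (ch x).target) : An (ch x).symm y :=
  contMDiffOn_chart_symm.contMDiffAt ((ch x).open_target.mem_nhds hy)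

theorem anX_ch (x : X) {y : X} (hy : y ∈ (ch x).source) : AnX (ch x) y :=
  contMDiffOn_chart.contMDiffAt ((ch x).open_source.mem_nhds hy)

theorem ev_symm {f : F → X} {z : F} {x : X} (hc : ContinuousAt f z) (hz : f z ∈ (ch x).source) :
    f =ᶠ[𝓝 z] fun y => (ch x).symm (ch x (f y)) := by
  filter_upwards [hc.preimage_mem_nhds ((ch x).open_source.mem_nhds hz)] with y hy
  exact ((ch x).left_inv hy).symm

theorem an_of_chart {f : F → X} {z : F} {x : X} (hc : ContinuousAt f z)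
    (hz : f z ∈ (ch x).source) (h : AnalyticAt ℂ (fun y => ch x (f y)) z) : An f z :=
  (An.comp (φ := fun y => ch x (f y)) (an_symm x ((ch x).map_source hz)) h).congr (ev_symm hc hz)

theorem anX_of_chart [CompleteSpace V] {w : X → V} {y x : X} (hy : y ∈ (ch x).source)
    (h : AnalyticAt ℂ (fun u => w ((ch x).symm u)) (ch x y)) : AnX w y := by
  refine (AnX.post h (anX_ch x hy)).congr ?_
  filter_upwards [(ch x).open_source.mem_nhds hy] with u hu
  rw [(ch x).left_inv hu]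

theorem anP_of_chart {φ : X × V → X} {q : X × V} {x : X} (hq : q.1 ∈ (ch x).source)
    (h : An (fun r : E × V => φ ((ch x).symm r.1, r.2)) (ch x q.1, q.2)) : AnP φ q := by
  have h1 : ContMDiffAt (𝓘(ℂ, E).prod 𝓘(ℂ, V)) 𝓘(ℂ, E × V) ω
      (fun r : X × V => (ch x r.1, r.2)) q :=
    (ContMDiffAt.comp q (anX_ch x hq) contMDiffAt_fst).prodMk_space contMDiffAt_snd
  refine AnP.congr (ContMDiffAt.comp (f := fun r : X × V => (ch x r.1, r.2)) q h h1) ?_
  filter_upwards [continuous_fst.continuousAt.preimage_mem_nhds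
    ((ch x).open_source.mem_nhds hq)] with r hr
  show φ r = φ ((ch x).symm (ch x r.1), r.2)
  rw [(ch x).left_inv hr]

/-- the differential read in a chart -/
theorem Dv_chart {f : F → X} {z : F} {x : X} (h : An f z) (hz : f z ∈ (ch x).source) (a : F) :
    Dv f z a = Dv (ch x).symm (ch x (f z)) (fderiv ℂ (fun y => ch x (f y)) z a) := by
  rw [Dv_congr (ev_symm h.cont hz)]
  exact Dv_comp (φ := fun y => ch x (f y)) (an_symm x ((ch x).map_source hz))
    ((anX_ch x hz).comp h).differentiableAt a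

theorem Dx_Dv_chart (x : X) {y : E} (hy : y ∈ (ch x).target) (ξ : E) :
    Dx (ch x) ((ch x).symm y) (Dv (ch x).symm y ξ) = ξ := by
  rw [← fderiv_comp_An (anX_ch x ((ch x).map_target hy)) (an_symm x hy)]
  have : (fun u => ch x ((ch x).symm u)) =ᶠ[𝓝 y] id := by
    filter_upwards [(ch x).open_target.mem_nhds hy] with u hu
    exact (ch x).right_inv hu
  rw [this.fderiv_eq, fderiv_id]; rfl

theorem Dv_symm_bij (x : X) {y : E} (hy : y ∈ (ch x).target) :
    Function.Bijective (Dv (ch x).symm y) := by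
  have h : Function.Injective (Dv (ch x).symm y) :=
    Function.LeftInverse.injective (Dx_Dv_chart x hy)
  exact ⟨h, LinearMap.surjective_of_injective (f := (Dv (ch x).symm y).toLinearMap) h⟩

theorem an_of_mdiff [FiniteDimensional ℂ F] {f : F → X} {z : F}
    (h : ∀ᶠ y in 𝓝 z, MDifferentiableAt 𝓘(ℂ, F) 𝓘(ℂ, E) f y) : An f z := by
  have hc := h.self_of_nhds.continuousAt
  have hz := mem_chart_source E (f z)
  refine an_of_chart hc hz (P274.analyticAt_of_eventually_differentiableAt ?_)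
  filter_upwards [h, hc.preimage_mem_nhds ((ch (f z)).open_source.mem_nhds hz)] with y h1 h2
  exact mdifferentiableAt_iff_differentiableAt.1 ((anX_ch (f z) h2).md.comp y h1)

theorem anX_of_mdiff [FiniteDimensional ℂ V] {w : X → V} {x : X}
    (h : ∀ᶠ y in 𝓝 x, MDifferentiableAt 𝓘(ℂ, E) 𝓘(ℂ, V) w y) : AnX w x := by
  have hx := mem_chart_source E x
  refine anX_of_chart hx (P274.analyticAt_of_eventually_differentiableAt ?_)
  have ht := (ch x).map_source hx
  have hc : Tendsto (ch x).symm (𝓝 (ch x x)) (𝓝 x) := (ch x).tendsto_symm hx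
  filter_upwards [hc.eventually h, (ch x).open_target.mem_nhds ht] with y h1 h2
  exact mdifferentiableAt_iff_differentiableAt.1 (h1.comp y (an_symm x h2).md)

end

end Vale.Agent.P290
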