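import Vale.Agent.P290.Stm

set_option linter.unusedSectionVars false

open Set Filter Topology Metric MeasureTheory
open scoped Manifold ContDiff LinearAlgebra.Projectivization

noncomputable section
namespace Vale.Agent.P290

namespace BezX

variable {F : Type} [NormedAddCommGroup F] [NormedSpace ℂ F] [FiniteDimensional ℂ F]

theorem sep {K : Set F} (hK : CK K) {a : F} (ha : a ∉ K) :
    ∃ l : F →L[ℂ] ℂ, ∀ z ∈ K, l a - l z ≠ 0 := by
  obtain ⟨l, u, h1, h2⟩ := RCLike.geometric_hahn_banach_point_closed (𝕜 := ℂ) hK.convex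
    hK.cpt.isClosed ha
  refine ⟨l, fun z hz h => ?_⟩
  have := h2 z hz
  rw [← sub_eq_zero.1 h] at this
  linarith

/-- restrictions of polynomials -/
def A0 (K : Set F) : Subalgebra ℂ C(K, ℂ) where
  carrier := {f | ∃ P ∈ Poly F, ∀ z : K, f z = P z}
  mul_mem' := by
    rintro f g ⟨P, hP, h⟩ ⟨Q, hQ, h'⟩
    exact ⟨P * Q, mul_mem hP hQ, fun z => by simp [h, h']⟩
  add_mem' := by
    rintro f g ⟨P, hP, h⟩ ⟨Q, hQ, h'⟩
    exact ⟨P + Q, add_mem hP hQ, fun z => by simp [h, h']⟩
  algebraMap_mem' c := ⟨algebraMap ℂ _ c, Subalgebra.algebraMap_mem _ c, fun z => by simp⟩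

/-- their closure -/
abbrev A (K : Set F) [CompactSpace K] : Subalgebra ℂ C(K, ℂ) := (A0 K).topologicalClosure

theorem isClosed_A (K : Set F) [CompactSpace K] : IsClosed (A K : Set C(K, ℂ)) :=
  Subalgebra.isClosed_topologicalClosure _

instance (K : Set F) [CompactSpace K] : CompleteSpace (A K) := (isClosed_A K).completeSpace_coe

theorem exists_emb (hR : RungeS) {K : Set F} [CompactSpace K] (hK : CK K) {h : F → ℂ}
    (hh : AnalyticOnNhd ℂ h K) : ∃ f : A K, ∀ z : K, f.1 z = h z := by
  refine ⟨⟨⟨fun z => h z, hh.continuousOn.domRestrict⟩, ?_⟩, fun _ => rfl⟩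
  change _ ∈ closure (A0 K : Set C(K, ℂ))
  rw [Metric.mem_closure_iff]
  intro ε hε
  obtain ⟨P, hP, h1⟩ := hR F K h hK hh ε hε
  have hc : Continuous P := continuous_iff_continuousAt.2 fun z => (Poly.analytic hP z).continuousAt
  refine ⟨⟨fun z => P z, hc.comp continuous_subtype_val⟩, ⟨P, hP, fun _ => rfl⟩, ?_⟩
  rw [ContinuousMap.dist_lt_iff hε]
  intro z
  rw [dist_comm, dist_eq_norm]
  exact h1 z z.2

/-- the restriction of a polynomial -/
def emb (K : Set F) [CompactSpace K] (P : F → ℂ) (hP : P ∈ Poly F) : A K :=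
  ⟨⟨fun z => P z, (continuous_iff_continuousAt.2 fun z =>
    (Poly.analytic hP z).continuousAt).comp continuous_subtype_val⟩,
    (A0 K).le_topologicalClosure ⟨P, hP, fun _ => rfl⟩⟩

theorem lin_mem (l : F →L[ℂ] ℂ) : (l : F → ℂ) ∈ Poly F := Algebra.subset_adjoin ⟨l, rfl⟩

/-- a character is the evaluation at a point of `K` -/
theorem char_eval (hR : RungeS) {K : Set F} [CompactSpace K] (hK : CK K)
    (χ : WeakDual.characterSpace ℂ (A K)) : ∃ a : K, ∀ f : A K, χ f = f.1 a := by
  let φ : Module.Dual ℂ (Module.Dual ℂ F) :=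
    { toFun := fun l => χ (emb K _ (lin_mem (LinearMap.toContinuousLinearMap l)))
      map_add' := fun l l' => by
        rw [← map_add]
        congr 1
      map_smul' := fun c l => by
        rw [RingHom.id_apply, ← map_smul]
        congr 1 }
  set a := (Module.evalEquiv ℂ F).symm φ with ha
  have h1 : ∀ l : F →L[ℂ] ℂ, χ (emb K _ (lin_mem l)) = l a := fun l =>
    (Module.apply_evalEquiv_symm_apply ℂ F (l : F →ₗ[ℂ] ℂ) φ).symm
  have h2 : ∀ P (hP : P ∈ Poly F), χ (emb K P hP) = P a := by
    intro P hP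
    induction hP using Algebra.adjoin_induction with
    | mem x hx =>
      obtain ⟨l, rfl⟩ := hx
      exact h1 l
    | algebraMap c =>
      have : emb K _ (Subalgebra.algebraMap_mem (Poly F) c) = algebraMap ℂ _ c := by
        ext z
        simp [emb]
      exact (congrArg χ this).trans (by rw [AlgHomClass.commutes]; simp)
    | add x y hx hy ix iy =>
      have : emb K _ (add_mem hx hy) = emb K x hx + emb K y hy := rfl
      exact (congrArg χ this).trans (by rw [map_add, ix, iy]; rfl)
    | mul x y hx hy ix iy =>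
      have : emb K _ (mul_mem hx hy) = emb K x hx * emb K y hy := rfl
      exact (congrArg χ this).trans (by rw [map_mul, ix, iy]; rfl)
  have haK : a ∈ K := by
    by_contra hn
    obtain ⟨l, hl⟩ := sep hK hn
    have hP : (fun z => l a - l z) ∈ Poly F :=
      sub_mem (Subalgebra.algebraMap_mem (Poly F) (l a)) (lin_mem l)
    obtain ⟨f, hf⟩ := exists_emb hR hK (h := fun z => (l a - l z)⁻¹) fun z hz =>
      (Poly.analytic hP z).inv (hl z hz)
    have e : emb K _ hP * f = 1 := by
      ext z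
      change (l a - l z) * f.1 z = 1
      rw [hf, mul_inv_cancel₀ (hl z z.2)]
    have := congrArg χ e
    rw [map_mul, h2, map_one, sub_self, zero_mul] at this
    exact zero_ne_one this
  refine ⟨⟨a, haK⟩, fun f => ?_⟩
  have hc : IsClosed {f : A K | χ f = f.1 ⟨a, haK⟩} :=
    isClosed_eq (map_continuous χ) ((continuous_eval_const _).comp continuous_subtype_val)
  have hc' := (isClosed_A K).isClosedEmbedding_subtypeVal.isClosedMap _ hc
  have hs : (A0 K : Set C(K, ℂ)) ⊆ Subtype.val '' {f : A K | χ f = f.1 ⟨a, haK⟩} := by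
    rintro f ⟨P, hP, h⟩
    refine ⟨emb K P hP, h2 P hP, ?_⟩
    ext z
    exact (h z).symm
  obtain ⟨f', hf', e⟩ := closure_minimal hs hc' f.2
  rw [← Subtype.val_injective e]
  exact hf'

end BezX

open BezX

theorem bez_pf (hR : RungeS) : BezS := by
  intro F _ _ _ K J _ g hK hg h0
  have : CompactSpace K := isCompact_iff_compactSpace.1 hK.cpt
  choose G hG using fun j => exists_emb hR hK (hg j)
  have htop : Ideal.span (range G) = ⊤ := by
    by_contra hn
    obtain ⟨M, hM, hle⟩ := Ideal.exists_le_maximal _ hn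
    obtain ⟨a, ha⟩ := char_eval hR hK M.toCharacterSpace
    obtain ⟨j, hj⟩ := h0 a a.2
    apply hj
    rw [← hG, ← ha]
    exact M.toCharacterSpace_apply_eq_zero_of_mem (hle (Ideal.subset_span ⟨j, rfl⟩))
  obtain ⟨c, hc⟩ := Ideal.mem_span_range_iff_exists_fun.1 ((Ideal.eq_top_iff_one _).1 htop)
  have hcl : (fun j => (c j).1) ∈ closure (Set.pi univ fun _ : J => (A0 K : Set C(K, ℂ))) := by
    rw [closure_pi_set]
    exact fun j _ => (c j).2
  have hΦ : Continuous fun p : J → C(K, ℂ) => ‖∑ j, p j * (G j).1 - 1‖ := by fun_prop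
  obtain ⟨p, hp1, hp2⟩ := mem_closure_iff.1 hcl _ (isOpen_lt hΦ continuous_const)
    (show ‖∑ j, (c j).1 * (G j).1 - 1‖ < (1 : ℝ) by
      have := congrArg Subtype.val hc
      push_cast at this
      rw [this]
      simp)
  choose P hP hPe using fun j => hp2 j (mem_univ j)
  have hS : AnalyticOnNhd ℂ (fun z => ∑ j, P j z * g j z) K := fun z hz =>
    Finset.analyticAt_fun_sum _ fun j _ => (Poly.analytic (hP j) z).mul (hg j z hz)
  have hS0 : ∀ z ∈ K, ∑ j, P j z * g j z ≠ 0 := by
    intro z hz h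
    have h1 := ((∑ j, p j * (G j).1 - 1).norm_coe_le_norm ⟨z, hz⟩).trans_lt hp1
    simp only [ContinuousMap.sub_apply, ContinuousMap.sum_apply, ContinuousMap.mul_apply, hPe, hG,
      h, ContinuousMap.one_apply] at h1
    simp at h1
  refine ⟨fun j z => P j z / ∑ j, P j z * g j z, fun j z hz =>
    (Poly.analytic (hP j) z).div (hS z hz) (hS0 z hz), ?_⟩
  rw [eventually_nhdsSet_iff_forall]
  intro z hz
  filter_upwards [(hS z hz).continuousAt.eventually_ne (hS0 z hz)] with y hy
  simp only [div_mul_eq_mul_div]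
  rw [← Finset.sum_div, div_self hy]

end Vale.Agent.P290
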