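import Mathlib

/-! Problem P290: definitions used in the statement. Complex surfaces are modelled on `ℂ × ℂ`. -/

open Set
open scoped Manifold LinearAlgebra.Projectivization

namespace Vale.Agent.P290

/-- The convex approximation property. -/
def IsOka (X : Type*) [MetricSpace X] [ChartedSpace (ℂ × ℂ) X] : Prop :=
  ∀ m : ℕ, 1 ≤ m → ∀ K : Set (Fin m → ℂ), K.Nonempty → IsCompact K → Convex ℝ K →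
    ∀ U : Set (Fin m → ℂ), IsOpen U → K ⊆ U → ∀ f : (Fin m → ℂ) → X,
      MDifferentiableOn 𝓘(ℂ, Fin m → ℂ) 𝓘(ℂ, ℂ × ℂ) f U → ∀ ε : ℝ, 0 < ε →
        ∃ F : (Fin m → ℂ) → X, MDifferentiable 𝓘(ℂ, Fin m → ℂ) 𝓘(ℂ, ℂ × ℂ) F ∧
          ∀ z ∈ K, dist (F z) (f z) < ε

variable {X : Type*} [TopologicalSpace X] [ChartedSpace (ℂ × ℂ) X]

/-- A 2-form whose coefficients in every chart are holomorphic. -/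
def IsHolForm (σ : ∀ x : X, TangentSpace 𝓘(ℂ, ℂ × ℂ) x [⋀^Fin 2]→L[ℂ] ℂ) : Prop :=
  ∀ (x : X) (u v : ℂ × ℂ), DifferentiableOn ℂ (fun y => σ ((chartAt (ℂ × ℂ) x).symm y)
    ![mfderiv 𝓘(ℂ, ℂ × ℂ) 𝓘(ℂ, ℂ × ℂ) (chartAt (ℂ × ℂ) x).symm y u,
      mfderiv 𝓘(ℂ, ℂ × ℂ) 𝓘(ℂ, ℂ × ℂ) (chartAt (ℂ × ℂ) x).symm y v]) (chartAt (ℂ × ℂ) x).target

/-- On the open set `W` the map `p` is given by holomorphic homogeneous coordinates `w`. -/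
def IsLift (p : X → ℙ ℂ (ℂ × ℂ)) (W : Set X) (w : X → ℂ × ℂ) : Prop :=
  IsOpen W ∧ MDifferentiableOn 𝓘(ℂ, ℂ × ℂ) 𝓘(ℂ, ℂ × ℂ) w W ∧
    ∀ y ∈ W, ∃ h : w y ≠ 0, p y = Projectivization.mk ℂ (w y) h

/-- Holomorphic maps to the projective line. -/
def IsHolMap (p : X → ℙ ℂ (ℂ × ℂ)) : Prop := ∀ x, ∃ W w, x ∈ W ∧ IsLift p W w

/-- The differential of `p = [w₀ : w₁]` at `x` is not zero: `w₀ dw₁ - w₁ dw₀ ≠ 0` at `x`. -/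
def IsSubmersiveAt (p : X → ℙ ℂ (ℂ × ℂ)) (x : X) : Prop :=
  ∃ W w, x ∈ W ∧ IsLift p W w ∧ ∃ (ξ : TangentSpace 𝓘(ℂ, ℂ × ℂ) x) (d : ℂ × ℂ),
    d = mfderiv 𝓘(ℂ, ℂ × ℂ) 𝓘(ℂ, ℂ × ℂ) w x ξ ∧ (w x).1 * d.2 - (w x).2 * d.1 ≠ 0

end Vale.Agent.P290
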