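import Vale.Agent.P290.Stm

set_option linter.unusedSectionVars false

open Set Filter Topology Metric MeasureTheory
open scoped Manifold ContDiff LinearAlgebra.Projectivization

noncomputable section
namespace Vale.Agent.P290

variable {X : Type*} [MetricSpace X] [ChartedSpace E X] [IsManifold 𝓘(ℂ, E) ω X]

namespace DomX

/-- velocity of `q` along a curve through `y`, read in a lift -/
theorem mov_iff {q : X → ℙ ℂ E} {γ : ℂ → X} {y : X} (hγ : An γ 0) (h0 : γ 0 = y) {u : X → E}
    (hu : AnX u y) (hl : ∀ᶠ z in 𝓝 y, Ln (q z) (u z)) :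
    (Mov fun τ => q (γ τ)) ↔ det2 (u y) (Dx u y (Dv γ 0 1)) ≠ 0 := by
  subst h0
  have ha : AnalyticAt ℂ (fun τ => u (γ τ)) 0 := hu.comp hγ
  have he : ∀ᶠ τ in 𝓝 (0 : ℂ), Ln (q (γ τ)) (u (γ τ)) := hγ.cont.eventually hl
  have hd : deriv (fun τ => u (γ τ)) 0 = Dx u (γ 0) (Dv γ 0 1) := by
    rw [← fderiv_comp_An hu hγ 1]; rfl
  constructor
  · intro h
    have := Mov.det h ha he
    rwa [hd] at this
  · intro h
    exact ⟨fun τ => u (γ τ), ha, he, by rwa [hd]⟩

/-- symmetry of the bracket -/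
theorem mov_swap {lam : X → ℂ} {p q : X → ℙ ℂ E} {s t : X → E → ℂ → X} (hp : HolP p) (hq : HolP q)
    (hs : IsSpray lam p s) (ht : IsSpray lam q t) {y : X} {v w : E} (hv : Ln (p y) v)
    (hw : Ln (q y) w) (h : Mov fun τ => q (s y v τ)) : Mov fun τ => p (t y w τ) := by
  obtain ⟨u, hu1, hu2, rfl⟩ := hp.lift hv
  obtain ⟨u', hu1', hu2', rfl⟩ := hq.lift hw
  rw [mov_iff (hs.an_curve hv 0) (hs.zero hv) hu1' hu2'] at h
  rw [mov_iff (ht.an_curve hw 0) (ht.zero hw) hu1 hu2]
  rw [← ht.der y u' hu1' hu2'] at h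
  rw [← hs.der y u hu1 hu2, det2_swap]
  intro h0
  apply h
  linear_combination -h0

end DomX

theorem dom_pf {ι : Type*} (hC : CstS) : DomS X ι := by
  intro lam p s _ hp hs hfin hsub x
  obtain ⟨i, w, hw1, hw2, ξ, hξ⟩ := hsub x
  have hv : Ln (p i x) (w x) := hw2.self_of_nhds
  by_contra hcon
  have hno : ∀ j a, ∃ w', Ln (p j (s i x (w x) a)) w' ∧
      ¬ Mov fun τ => p i (s j (s i x (w x) a) w' τ) := by
    intro j a
    by_contra h
    refine hcon ⟨i, w x, j, a, hv, fun w' hw' => ?_⟩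
    by_contra h'
    exact h ⟨w', hw', h'⟩
  have hc : ∀ j a, p j (s i x (w x) a) = p j x := by
    intro j a
    have := hC (fun a => p j (s i x (w x) a)) (fun a => (hp j).comp ((hs i).an_curve hv a))
      (fun a hm => by
        obtain ⟨w', h1, h2⟩ := hno j a
        refine h2 (DomX.mov_swap (hp i) (hp j) (hs i) (hs j) ((hs i).ln hv a) h1 ?_)
        exact hm.congr (Eventually.of_forall fun τ => by
          show p j (s i x (w x) (a + τ)) = p j (s i (s i x (w x) a) (w x) τ)
          rw [(hs i).add a τ hv])) a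
    simpa only [(hs i).zero hv] using this
  have hcont : Continuous (s i x (w x)) :=
    continuous_iff_continuousAt.2 fun a => ((hs i).an_curve hv a).cont
  have hk : s i x (w x) = fun _ => x := by
    funext a
    have := isPreconnected_univ.constant_of_mapsTo (hfin x).isDiscrete hcont.continuousOn
      (fun b _ => fun j => hc j b) (mem_univ a) (mem_univ 0)
    rw [this, (hs i).zero hv]
  apply hξ
  rw [← (hs i).der x w hw1 hw2, hk, Dv_const]
  simp [det2]

end Vale.Agent.P290
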