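import Vale.Agent.P290.Stm

set_option linter.unusedSectionVars false

open Set Filter Topology Metric MeasureTheory
open scoped Manifold ContDiff LinearAlgebra.Projectivization

noncomputable section
namespace Vale.Agent.P290

variable {X : Type*} [MetricSpace X] [ChartedSpace E X] [IsManifold 𝓘(ℂ, E) ω X]

namespace DomZX

variable {F : Type} [NormedAddCommGroup F] [NormedSpace ℂ F] [FiniteDimensional ℂ F]

/-- moving is an open condition in holomorphic families -/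
theorem mov_open {c : F × ℂ → ℙ ℂ E} {z₀ : F} (h : HolAt c (z₀, 0))
    (hm : Mov fun τ => c (z₀, τ)) : ∀ᶠ z in 𝓝 z₀, Mov fun τ => c (z, τ) := by
  obtain ⟨U, hU, hl⟩ := h
  have hin : ∀ z : F, AnalyticAt ℂ (fun τ : ℂ => (z, τ)) 0 := fun z =>
    analyticAt_const.prod analyticAt_id
  have hder : ∀ z, AnalyticAt ℂ U (z, 0) →
      deriv (fun τ => U (z, τ)) 0 = fderiv ℂ U (z, 0) (0, 1) := by
    intro z hz
    have h1 : HasDerivAt (fun τ : ℂ => (z, τ)) ((0 : F), (1 : ℂ)) 0 :=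
      (hasDerivAt_const (0 : ℂ) z).prodMk (hasDerivAt_id 0)
    exact (hz.differentiableAt.hasFDerivAt.comp_hasDerivAt (0 : ℂ) h1).deriv
  have h0 : det2 (U (z₀, 0)) (fderiv ℂ U (z₀, 0) (0, 1)) ≠ 0 := by
    have := hm.det (v := fun τ => U (z₀, τ)) (hU.comp_of_eq (hin z₀) rfl)
      ((hin z₀).continuousAt.eventually hl)
    rwa [hder z₀ hU] at this
  have hc : AnalyticAt ℂ (fun q => det2 (U q) (fderiv ℂ U q (0, 1))) (z₀, 0) :=
    analyticAt_det2 hU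
      (((ContinuousLinearMap.apply ℂ E ((0 : F), (1 : ℂ))).analyticAt _).comp hU.fderiv)
  have hz : ContinuousAt (fun z : F => (z, (0 : ℂ))) z₀ := by fun_prop
  filter_upwards [hz.eventually (hc.continuousAt.eventually_ne h0),
    hz.eventually hU.eventually_analyticAt, hz.eventually hl.eventually_nhds] with z a b d
  exact ⟨fun τ => U (z, τ), b.comp_of_eq (hin z) rfl, (hin z).continuousAt.eventually d,
    by rw [hder z b]; exact a⟩

theorem dv_line {G : Type} [NormedAddCommGroup G] [NormedSpace ℂ G] [FiniteDimensional ℂ G]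
    {S : F × G → X} {z : F} (h : An S (z, 0)) (e : G) :
    An (fun τ : ℂ => S (z, τ • e)) 0 ∧
      Dv (fun τ : ℂ => S (z, τ • e)) 0 1 = Dv S (z, 0) (0, e) := by
  have h1 : AnalyticAt ℂ (fun τ : ℂ => (z, τ • e)) 0 :=
    analyticAt_const.prod (analyticAt_id.smul analyticAt_const)
  have h' : An S ((fun τ : ℂ => (z, τ • e)) 0) := by simpa using h
  refine ⟨An.comp (φ := fun τ : ℂ => (z, τ • e)) h' h1, ?_⟩
  rw [Dv_comp (φ := fun τ : ℂ => (z, τ • e)) h' h1.differentiableAt]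
  have h2 : HasDerivAt (fun τ : ℂ => (z, τ • e)) ((0 : F), e) 0 := by
    have := (hasDerivAt_const (0 : ℂ) z).prodMk ((hasDerivAt_id (0 : ℂ)).smul_const e)
    simpa using this
  have h3 : fderiv ℂ (fun τ : ℂ => (z, τ • e)) 0 1 = ((0 : F), e) := h2.deriv
  rw [h3]
  simp

end DomZX

open DomZX in
theorem domZ_pf {ι : Type*} (T : Sys X ι) (hL : LiftS) (hA : T.AddS) : DomZS X := by
  intro F _ _ _ K K' g hK hK' hKK hg z₀ hz₀
  obtain ⟨i, v₀, j, a, hv₀, hmov⟩ := T.dom (g z₀)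
  obtain ⟨v₁, hv₁, hl₁⟩ := hL F K (fun z => T.p i (g z)) hK fun z hz => (T.hol i).comp (hg z hz)
  have hl₁' : ∀ z ∈ K, ∀ᶠ y in 𝓝 z, Ln (T.p i (g y)) (v₁ y) := fun z hz =>
    hl₁.filter_mono (nhds_le_nhdsSet hz)
  obtain ⟨k, hk, hkv⟩ := (hl₁' z₀ hz₀).self_of_nhds.exists_smul hv₀
  set v : F → E := fun z => k • v₁ z with hvdef
  have hv : AnalyticOnNhd ℂ v K := fun z hz =>
    (analyticAt_const (v := k)).smul (hv₁ z hz)
  have hl : ∀ z ∈ K, ∀ᶠ y in 𝓝 z, Ln (T.p i (g y)) (v y) := fun z hz =>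
    (hl₁' z hz).mono fun y hy => hy.smul hk
  have hvz : v z₀ = v₀ := hkv.symm
  set y : F → X := fun z => T.s i (g z) (v z) a with hydef
  have hy : ∀ z ∈ K, An y z := fun z hz =>
    (T.spr i).an (hg z hz) (hv z hz) analyticAt_const (hl z hz)
  obtain ⟨w, hw, hlw⟩ := hL F K (fun z => T.p j (y z)) hK fun z hz => (T.hol j).comp (hy z hz)
  have hlw' : ∀ z ∈ K, ∀ᶠ u in 𝓝 z, Ln (T.p j (y u)) (w u) := fun z hz =>
    hlw.filter_mono (nhds_le_nhdsSet hz)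
  have hΓ : An (fun q : F × ℂ => T.s j (y q.1) (w q.1) q.2) (z₀, 0) :=
    (T.spr j).an (g := fun q : F × ℂ => y q.1) (v := fun q : F × ℂ => w q.1)
      (a := fun q : F × ℂ => q.2) (An.comp (φ := Prod.fst) (hy z₀ hz₀) analyticAt_fst)
      ((hw z₀ hz₀).comp_of_eq analyticAt_fst rfl) analyticAt_snd
      ((continuous_fst.tendsto ((z₀, 0) : F × ℂ)).eventually (hlw' z₀ hz₀))
  have hm0 : Mov fun τ => T.p i (T.s j (y z₀) (w z₀) τ) := by
    have h1 := (hlw' z₀ hz₀).self_of_nhds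
    simp only [hydef, hvz] at h1 ⊢
    exact hmov _ h1
  have ht := mov_open (c := fun q : F × ℂ => T.p i (T.s j (y q.1) (w q.1) q.2))
    ((T.hol i).comp hΓ) hm0
  refine ⟨_, ht, fun c => ?_⟩
  obtain ⟨c₁, J₁, e₁, hJ₁, he₁⟩ := hA F K K' g c i i v v 0 hK hK' hKK hv hv fun z hz =>
    ⟨(hl z hz).self_of_nhds, (T.spr i).ln (hl z hz).self_of_nhds 0⟩
  obtain ⟨c₂, J₂, e₂, hJ₂, he₂⟩ := hA F K K' g c₁ i j v w a hK hK' hKK hv hw fun z hz =>
    ⟨(hl z hz).self_of_nhds, (hlw' z hz).self_of_nhds⟩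
  refine ⟨c₂, fun z hz ⟨α, β, h⟩ => ⟨J₂ (J₁ α), J₂ (J₁ β), ?_⟩, fun z hz hzt => ?_⟩
  · rw [hJ₂ z hz, hJ₂ z hz, hJ₁ z hz, hJ₁ z hz]; exact h
  · have hlz := (hl z hz).self_of_nhds
    obtain ⟨-, d₁⟩ := dv_line (c₁.an _ (c₁.sub z hz)) e₁
    obtain ⟨a₂, d₂⟩ := dv_line (c₂.an _ (c₂.sub z hz)) e₂
    have q₁ : (fun τ : ℂ => c₁.S (z, τ • e₁)) =ᶠ[𝓝 0] T.s i (g z) (v z) := by
      filter_upwards [he₁ z hz] with τ ⟨v', h1, h2⟩
      rw [h2, neg_zero, (T.spr i).zero h1, (T.spr i).zero hlz]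
    have q₂ : (fun τ => T.p i (T.s j (y z) (w z) τ)) =ᶠ[𝓝 0]
        fun τ : ℂ => T.p i (c₂.S (z, τ • e₂)) := by
      filter_upwards [he₂ z hz] with τ ⟨v', h1, h2⟩
      rw [h2, (T.spr i).pres _ h1]
    have hm : Mov fun τ : ℂ => T.p i (c₂.S (z, τ • e₂)) := Mov.congr hzt q₂
    obtain ⟨u, hu, hlu, huv⟩ := (T.hol i).lift hlz
    have hγ0 : c₂.S (z, (0 : ℂ) • e₂) = g z := by rw [zero_smul, c₂.core z hz]
    have hu' : AnX u ((fun τ : ℂ => c₂.S (z, τ • e₂)) 0) := by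
      show AnX u (c₂.S (z, (0 : ℂ) • e₂))
      rw [hγ0]; exact hu
    have hlu' : ∀ᶠ τ in 𝓝 (0 : ℂ), Ln (T.p i (c₂.S (z, τ • e₂))) (u (c₂.S (z, τ • e₂))) := by
      refine a₂.cont.eventually (p := fun x => Ln (T.p i x) (u x)) ?_
      show ∀ᶠ x in 𝓝 (c₂.S (z, (0 : ℂ) • e₂)), _
      rw [hγ0]; exact hlu
    have hd := hm.det (v := fun τ : ℂ => u (c₂.S (z, τ • e₂)))
      (AnX.comp (f := fun τ : ℂ => c₂.S (z, τ • e₂)) hu' a₂) hlu'
    have hd2 : deriv (fun τ : ℂ => u (c₂.S (z, τ • e₂))) 0 =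
        Dx u (g z) (Dv c₂.S (z, 0) (0, e₂)) := by
      have := fderiv_comp_An (f := fun τ : ℂ => c₂.S (z, τ • e₂)) hu' a₂ 1
      rw [d₂] at this
      rw [← hγ0]
      exact this
    rw [hd2] at hd
    simp only [hγ0] at hd
    rw [← (T.spr i).der (g z) u hu hlu, huv] at hd
    refine ⟨J₂ e₁, e₂, ?_⟩
    rw [hJ₂ z hz, ← d₁, Dv_congr q₁]
    exact right_ne_zero_of_mul hd

end Vale.Agent.P290
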