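import Vale.Agent.P290.Stm
import Vale.Agent.P271.HCalc2

set_option linter.unusedSectionVars false

open Set Filter Topology Metric MeasureTheory
open scoped Manifold ContDiff LinearAlgebra.Projectivization

noncomputable section
namespace Vale.Agent.P290

namespace ExhX

open Fuj

variable {n : ℕ}

theorem two_le : (2 : WithTop ℕ∞) ≤ ((⊤ : ℕ∞) : WithTop ℕ∞) :=
  WithTop.coe_le_coe.2 (le_top : (2 : ℕ∞) ≤ ⊤)

theorem sm_re (l : (Fin n → ℂ) →L[ℂ] ℂ) : ContDiff ℝ ∞ fun y => (l y).re :=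
  (Complex.reCLM.comp (l.restrictScalars ℝ)).contDiff

theorem dzr_re (l : (Fin n → ℂ) →L[ℂ] ℂ) (z ξ : Fin n → ℂ) :
    dzr (fun y => (l y).re) z ξ = l ξ / 2 := by
  have h : fderiv ℝ (fun y => (l y).re) z = Complex.reCLM.comp (l.restrictScalars ℝ) :=
    (Complex.reCLM.comp (l.restrictScalars ℝ)).fderiv
  rw [dzr_eq ((sm_re l).differentiable (by simp) z), h]
  congr 1
  apply Complex.ext <;> simp

theorem levi_re (l : (Fin n → ℂ) →L[ℂ] ℂ) (z ξ : Fin n → ℂ) :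
    levi (fun y => (l y).re) z ξ = 0 := by
  simp only [levi, leviC, dzr_re, db_const, Complex.zero_re]

theorem term (l : (Fin n → ℂ) →L[ℂ] ℂ) {c : ℝ} {z : Fin n → ℂ} (hz : (l z).re < c) :
    ContDiffAt ℝ ∞ (fun y => (c - (l y).re)⁻¹) z ∧
    (∀ ξ, 0 ≤ levi (fun y => (c - (l y).re)⁻¹) z ξ) ∧
    ∀ ξ, ‖dzr (fun y => (c - (l y).re)⁻¹) z ξ‖ ≤ (c - (l z).re)⁻¹ ^ 2 * (‖l‖ * ‖ξ‖) := by
  have h1 : 0 < c - (l z).re := sub_pos.2 hz
  have hd : ∀ t < c, HasDerivAt (fun t => (c - t)⁻¹) ((c - t)⁻¹ ^ 2) t := fun t ht =>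
    (((hasDerivAt_id t).const_sub c).inv (sub_pos.2 ht).ne').congr_deriv (by simp)
  refine ⟨(contDiffAt_const.sub (sm_re l).contDiffAt).inv h1.ne', fun ξ => ?_, fun ξ => ?_⟩
  · rw [levi_comp (h := fun t => (c - t)⁻¹) ((sm_re l).contDiffAt.of_le two_le)
      ((gt_mem_nhds hz).mono hd) ((hd _ hz).fun_pow 2), levi_re]
    positivity
  · rw [dzr_comp (h := fun t => (c - t)⁻¹) ((sm_re l).differentiable (by simp) z) (hd _ hz),
      norm_mul, Complex.norm_real, Real.norm_of_nonneg (by positivity), dzr_re]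
    refine mul_le_mul_of_nonneg_left ?_ (by positivity)
    have := l.le_opNorm ξ
    rw [norm_div, Complex.norm_two]
    linarith [norm_nonneg (l ξ)]

end ExhX

open ExhX Fuj

theorem exh_pf : ExhS := by
  intro n K U hK hU hKU
  obtain ⟨V, hV, hKV, hVU, hVc⟩ := exists_open_between_and_isCompact_closure hK.cpt hU hKU
  choose! l c hl hc using fun (y : Fin n → ℂ) (hy : y ∉ K) =>
    RCLike.geometric_hahn_banach_closed_point (𝕜 := ℂ) hK.convex hK.cpt.isClosed hy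
  simp only [RCLike.re_to_complex] at hl hc
  obtain ⟨J, hJ, hcov⟩ := (hVc.diff hV).elim_nhds_subcover (fun y => {z | c y < (l y z).re})
    fun y hy => (isOpen_lt continuous_const (sm_re (l y)).continuous).mem_nhds
      (hc y fun h => hy.2 (hKV h))
  set W := V ∩ {z | ∀ j ∈ J, (l j z).re < c j} with hW
  have hop : IsOpen W := by
    refine hV.inter ?_
    rw [show {z | ∀ j ∈ J, (l j z).re < c j} = ⋂ j ∈ J, {z | (l j z).re < c j} by ext; simp]
    exact isOpen_biInter_finset fun j _ => isOpen_lt (sm_re (l j)).continuous continuous_const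
  set u : (Fin n → ℂ) → ℝ := fun z => ∑ j ∈ J, (c j - (l j z).re)⁻¹ with hu
  have hle : ∀ z ∈ W, ∀ j ∈ J, (c j - (l j z).re)⁻¹ ≤ u z := fun z hz j hj =>
    Finset.single_le_sum (f := fun j => (c j - (l j z).re)⁻¹)
      (fun i hi => (inv_pos.2 (sub_pos.2 (hz.2 i hi))).le) hj
  have hsm : ContDiffOn ℝ ∞ u W := fun z hz =>
    (ContDiffAt.sum fun j hj => (term (l j) (hz.2 j hj)).1).contDiffWithinAt
  have hcl : closure W ⊆ closure V := closure_mono inter_subset_left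
  refine ⟨W, u, 24 * (∑ j ∈ J, ‖l j‖) ^ 2, ⟨hop, hsm, fun z hz ξ => ?_, fun a => ?_,
    fun z hz ξ => ?_⟩, fun z hz => ⟨hKV hz, fun j hj => hl j (fun h => (hJ j hj).2 (hKV h)) z hz⟩,
    hVc.of_isClosed_subset isClosed_closure hcl, hcl.trans hVU⟩
  · rw [hu, levi_sum J fun j hj => (term (l j) (hz.2 j hj)).1.of_le two_le]
    exact Finset.sum_nonneg fun j hj => (term (l j) (hz.2 j hj)).2.1 ξ
  · set T := closure V ∩ ⋂ j ∈ J, {z | (|a| + 1)⁻¹ ≤ c j - (l j z).re} with hT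
    have hδ : 0 < (|a| + 1)⁻¹ := by positivity
    have hTc : IsClosed T := isClosed_closure.inter (isClosed_biInter fun j _ =>
      isClosed_le continuous_const (continuous_const.sub (sm_re (l j)).continuous))
    have hTW : T ⊆ W := by
      intro z hz
      have h1 : ∀ j ∈ J, (l j z).re < c j := fun j hj => by
        have : (|a| + 1)⁻¹ ≤ c j - (l j z).re := mem_iInter₂.1 hz.2 j hj
        linarith
      refine ⟨?_, h1⟩
      by_contra hn
      obtain ⟨j, hj, h2⟩ := mem_iUnion₂.1 (hcov ⟨hz.1, hn⟩)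
      exact lt_asymm (h1 j hj) h2
    have he : {z | z ∈ W ∧ u z ≤ a} = T ∩ u ⁻¹' Iic a := by
      ext z
      refine ⟨fun hz => ⟨⟨subset_closure hz.1.1, mem_iInter₂.2 fun j hj => ?_⟩, hz.2⟩,
        fun hz => ⟨hTW hz.1, hz.2⟩⟩
      have h1 := (hle z hz.1 j hj).trans hz.2
      exact inv_le_of_inv_le₀ (sub_pos.2 (hz.1.2 j hj)) (by linarith [le_abs_self a])
    rw [he]
    exact hVc.of_isClosed_subset
      ((hsm.continuousOn.mono hTW).preimage_isClosed_of_isClosed hTc isClosed_Iic)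
      fun z hz => hz.1.1
  · have hu0 : 0 ≤ u z :=
      Finset.sum_nonneg fun i hi => (inv_pos.2 (sub_pos.2 (hz.2 i hi))).le
    have h1 : ‖dzr u z ξ‖ ≤ u z ^ 2 * ((∑ j ∈ J, ‖l j‖) * ‖ξ‖) := by
      rw [hu, c2_dzr_sum J fun j hj => (term (l j) (hz.2 j hj)).1.differentiableAt (by simp),
        Finset.sum_mul, Finset.mul_sum]
      refine norm_sum_le_of_le _ fun j hj => ((term (l j) (hz.2 j hj)).2.2 ξ).trans ?_
      exact mul_le_mul_of_nonneg_right (pow_le_pow_left₀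
        (inv_pos.2 (sub_pos.2 (hz.2 j hj))).le (hle z hz j hj) 2) (by positivity)
    have h2 := Real.pow_div_factorial_le_exp (u z) hu0 4
    have h3 : u z ^ 4 ≤ 24 * (1 + Real.exp (u z)) := by
      norm_num [Nat.factorial] at h2
      linarith
    calc ‖dzr u z ξ‖ ^ 2 ≤ (u z ^ 2 * ((∑ j ∈ J, ‖l j‖) * ‖ξ‖)) ^ 2 :=
          pow_le_pow_left₀ (norm_nonneg _) h1 2
      _ = u z ^ 4 * ((∑ j ∈ J, ‖l j‖) * ‖ξ‖) ^ 2 := by ring
      _ ≤ 24 * (1 + Real.exp (u z)) * ((∑ j ∈ J, ‖l j‖) * ‖ξ‖) ^ 2 :=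
          mul_le_mul_of_nonneg_right h3 (sq_nonneg _)
      _ = _ := by ring

end Vale.Agent.P290
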