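import Vale.Agent.P290.Stm

set_option linter.unusedSectionVars false

open Set Filter Topology Metric MeasureTheory
open scoped Manifold ContDiff LinearAlgebra.Projectivization

noncomputable section
namespace Vale.Agent.P290

variable {X : Type*} [MetricSpace X] [ChartedSpace E X] [IsManifold 𝓘(ℂ, E) ω X]

namespace ExtX

variable {F : Type} [NormedAddCommGroup F] [NormedSpace ℂ F] [FiniteDimensional ℂ F]

/-- the trivial family -/
def triv (K K' : Set F) (g : F → X) (hg : ∀ z ∈ K, An g z) : CS K K' g where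
  G := ℂ
  S q := g q.1
  O := {q | An g q.1}
  op := (isOpen_An g).preimage continuous_fst
  sub := hg
  an _ hq := An.comp (φ := Prod.fst) hq analyticAt_fst
  core _ _ := rfl
  ch _ _ _ := Iff.rfl

theorem app_const (K K' : Set F) (x : X) : App K K' fun _ => x := fun _ hε =>
  ⟨fun _ => x, fun z _ => an_const x z, fun _ _ => by rwa [dist_self]⟩

end ExtX

theorem ext_pf {ι : Type*} (T : Sys X ι) (hS : T.StepS) : T.ExtS := by
  intro F _ _ _ K K' G _ _ _ S i v a hK hK' hKK h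
  refine ⟨{q | An S q ∧ AnalyticAt ℂ v q ∧ AnalyticAt ℂ a q ∧
    ∀ᶠ r in 𝓝 q, Ln (T.p i (S r)) (v r)}, isOpen_iff_mem_nhds.2 fun q hq => ?_, h,
    fun q hq => (T.spr i).an hq.1 hq.2.1 hq.2.2.1 hq.2.2.2, fun η hη hO => ?_⟩
  · filter_upwards [hq.1.eventually, hq.2.1.eventually_analyticAt, hq.2.2.1.eventually_analyticAt,
      hq.2.2.2.eventually_nhds] with r b1 b2 b3 b4 using ⟨b1, b2, b3, b4⟩
  have a0 : ∀ z ∈ K, AnalyticAt ℂ (fun z => (z, η z)) z := fun z hz => analyticAt_id.prod (hη z hz)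
  have a1 : AnalyticOnNhd ℂ (fun z => v (z, η z)) K := fun z hz =>
    AnalyticAt.comp (f := fun z => (z, η z)) (hO z hz).2.1 (a0 z hz)
  have a2 : AnalyticOnNhd ℂ (fun z => a (z, η z)) K := fun z hz =>
    AnalyticAt.comp (f := fun z => (z, η z)) (hO z hz).2.2.1 (a0 z hz)
  have a3 : ∀ z ∈ K, An (fun z => S (z, η z)) z := fun z hz =>
    An.comp (φ := fun z => (z, η z)) (hO z hz).1 (a0 z hz)
  have a4 : ∀ z ∈ K, Ln (T.p i (S (z, η z))) (v (z, η z)) := fun z hz =>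
    (hO z hz).2.2.2.self_of_nhds
  refine ⟨fun h1 => ?_, hS F K K' _ i _ _ hK hK' hKK (fun z hz => (a3 z hz).cont) a1 a2 a4⟩
  refine (hS F K K' _ i _ (fun z => -a (z, η z)) hK hK' hKK (fun z hz => ?_) a1 a2.neg
    (fun z hz => (T.spr i).ln (a4 z hz) _) h1).congr fun z hz => ?_
  · exact (An.comp (φ := fun z => (z, η z)) ((T.spr i).an (hO z hz).1 (hO z hz).2.1
      (hO z hz).2.2.1 (hO z hz).2.2.2) (a0 z hz)).cont
  · rw [(T.spr i).add _ _ (a4 z hz), add_neg_cancel, (T.spr i).zero (a4 z hz)]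

theorem domK_pf (hZ : DomZS X) : DomKS X := by
  intro F _ _ _ K K' g hK hK' hKK hg
  have h : ∀ c : CS K K' g, ∃ c' : CS K K' g,
      (∀ z ∈ K, c.Dom z → c'.Dom z) ∧ ∀ z ∈ K, z ∈ K → c'.Dom z := by
    refine hK.cpt.induction_on (p := fun T => ∀ c : CS K K' g, ∃ c' : CS K K' g,
      (∀ z ∈ K, c.Dom z → c'.Dom z) ∧ ∀ z ∈ K, z ∈ T → c'.Dom z)
      (fun c => ⟨c, fun _ _ h => h, fun _ _ h => absurd h (notMem_empty _)⟩)
      (fun s t hst h c => (h c).imp fun c' h' => ⟨h'.1, fun z hz hs => h'.2 z hz (hst hs)⟩)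
      (fun s t hs ht c => ?_) fun z hz => ?_
    · obtain ⟨c₁, h1, h2⟩ := hs c
      obtain ⟨c₂, h3, h4⟩ := ht c₁
      exact ⟨c₂, fun z hz h => h3 z hz (h1 z hz h),
        fun z hz h => h.elim (fun h => h3 z hz (h2 z hz h)) (h4 z hz)⟩
    · obtain ⟨t, ht, h⟩ := hZ F K K' g hK hK' hKK hg z hz
      exact ⟨t, mem_nhdsWithin_of_mem_nhds ht, h⟩
  obtain ⟨c, -, hc⟩ := h (ExtX.triv K K' g hg)
  exact ⟨c, fun z hz => hc z hz hz⟩

theorem hom_pf (hK : DomKS X) (hS : SolveS X) : HomS X := by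
  intro F _ _ _ K K' f hC hC' hKK hf
  rcases K.eq_empty_or_nonempty with rfl | ⟨z₀, hz₀⟩
  · exact (ExtX.app_const ∅ K' (f 0)).congr fun _ h => absurd h (notMem_empty _)
  obtain ⟨H, hH⟩ : ∃ H : F × ℂ → X, H = fun q => f (z₀ + q.2 • (q.1 - z₀)) := ⟨_, rfl⟩
  have a1 : ∀ r ∈ Icc (0 : ℝ) 1, ∀ z ∈ K, An H (z, r) := fun r hr z hz => by
    rw [hH]
    exact An.comp (φ := fun q : F × ℂ => z₀ + q.2 • (q.1 - z₀)) (hf _ (hC.cvx _ hz₀ _ hz r hr.1 hr.2))
      (analyticAt_const.add (analyticAt_snd.smul (analyticAt_fst.sub analyticAt_const)))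
  have a2 : ∀ r ∈ Icc (0 : ℝ) 1, ∀ᶠ s : ℝ in 𝓝 r,
      (App K K' (fun z => H (z, s)) ↔ App K K' fun z => H (z, r)) := fun r hr => by
    obtain ⟨c, hc⟩ := hK F K K' (fun z => H (z, r)) hC hC' hKK fun z hz =>
      An.comp (φ := fun z : F => (z, (r : ℂ))) (a1 r hr z hz) (analyticAt_id.prod analyticAt_const)
    filter_upwards [(Complex.continuous_ofReal.tendsto r).eventually
      (hS F K K' _ c H r hC hc fun z hz => ⟨a1 r hr z hz, rfl⟩)] with s hs
    obtain ⟨η, h1, h2⟩ := hs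
    rw [← c.ch η h1 fun z hz => (h2 z hz).1]
    exact ⟨fun h => h.congr fun z hz => (h2 z hz).2.symm, fun h => h.congr fun z hz => (h2 z hz).2⟩
  have a3 := isPreconnected_Icc.induction₂' (s := Icc (0 : ℝ) 1)
    (fun r s => App K K' (fun z => H (z, r)) → App K K' fun z => H (z, s))
    (fun r hr => (a2 r hr).filter_mono nhdsWithin_le_nhds |>.mono fun s hs => ⟨hs.2, hs.1⟩)
    (fun _ _ _ _ _ _ h1 h2 h => h2 (h1 h)) (x := 0) (y := 1) (by simp) (by simp)
  refine (a3 ((ExtX.app_const K K' (f z₀)).congr fun z _ => ?_)).congr fun z _ => ?_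
  · simp [hH]
  · simp [hH]

end Vale.Agent.P290
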