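import Vale.Agent.P290.Stm
import Vale.Agent.P278.Frob1

set_option linter.unusedSectionVars false

open Set Filter Topology Metric MeasureTheory
open scoped Manifold ContDiff LinearAlgebra.Projectivization

noncomputable section
namespace Vale.Agent.P290

variable {X : Type*} [MetricSpace X] [ChartedSpace E X] [IsManifold 𝓘(ℂ, E) ω X]

namespace Fl1X

/-- local flow of an analytic vector field in the plane -/
theorem exists_flow {g : E → E} {W : Set E} (hW : IsOpen W) (h0 : (0 : E) ∈ W)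
    (hg : ∀ y ∈ W, AnalyticAt ℂ g y) :
    ∃ δ > 0, ∃ Ψ : ℂ × E → E, AnalyticOnNhd ℂ Ψ (ball 0 δ) ∧ ∀ p ∈ ball (0 : ℂ × E) δ,
      Ψ p ∈ W ∧ Ψ (0, p.2) = p.2 ∧ fderiv ℂ Ψ p (1, 0) = g (Ψ p) := by
  have hU : IsOpen {p : ℂ × E | p.2 ∈ W} := hW.preimage continuous_snd
  have hΓ : AnalyticOnNhd ℂ
      (fun p : ℂ × E => ContinuousLinearMap.smulRightL ℂ ℂ E (1 : ℂ →L[ℂ] ℂ) (g p.2))
      {p : ℂ × E | p.2 ∈ W} := fun p hp =>
    ((ContinuousLinearMap.smulRightL ℂ ℂ E (1 : ℂ →L[ℂ] ℂ)).analyticAt _).comp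
      (AnalyticAt.comp (hg _ hp) analyticAt_snd)
  obtain ⟨δ, hδ, Ψ, hΨ, hP⟩ := P278.frob_radial hU h0 hΓ
  have k1 : ∀ p ∈ ball (0 : ℂ × E) δ, p.1 ≠ 0 → fderiv ℂ Ψ p (1, 0) = g (Ψ p) := by
    intro p hp h1
    have h2 := (hP p hp).2.2
    have h3 : ((p.1, 0) : ℂ × E) = p.1 • ((1, 0) : ℂ × E) := by ext <;> simp
    rw [h3, map_smul] at h2
    have h4 : p.1 • fderiv ℂ Ψ p (1, 0) = p.1 • g (Ψ p) := by
      rw [h2]; simp
    exact smul_right_injective E h1 h4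
  refine ⟨δ, hδ, Ψ, hΨ, fun p hp => ⟨(hP p hp).1, (hP p hp).2.1, ?_⟩⟩
  by_cases h1 : p.1 = 0
  · have hp' : p = ((0 : ℂ), p.2) := Prod.ext h1 rfl
    have hι : ContinuousAt (fun t : ℂ => ((t, p.2) : ℂ × E)) 0 := by fun_prop
    have hι' : Tendsto (fun t : ℂ => ((t, p.2) : ℂ × E)) (𝓝[≠] 0) (𝓝 p) := by
      have := hι.tendsto.mono_left (nhdsWithin_le_nhds (s := {0}ᶜ))
      rwa [← hp'] at this
    have c1 : ContinuousAt (fun q => fderiv ℂ Ψ q (1, 0)) p :=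
      ((hΨ p hp).fderiv.continuousAt).clm_apply continuousAt_const
    have c2 : ContinuousAt (fun q => g (Ψ q)) p :=
      ContinuousAt.comp (hg _ (hP p hp).1).continuousAt (hΨ p hp).continuousAt
    refine tendsto_nhds_unique_of_eventuallyEq (c1.tendsto.comp hι') (c2.tendsto.comp hι') ?_
    filter_upwards [hι'.eventually (isOpen_ball.mem_nhds hp), self_mem_nhdsWithin] with t a b
    exact k1 _ a b
  · exact k1 p hp h1

end Fl1X

theorem fl1_pf : Fl1S X := by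
  intro Y V hY hF x₀ hx₀
  obtain ⟨f, hf, hV⟩ := hF x₀ hx₀
  have hs : x₀ ∈ (ch x₀).source := mem_chart_source E x₀
  have hc : Tendsto (ch x₀).symm (𝓝 (ch x₀ x₀)) (𝓝 x₀) := (ch x₀).tendsto_symm hs
  have hev : ∀ᶠ y in 𝓝 (ch x₀ x₀), AnalyticAt ℂ f y ∧ y ∈ (ch x₀).target ∧
      (ch x₀).symm y ∈ Y ∧ Dv (ch x₀).symm y (f y) = V ((ch x₀).symm y) := by
    filter_upwards [hf.eventually_analyticAt,
      (ch x₀).open_target.mem_nhds ((ch x₀).map_source hs),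
      hc.eventually (hY.mem_nhds hx₀), hV] with y a b c d using ⟨a, b, c, d⟩
  obtain ⟨W, hW, hWo, hW0⟩ := _root_.eventually_nhds_iff.1 hev
  set y₀ := ch x₀ x₀ with hy₀
  have hU : IsOpen {y : E | y + y₀ ∈ W} := hWo.preimage (by fun_prop)
  obtain ⟨δ, hδ, Ψ, hΨ, hP⟩ := Fl1X.exists_flow (g := fun y => f (y + y₀)) hU
    (by simpa using hW0)
    (fun y hy => AnalyticAt.comp (hW _ hy).1 (analyticAt_id.add analyticAt_const))
  refine ⟨δ, hδ, fun q => (ch x₀).symm (Ψ (q.2, ch x₀ q.1 - y₀) + y₀), ?_⟩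
  have hcx : ContinuousAt (fun x => ch x₀ x - y₀) x₀ :=
    ((ch x₀).continuousAt hs).sub continuousAt_const
  have hb : ∀ᶠ x in 𝓝 x₀, ch x₀ x - y₀ ∈ ball (0 : E) δ :=
    hcx.preimage_mem_nhds (by simpa [hy₀] using ball_mem_nhds (0 : E) hδ)
  filter_upwards [hb, (ch x₀).open_source.mem_nhds hs] with x hx hxs
  have hm : ∀ t ∈ ball (0 : ℂ) δ, ((t, ch x₀ x - y₀) : ℂ × E) ∈ ball (0 : ℂ × E) δ := by
    intro t ht
    rw [← ball_prod_same]
    exact ⟨ht, hx⟩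
  refine ⟨?_, fun t ht => ?_⟩
  · have := (hP _ (hm 0 (mem_ball_self hδ))).2.1
    simp only at this ⊢
    rw [this, sub_add_cancel, (ch x₀).left_inv hxs]
  · obtain ⟨h1, -, h3⟩ := hP _ (hm t ht)
    obtain ⟨-, k2, k3, k4⟩ := hW _ h1
    have ha := hΨ _ (hm t ht)
    have hι : HasFDerivAt (fun s : ℂ => ((s, ch x₀ x - y₀) : ℂ × E))
        (ContinuousLinearMap.inl ℂ ℂ E) t := hasFDerivAt_prodMk_left t _
    have hd : HasFDerivAt (fun s : ℂ => Ψ (s, ch x₀ x - y₀) + y₀)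
        ((fderiv ℂ Ψ (t, ch x₀ x - y₀)).comp (ContinuousLinearMap.inl ℂ ℂ E)) t :=
      (HasFDerivAt.comp t ha.differentiableAt.hasFDerivAt hι).add_const y₀
    refine ⟨?_, k3, ?_, ?_⟩
    · have h4 : ContMDiffAt (𝓘(ℂ, E).prod 𝓘(ℂ, ℂ)) 𝓘(ℂ, E × ℂ) ω
          (fun r : X × ℂ => (ch x₀ r.1, r.2)) (x, t) :=
        (ContMDiffAt.comp (x, t) (anX_ch x₀ hxs) contMDiffAt_fst).prodMk_space contMDiffAt_snd
      have h5 : AnalyticAt ℂ (fun r : E × ℂ => Ψ (r.2, r.1 - y₀) + y₀) (ch x₀ x, t) :=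
        (AnalyticAt.comp (f := fun r : E × ℂ => ((r.2, r.1 - y₀) : ℂ × E)) ha
          (analyticAt_snd.prod (analyticAt_fst.sub analyticAt_const))).add analyticAt_const
      have h6 : An (fun r : E × ℂ => (ch x₀).symm (Ψ (r.2, r.1 - y₀) + y₀)) (ch x₀ x, t) :=
        An.comp (φ := fun r : E × ℂ => Ψ (r.2, r.1 - y₀) + y₀) (an_symm x₀ k2) h5
      exact ContMDiffAt.comp (f := fun r : X × ℂ => (ch x₀ r.1, r.2)) (x, t) h6 h4
    · exact An.comp (φ := fun s : ℂ => Ψ (s, ch x₀ x - y₀) + y₀) (an_symm x₀ k2)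
        ((AnalyticAt.comp (f := fun s : ℂ => ((s, ch x₀ x - y₀) : ℂ × E)) ha
          (analyticAt_id.prod analyticAt_const)).add analyticAt_const)
    · have := Dv_comp (φ := fun s : ℂ => Ψ (s, ch x₀ x - y₀) + y₀) (an_symm x₀ k2)
        hd.differentiableAt 1
      simp only at this ⊢
      rw [this, hd.fderiv, ContinuousLinearMap.comp_apply, ContinuousLinearMap.inl_apply, h3, k4]

end Vale.Agent.P290
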