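import Vale.Agent.P290.Stm

set_option linter.unusedSectionVars false

open Set Filter Topology Metric MeasureTheory
open scoped Manifold ContDiff LinearAlgebra.Projectivization

noncomputable section
namespace Vale.Agent.P290

variable {X : Type*} [MetricSpace X] [ChartedSpace E X] [IsManifold 𝓘(ℂ, E) ω X]

namespace Fl2X

theorem ode_unique {f : E → E} {u v : ℂ → E} {t₁ : ℂ} (hf : AnalyticAt ℂ f (u t₁))
    (hu : ∀ᶠ t in 𝓝 t₁, HasDerivAt u (f (u t)) t) (hv : ∀ᶠ t in 𝓝 t₁, HasDerivAt v (f (v t)) t)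
    (au : AnalyticAt ℂ u t₁) (av : AnalyticAt ℂ v t₁) (e : u t₁ = v t₁) : u =ᶠ[𝓝 t₁] v := by
  obtain ⟨K, S, hS, hK⟩ := (hf.contDiffAt (n := 1)).exists_lipschitzOnWith
  have hl : ∀ s : ℝ, HasDerivAt (fun s : ℝ => t₁ + (s : ℂ)) 1 s := fun s =>
    (Complex.ofRealCLM.hasDerivAt (x := s)).const_add t₁
  have hc : Tendsto (fun s : ℝ => t₁ + (s : ℂ)) (𝓝 0) (𝓝 t₁) := by
    simpa using (hl 0).continuousAt.tendsto
  have key : ∀ w : ℂ → E, (∀ᶠ t in 𝓝 t₁, HasDerivAt w (f (w t)) t) → w t₁ = u t₁ →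
      ∀ᶠ s : ℝ in 𝓝 0, HasDerivAt (fun s : ℝ => w (t₁ + s)) (f (w (t₁ + s))) s ∧
        w (t₁ + s) ∈ S := fun w hw e => by
    have h1 : ∀ᶠ t in 𝓝 t₁, w t ∈ S :=
      hw.self_of_nhds.continuousAt.preimage_mem_nhds (e ▸ hS)
    filter_upwards [hc.eventually hw, hc.eventually h1] with s a b
    refine ⟨?_, b⟩
    have := a.scomp s (hl s)
    rw [one_smul] at this
    exact this
  have h1 := ODE_solution_unique_of_eventually (v := fun _ => f) (s := fun _ => S) (K := K)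
    (f := fun s : ℝ => u (t₁ + s)) (g := fun s : ℝ => v (t₁ + s)) (t₀ := 0)
    (Eventually.of_forall fun _ => hK) (key u hu rfl) (key v hv e.symm) (by simpa using e)
  refine (au.frequently_eq_iff_eventually_eq av).1 ?_
  have hc' : Tendsto (fun s : ℝ => t₁ + (s : ℂ)) (𝓝[≠] 0) (𝓝[≠] t₁) := by
    refine tendsto_nhdsWithin_iff.2 ⟨hc.mono_left nhdsWithin_le_nhds, ?_⟩
    filter_upwards [self_mem_nhdsWithin] with s hs
    simpa using hs
  exact hc'.frequently (h1.filter_mono nhdsWithin_le_nhds).frequently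

theorem chart_ode {V : X → E} {x : X} {f : E → E}
    (hV : ∀ᶠ y in 𝓝 (ch x x), Dv (ch x).symm y (f y) = V ((ch x).symm y)) {η : ℂ → X} {t₁ : ℂ}
    (h : ∀ᶠ t in 𝓝 t₁, IC V η t) (e : η t₁ = x) :
    ∀ᶠ t in 𝓝 t₁, HasDerivAt (fun s => ch x (η s)) (f (ch x (η t))) t := by
  have hc : ContinuousAt η t₁ := h.self_of_nhds.1.cont
  have hx : η t₁ ∈ (ch x).source := e ▸ mem_chart_source E (η t₁)
  have h1 : ∀ᶠ t in 𝓝 t₁, η t ∈ (ch x).source :=
    hc.preimage_mem_nhds ((ch x).open_source.mem_nhds hx)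
  have h2 : Tendsto (fun s => ch x (η s)) (𝓝 t₁) (𝓝 (ch x x)) := by
    have := ((anX_ch x hx).comp h.self_of_nhds.1).continuousAt.tendsto
    rwa [e] at this
  filter_upwards [h, h1, h2.eventually hV] with t a b c
  have d := ((anX_ch x b).comp a.1).differentiableAt.hasDerivAt
  have e1 : deriv (fun s => ch x (η s)) t = f (ch x (η t)) := by
    refine (Dv_symm_bij x ((ch x).map_source b)).1 ?_
    rw [c, (ch x).left_inv b, ← a.2, Dv_chart a.1 b]
    rfl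
  rwa [e1] at d

theorem loc {Y : Set X} {V : X → E} (hf : Field Y V) {γ δ : ℂ → X} {t₁ : ℂ} (hY : γ t₁ ∈ Y)
    (hγ : ∀ᶠ t in 𝓝 t₁, IC V γ t) (hδ : ∀ᶠ t in 𝓝 t₁, IC V δ t) (e : γ t₁ = δ t₁) :
    γ =ᶠ[𝓝 t₁] δ := by
  obtain ⟨f, h1, h2⟩ := hf _ hY
  have hx := mem_chart_source E (γ t₁)
  have hx' : δ t₁ ∈ (ch (γ t₁)).source := e ▸ hx
  have h3 := ode_unique (u := fun s => ch (γ t₁) (γ s)) (v := fun s => ch (γ t₁) (δ s)) h1
    (chart_ode h2 hγ rfl) (chart_ode h2 hδ e.symm) ((anX_ch _ hx).comp hγ.self_of_nhds.1)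
    ((anX_ch _ hx').comp hδ.self_of_nhds.1) (by show ch _ (γ t₁) = ch _ (δ t₁); rw [← e])
  filter_upwards [h3, ev_symm hγ.self_of_nhds.1.cont hx, ev_symm hδ.self_of_nhds.1.cont hx']
    with t a b c
  rw [b, c, a]

end Fl2X

theorem fl2_pf : Fl2S X := by
  intro Y V hf D γ δ ho hp h t₀ h0 e
  have key : ∀ t ∈ D, γ t = δ t → γ =ᶠ[𝓝 t] δ := fun t ht e =>
    Fl2X.loc hf (h t ht).1 (Filter.mem_of_superset (ho.mem_nhds ht) fun s hs => (h s hs).2.1)
      (Filter.mem_of_superset (ho.mem_nhds ht) fun s hs => (h s hs).2.2) e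
  have hs : D ⊆ {t | γ =ᶠ[𝓝 t] δ} := by
    refine hp.subset_of_closure_inter_subset isOpen_setOf_eventually_nhds
      ⟨t₀, h0, key t₀ h0 e⟩ fun t ht => key t ht.2 ?_
    exact tendsto_nhds_unique_of_frequently_eq (h t ht.2).2.1.1.cont (h t ht.2).2.2.1.cont
      ((mem_closure_iff_frequently.1 ht.1).mono fun s hs => hs.self_of_nhds)
  exact fun t ht => (hs ht).self_of_nhds

end Vale.Agent.P290
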