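import Vale.Agent.P290.Stm

set_option linter.unusedSectionVars false

open Set Filter Topology Metric MeasureTheory
open scoped Manifold ContDiff LinearAlgebra.Projectivization

noncomputable section
namespace Vale.Agent.P290

variable {X : Type*} [MetricSpace X] [ChartedSpace E X] [IsManifold 𝓘(ℂ, E) ω X]

namespace Fl3X

/-- integral curve inside `Y` on the set `B` -/
def Cur (Y : Set X) (V : X → E) (B : Set ℂ) (γ : ℂ → X) : Prop := ∀ t ∈ B, γ t ∈ Y ∧ IC V γ t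

theorem ic_congr {V : X → E} {γ δ : ℂ → X} {t : ℂ} (h : IC V δ t) (e : γ =ᶠ[𝓝 t] δ) :
    IC V γ t := ⟨h.1.congr e, by rw [Dv_congr e, h.2, e.self_of_nhds]⟩

theorem ic_shift {V : X → E} {δ : ℂ → X} {t c : ℂ} (h : IC V δ (t - c)) :
    IC V (fun s => δ (s - c)) t := by
  have ha : AnalyticAt ℂ (fun s : ℂ => s - c) t := analyticAt_id.sub analyticAt_const
  refine ⟨An.comp (φ := fun s : ℂ => s - c) h.1 ha, ?_⟩
  rw [Dv_comp (φ := fun s : ℂ => s - c) h.1 ha.differentiableAt, fderiv_sub_const]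
  have : fderiv ℂ (fun s : ℂ => s) t 1 = 1 := by rw [fderiv_fun_id]; rfl
  rw [this]
  exact h.2

theorem glue {ι : Type*} (x : X) (B : ι → Set ℂ) (D : ι → ℂ → X) (ho : ∀ i, IsOpen (B i))
    (h : ∀ i j, EqOn (D i) (D j) (B i ∩ B j)) :
    ∃ γ : ℂ → X, ∀ i, ∀ t ∈ B i, γ =ᶠ[𝓝 t] D i := by
  classical
  refine ⟨fun t => if ht : ∃ i, t ∈ B i then D ht.choose t else x, fun i t ht => ?_⟩
  filter_upwards [(ho i).mem_nhds ht] with s hs
  have h1 : ∃ i, s ∈ B i := ⟨i, hs⟩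
  rw [dif_pos h1]
  exact h _ _ ⟨h1.choose_spec, hs⟩

theorem const_q {Y : Set X} {V : X → E} {q : X → ℂ} (hp : Prp Y V q) {r : ℝ} {γ : ℂ → X}
    (h : Cur Y V (ball 0 r) γ) {t : ℂ} (ht : t ∈ ball (0 : ℂ) r) : q (γ t) = q (γ 0) := by
  have h0 : (0 : ℂ) ∈ ball (0 : ℂ) r := mem_ball_self (pos_of_mem_ball ht)
  refine isOpen_ball.is_const_of_deriv_eq_zero (𝕜 := ℂ) (f := fun s => q (γ s))
    (convex_ball (0 : ℂ) r).isPreconnected (fun s hs => ?_) (fun s hs => ?_) ht h0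
  · exact ((hp.an _ (h s hs).1).comp (h s hs).2.1).differentiableAt.differentiableWithinAt
  · have := fderiv_comp_An (hp.an _ (h s hs).1) (h s hs).2.1 1
    rw [(h s hs).2.2, hp.inv _ (h s hs).1] at this
    exact this

theorem unif (h1 : Fl1S X) {Y : Set X} {V : X → E} {q : X → ℂ} (hp : Prp Y V q) (R : ℝ) :
    ∃ ρ : ℝ, 0 < ρ ∧ ∀ x ∈ {x | x ∈ Y ∧ ‖q x‖ ≤ R}, ∃ δ : ℂ → X, δ 0 = x ∧
      Cur Y V (ball 0 ρ) δ := by
  refine (hp.cpt R).induction_on (p := fun S => ∃ ρ : ℝ, 0 < ρ ∧ ∀ x ∈ S, ∃ δ : ℂ → X, δ 0 = x ∧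
      Cur Y V (ball 0 ρ) δ) ⟨1, one_pos, fun x hx => hx.elim⟩ ?_ ?_ ?_
  · rintro S T hST ⟨ρ, h0, h⟩
    exact ⟨ρ, h0, fun x hx => h x (hST hx)⟩
  · rintro S T ⟨ρ, h0, h⟩ ⟨ρ', h0', h'⟩
    refine ⟨min ρ ρ', lt_min h0 h0', fun x hx => ?_⟩
    rcases hx with hx | hx
    · obtain ⟨δ, a, b⟩ := h x hx
      exact ⟨δ, a, fun t ht => b t (ball_subset_ball (min_le_left _ _) ht)⟩
    · obtain ⟨δ, a, b⟩ := h' x hx
      exact ⟨δ, a, fun t ht => b t (ball_subset_ball (min_le_right _ _) ht)⟩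
  · intro x hx
    obtain ⟨ρ, h0, φ, h⟩ := h1 Y V hp.op hp.fld x hx.1
    refine ⟨_, mem_nhdsWithin_of_mem_nhds h, ρ, h0, fun y hy => ?_⟩
    exact ⟨fun t => φ (y, t), hy.1, fun t ht => (hy.2 t ht).2⟩

theorem agree (h2 : Fl2S X) {Y : Set X} {V : X → E} (hf : Field Y V) {c c' : ℂ} {r r' : ℝ}
    {γ δ : ℂ → X} (hγ : Cur Y V (ball c r) γ) (hδ : Cur Y V (ball c' r') δ) {m : ℂ}
    (hm : m ∈ ball c r ∩ ball c' r') (e : γ m = δ m) : EqOn γ δ (ball c r ∩ ball c' r') :=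
  h2 Y V hf _ γ δ (isOpen_ball.inter isOpen_ball)
    ((convex_ball c r).inter (convex_ball c' r')).isPreconnected
    (fun t ht => ⟨(hγ t ht.1).1, (hγ t ht.1).2, (hδ t ht.2).2⟩) m hm e

theorem extend (h2 : Fl2S X) {Y : Set X} {V : X → E} (hf : Field Y V) {r ρ : ℝ} (hr : 0 < r)
    (hρ : 0 < ρ) {γ : ℂ → X} (hγ : Cur Y V (ball 0 r) γ)
    (h : ∀ c ∈ ball (0 : ℂ) r, ∃ δ : ℂ → X, δ 0 = γ c ∧ Cur Y V (ball 0 ρ) δ) :
    ∃ γ' : ℂ → X, γ' 0 = γ 0 ∧ Cur Y V (ball 0 (r + ρ)) γ' := by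
  have h' : ∀ c : ball (0 : ℂ) r, ∃ δ : ℂ → X, δ c = γ c ∧ Cur Y V (ball c ρ) δ := fun c => by
    obtain ⟨δ, a, b⟩ := h c c.2
    refine ⟨fun s => δ (s - c), by simpa using a, fun t ht => ?_⟩
    have ht' : t - c ∈ ball (0 : ℂ) ρ := by
      rw [mem_ball_zero_iff, ← dist_eq_norm]; exact ht
    exact ⟨(b _ ht').1, ic_shift (b _ ht').2⟩
  choose D hD0 hD using h'
  have e1 : ∀ c : ball (0 : ℂ) r, EqOn (D c) γ (ball c ρ ∩ ball 0 r) := fun c =>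
    agree h2 hf (hD c) hγ ⟨mem_ball_self hρ, c.2⟩ (hD0 c)
  obtain ⟨γ', hγ'⟩ := glue (γ 0) (fun c : ball (0 : ℂ) r => ball (c : ℂ) ρ) D
    (fun _ => isOpen_ball) fun c c' t ht => by
      have hd : dist (c : ℂ) c' < 2 * ρ := by
        have := dist_triangle_left (c : ℂ) c' t
        have a1 : dist t c < ρ := ht.1
        have a2 : dist t c' < ρ := ht.2
        linarith
      have m0 : midpoint ℝ (c : ℂ) c' ∈ ball (0 : ℂ) r := (convex_ball 0 r).midpoint_mem c.2 c'.2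
      have m1 : midpoint ℝ (c : ℂ) c' ∈ ball (c : ℂ) ρ := by
        rw [mem_ball, dist_midpoint_left, Real.norm_two]; linarith
      have m2 : midpoint ℝ (c : ℂ) c' ∈ ball (c' : ℂ) ρ := by
        rw [mem_ball, dist_midpoint_right, Real.norm_two]; linarith
      exact agree h2 hf (hD c) (hD c') ⟨m1, m2⟩ ((e1 c ⟨m1, m0⟩).trans (e1 c' ⟨m2, m0⟩).symm) ht
  refine ⟨γ', ?_, fun t ht => ?_⟩
  · exact (hγ' ⟨0, mem_ball_self hr⟩ 0 (mem_ball_self hρ)).self_of_nhds.trans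
      (hD0 ⟨0, mem_ball_self hr⟩)
  · have hs : 0 < r + ρ := add_pos hr hρ
    have ht' : ‖t‖ < r + ρ := mem_ball_zero_iff.1 ht
    have c0 : ((r / (r + ρ) : ℝ) : ℂ) * t ∈ ball (0 : ℂ) r := by
      rw [mem_ball_zero_iff, norm_mul, Complex.norm_real, Real.norm_of_nonneg (by positivity),
        div_mul_eq_mul_div, div_lt_iff₀ hs]
      exact mul_lt_mul_of_pos_left ht' hr
    have c1 : t ∈ ball (((r / (r + ρ) : ℝ) : ℂ) * t) ρ := by
      have e : t - ((r / (r + ρ) : ℝ) : ℂ) * t = ((ρ / (r + ρ) : ℝ) : ℂ) * t := by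
        have : (ρ / (r + ρ) : ℝ) = 1 - r / (r + ρ) := by field_simp; ring
        rw [this]; push_cast; ring
      rw [mem_ball, dist_eq_norm, e, norm_mul, Complex.norm_real,
        Real.norm_of_nonneg (by positivity), div_mul_eq_mul_div, div_lt_iff₀ hs]
      exact mul_lt_mul_of_pos_left ht' hρ
    have e := hγ' ⟨_, c0⟩ t c1
    exact ⟨e.self_of_nhds ▸ (hD ⟨_, c0⟩ t c1).1, ic_congr (hD ⟨_, c0⟩ t c1).2 e⟩

end Fl3X

open Fl3X in
theorem fl3_pf (h1 : Fl1S X) (h2 : Fl2S X) : Fl3S X := by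
  intro Y V q hp x hx
  obtain ⟨ρ, hρ, hu⟩ := unif h1 hp ‖q x‖
  have pos : ∀ n : ℕ, 0 < ((n : ℝ) + 1) * ρ := fun n => by positivity
  have ex : ∀ n : ℕ, ∃ γ : ℂ → X, γ 0 = x ∧ Cur Y V (ball 0 (((n : ℝ) + 1) * ρ)) γ := by
    intro n
    induction n with
    | zero => simpa using hu x ⟨hx, le_rfl⟩
    | succ n ih =>
      obtain ⟨γ, a, b⟩ := ih
      obtain ⟨γ', a', b'⟩ := extend h2 hp.fld (pos n) hρ b fun c hc =>
        hu (γ c) ⟨(b c hc).1, by rw [const_q hp b hc, a]⟩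
      refine ⟨γ', a'.trans a, ?_⟩
      have : ((n + 1 : ℕ) + 1 : ℝ) * ρ = ((n : ℝ) + 1) * ρ + ρ := by push_cast; ring
      rw [this]
      exact b'
  choose D hD0 hD using ex
  obtain ⟨γ, hγ⟩ := glue x (fun n : ℕ => ball (0 : ℂ) (((n : ℝ) + 1) * ρ)) D
    (fun _ => isOpen_ball) fun n n' => agree h2 hp.fld (hD n) (hD n')
      ⟨mem_ball_self (pos n), mem_ball_self (pos n')⟩ ((hD0 n).trans (hD0 n').symm)
  refine ⟨γ, (hγ 0 0 (mem_ball_self (pos 0))).self_of_nhds.trans (hD0 0), fun t => ?_⟩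
  obtain ⟨n, hn⟩ := exists_nat_gt (‖t‖ / ρ)
  have ht : t ∈ ball (0 : ℂ) (((n : ℝ) + 1) * ρ) := by
    rw [mem_ball_zero_iff]
    rw [div_lt_iff₀ hρ] at hn
    linarith
  have e := hγ n t ht
  refine ⟨e.self_of_nhds ▸ (hD n t ht).1, ?_, ic_congr (hD n t ht).2 e⟩
  rw [e.self_of_nhds, const_q hp (hD n) ht, hD0]

end Vale.Agent.P290
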