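import Vale.Agent.P290.Stm

set_option linter.unusedSectionVars false

open Set Filter Topology Metric MeasureTheory
open scoped Manifold ContDiff LinearAlgebra.Projectivization

noncomputable section
namespace Vale.Agent.P290

variable {X : Type*} [MetricSpace X] [ChartedSpace E X] [IsManifold 𝓘(ℂ, E) ω X]

namespace Fl4X

theorem shift {V : X → E} {γ : ℂ → X} {a t : ℂ} (h : IC V γ (a + t)) :
    IC V (fun s => γ (a + s)) t := by
  have h1 : AnalyticAt ℂ (fun s : ℂ => a + s) t := analyticAt_const.add analyticAt_id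
  refine ⟨An.comp (φ := fun s => a + s) h.1 h1, ?_⟩
  rw [Dv_comp (φ := fun s => a + s) h.1 h1.differentiableAt, fderiv_const_add, fderiv_fun_id]
  exact h.2

theorem unif {Y C : Set X} {Φ : X × ℂ → X} (hC : IsCompact C) (hCY : C ⊆ Y)
    (h : ∀ x₀ ∈ Y, ∃ ρ : ℝ, 0 < ρ ∧ ∀ᶠ x in 𝓝 x₀, ∀ t ∈ ball (0 : ℂ) ρ, AnP Φ (x, t)) :
    ∃ ρ : ℝ, 0 < ρ ∧ ∀ x ∈ C, ∀ t ∈ ball (0 : ℂ) ρ, AnP Φ (x, t) := by
  refine hC.induction_on (p := fun s => ∃ ρ : ℝ, 0 < ρ ∧ ∀ x ∈ s, ∀ t ∈ ball (0 : ℂ) ρ,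
    AnP Φ (x, t)) ⟨1, one_pos, fun _ hx => hx.elim⟩ ?_ ?_ ?_
  · rintro s t hst ⟨ρ, h0, h1⟩
    exact ⟨ρ, h0, fun x hx => h1 x (hst hx)⟩
  · rintro s t ⟨ρ, h0, h1⟩ ⟨ρ', h0', h1'⟩
    refine ⟨min ρ ρ', lt_min h0 h0', ?_⟩
    rintro x (hx | hx) u hu
    · exact h1 x hx u (ball_subset_ball (min_le_left _ _) hu)
    · exact h1' x hx u (ball_subset_ball (min_le_right _ _) hu)
  · intro x hx
    obtain ⟨ρ, h0, h1⟩ := h x (hCY hx)
    exact ⟨_, mem_nhdsWithin_of_mem_nhds h1, ρ, h0, fun y hy => hy⟩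

end Fl4X

open Fl4X in
theorem fl4_pf (h1 : Fl1S X) (h2 : Fl2S X) (h3 : Fl3S X) : Fl4S X := by
  intro Y V q hP
  choose! γ g0 g1 using h3 Y V q hP
  have grp : ∀ x ∈ Y, ∀ a b, γ (γ x a) b = γ x (a + b) := fun x hx a b =>
    h2 Y V hP.fld univ (γ (γ x a)) (fun s => γ x (a + s)) isOpen_univ isPreconnected_univ
      (fun t _ => ⟨(g1 _ (g1 x hx a).1 t).1, (g1 _ (g1 x hx a).1 t).2.2,
        shift (g1 x hx (a + t)).2.2⟩) 0 (mem_univ _)
      (by rw [g0 _ (g1 x hx a).1, add_zero]) (mem_univ b)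
  have loc : ∀ x₀ ∈ Y, ∃ ρ : ℝ, 0 < ρ ∧ ∀ᶠ x in 𝓝 x₀, ∀ t ∈ ball (0 : ℂ) ρ,
      AnP (fun r : X × ℂ => γ r.1 r.2) (x, t) := by
    intro x₀ hx₀
    obtain ⟨ρ, h0, φ, hφ⟩ := h1 Y V hP.op hP.fld x₀ hx₀
    refine ⟨ρ, h0, ?_⟩
    have e : ∀ᶠ x in 𝓝 x₀, ∀ t ∈ ball (0 : ℂ) ρ, γ x t = φ (x, t) := by
      filter_upwards [hφ, hP.op.mem_nhds hx₀] with x hx hxY t ht
      exact h2 Y V hP.fld (ball 0 ρ) (γ x) (fun t => φ (x, t)) isOpen_ball
        (convex_ball _ _).isPreconnected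
        (fun s hs => ⟨(g1 x hxY s).1, (g1 x hxY s).2.2, (hx.2 s hs).2.2⟩) 0 (mem_ball_self h0)
        (by rw [g0 x hxY, hx.1]) ht
    filter_upwards [hφ, e.eventually_nhds] with x hx hx' t ht
    refine (hx.2 t ht).1.congr ?_
    rw [nhds_prod_eq]
    filter_upwards [hx'.prod_mk (isOpen_ball.eventually_mem ht)] with r hr
    exact hr.1 _ hr.2
  refine ⟨fun r => γ r.1 r.2, fun x hx => ⟨g0 x hx, grp x hx, fun t =>
    ⟨?_, (g1 x hx t).1, (g1 x hx t).2.1, (g1 x hx t).2.2⟩⟩⟩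
  obtain ⟨ρ, h0, hρ⟩ := unif (hP.cpt ‖q x‖) (fun _ h => h.1) loc
  have key : ∀ n : ℕ, ∀ y, y ∈ Y ∧ ‖q y‖ ≤ ‖q x‖ → ∀ s : ℂ, ‖s‖ < (n + 1) * ρ →
      AnP (fun r : X × ℂ => γ r.1 r.2) (y, s) := by
    intro n
    induction n with
    | zero => exact fun y hy s hs => hρ y hy s (by simpa using hs)
    | succ n ih =>
      intro y hy s hs
      have n2 : (0 : ℝ) < n + 2 := by positivity
      obtain ⟨c, hc⟩ : ∃ c : ℝ, c = (n + 1) / (n + 2) := ⟨_, rfl⟩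
      have c0 : 0 ≤ c := by rw [hc]; positivity
      have c1 : 1 - c = 1 / (n + 2) := by rw [hc]; field_simp; ring
      have hs' : ‖s‖ / (n + 2) < ρ := by
        rw [div_lt_iff₀ n2]; push_cast at hs; linarith
      have a1 : ‖(c : ℂ) * s‖ < (n + 1) * ρ := by
        rw [norm_mul, Complex.norm_real, Real.norm_of_nonneg c0, hc, div_mul_eq_mul_div,
          mul_div_assoc]
        exact mul_lt_mul_of_pos_left hs' (by positivity)
      have a2 : s - (c : ℂ) * s ∈ ball (0 : ℂ) ρ := by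
        rw [mem_ball_zero_iff, show s - (c : ℂ) * s = ((1 - c : ℝ) : ℂ) * s by push_cast; ring,
          norm_mul, Complex.norm_real, c1, Real.norm_of_nonneg (by positivity), one_div_mul_eq_div]
        exact hs'
      have b1 : AnP (fun r : X × ℂ => γ r.1 ((c : ℂ) * s)) (y, s) :=
        AnP.compP (φ := fun r : X × ℂ => γ r.1 r.2) (ψ := Prod.fst) (a := fun _ => (c : ℂ) * s)
          (ih y hy _ a1) (anP_fst _) contMDiffAt_const
      have b2 : AnP (fun r : X × ℂ => γ (γ r.1 ((c : ℂ) * s)) (r.2 - (c : ℂ) * s)) (y, s) :=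
        AnP.compP (φ := fun r : X × ℂ => γ r.1 r.2) (ψ := fun r => γ r.1 ((c : ℂ) * s))
          (a := fun r => r.2 - (c : ℂ) * s)
          (hρ _ ⟨(g1 y hy.1 _).1, by rw [(g1 y hy.1 _).2.1]; exact hy.2⟩ _ a2) b1
          (cm_snd (a := fun u : ℂ => u - (c : ℂ) * s) (analyticAt_id.sub analyticAt_const))
      refine b2.congr ?_
      filter_upwards [continuous_fst.continuousAt.preimage_mem_nhds (hP.op.mem_nhds hy.1)] with r hr
      rw [grp r.1 hr, add_sub_cancel]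
  obtain ⟨n, hn⟩ := exists_nat_gt (‖t‖ / ρ)
  refine key n x ⟨hx, le_rfl⟩ t ?_
  rw [div_lt_iff₀ h0] at hn
  nlinarith

end Vale.Agent.P290
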