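import Vale.Agent.P290.Stm
import Vale.Agent.P271.HOpen

set_option linter.unusedSectionVars false

open Set Filter Topology Metric MeasureTheory
open scoped Manifold ContDiff LinearAlgebra.Projectivization

noncomputable section
namespace Vale.Agent.P290

namespace HorX

open Fuj
open scoped ENNReal ComplexConjugate

theorem nsq_smul (c : ℂ) (v : E) : nsq (c • v) = ‖c‖ ^ 2 * nsq v := by
  simp only [nsq, Prod.smul_fst, Prod.smul_snd, smul_eq_mul, norm_mul]
  ring

theorem nsq_pos {v : E} (h : v ≠ 0) : 0 < nsq v := by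
  unfold nsq
  rcases ne_zero_iff.1 h with h1 | h1
  · have := norm_pos_iff.2 h1
    positivity
  · have := norm_pos_iff.2 h1
    positivity

theorem nsq_coe (v : E) : ((nsq v : ℝ) : ℂ) = v.1 * conj v.1 + v.2 * conj v.2 := by
  rw [Complex.mul_conj, Complex.mul_conj, Complex.normSq_eq_norm_sq, Complex.normSq_eq_norm_sq]
  unfold nsq
  push_cast
  rfl

theorem wt_eq {v : E} (h : v ≠ 0) (c : ℂ) (x : ℝ) :
    ‖c‖ ^ 2 * Real.exp (-(x - Real.log (nsq v))) = nsq (c • v) * Real.exp (-x) := by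
  rw [nsq_smul, neg_sub, sub_eq_add_neg, Real.exp_add, Real.exp_log (nsq_pos h), mul_assoc]

variable {n : ℕ} {ι : Type} {V : ι → Set (Fin n → ℂ)} {w : ι → (Fin n → ℂ) → E}

theorem exists_frame [Finite ι] (ho : ∀ i, IsOpen (V i)) (ha : ∀ i, AnalyticOnNhd ℂ (w i) (V i))
    (h0 : ∀ i, ∀ z ∈ V i, w i z ≠ 0)
    (hd : ∀ i j, ∀ z ∈ V i, z ∈ V j → det2 (w i z) (w j z) = 0) :
    ∃ (N : (Fin n → ℂ) → E) (τ : ι → (Fin n → ℂ) → ℂ), (∀ i, Measurable (τ i)) ∧
      ∀ i, ∀ z ∈ V i, τ i z ≠ 0 ∧ N z = τ i z • w i z := by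
  classical
  have := Fintype.ofFinite ι
  obtain ⟨D, hD, hdis, hsub, hcov⟩ := meas_exists_disj V fun i => (ho i).measurableSet
  have hm : ∀ i, Measurable ((V i).piecewise (w i) fun _ => 0) := fun i =>
    (ha i).continuousOn.measurable_piecewise continuousOn_const (ho i).measurableSet
  set v : ι → (Fin n → ℂ) → E := fun i => (V i).piecewise (w i) fun _ => 0 with hv
  have hvw : ∀ i, ∀ z ∈ V i, v i z = w i z := fun i z hz => piecewise_eq_of_mem _ _ _ hz
  set N : (Fin n → ℂ) → E := fun z => ∑ j, (D j).indicator (v j) z with hN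
  have hNm : Measurable N := Finset.measurable_fun_sum _ fun j _ => (hm j).indicator (hD j)
  refine ⟨N, fun i z => ((N z).1 * conj (v i z).1 + (N z).2 * conj (v i z).2) /
    ((v i z).1 * conj (v i z).1 + (v i z).2 * conj (v i z).2), fun i => ?_, fun i z hz => ?_⟩
  · have h1 : Measurable fun z => (v i z).1 := (hm i).fst
    have h2 : Measurable fun z => (v i z).2 := (hm i).snd
    have h3 : Measurable fun z => conj (v i z).1 := Complex.continuous_conj.measurable.comp h1
    have h4 : Measurable fun z => conj (v i z).2 := Complex.continuous_conj.measurable.comp h2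
    exact ((hNm.fst.mul h3).add (hNm.snd.mul h4)).div ((h1.mul h3).add (h2.mul h4))
  · obtain ⟨j, hj⟩ := mem_iUnion.1 (hcov i hz)
    have h1 : N z = w j z := by
      rw [hN]
      simp only
      rw [Finset.sum_eq_single j, indicator_of_mem hj, hvw j z (hsub j hj)]
      · intro k _ hk
        exact indicator_of_notMem (fun h => disjoint_left.1 (hdis hk) h hj) _
      · intro h
        exact absurd (Finset.mem_univ j) h
    obtain ⟨c, hc⟩ := exists_smul_of_det2 (h0 i z hz) (hd i j z hz (hsub j hj))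
    have hc0 : c ≠ 0 := fun h => h0 j z (hsub j hj) (by rw [hc, h, zero_smul])
    have h2 : (w i z).1 * conj (w i z).1 + (w i z).2 * conj (w i z).2 ≠ 0 := by
      rw [← nsq_coe]
      exact Complex.ofReal_ne_zero.2 (nsq_pos (h0 i z hz)).ne'
    have h3 : ((N z).1 * conj (v i z).1 + (N z).2 * conj (v i z).2) /
        ((v i z).1 * conj (v i z).1 + (v i z).2 * conj (v i z).2) = c := by
      rw [h1, hc, hvw i z hz, div_eq_iff h2]
      simp only [Prod.smul_fst, Prod.smul_snd, smul_eq_mul]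
      ring
    simp only [h3]
    exact ⟨hc0, h1.trans hc⟩

theorem ratio_an {N : (Fin n → ℂ) → E} {τ : ι → (Fin n → ℂ) → ℂ} (ho : ∀ i, IsOpen (V i))
    (ha : ∀ i, AnalyticOnNhd ℂ (w i) (V i)) (h0 : ∀ i, ∀ z ∈ V i, w i z ≠ 0)
    (hd : ∀ i j, ∀ z ∈ V i, z ∈ V j → det2 (w i z) (w j z) = 0)
    (hτ : ∀ i, ∀ z ∈ V i, τ i z ≠ 0 ∧ N z = τ i z • w i z) {i j : ι} {z : Fin n → ℂ}
    (hi : z ∈ V i) (hj : z ∈ V j) : AnalyticAt ℂ (fun y => τ j y / τ i y) z := by
  have e1 : ∀ᶠ y in 𝓝 z, y ∈ V i := (ho i).mem_nhds hi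
  have e2 : ∀ᶠ y in 𝓝 z, y ∈ V j := (ho j).mem_nhds hj
  obtain ⟨k, hk, he⟩ := exists_ratio (ha j z hj) (ha i z hi) (h0 j z hj)
    ((e1.and e2).mono fun y hy => hd j i y hy.2 hy.1)
  refine hk.congr ?_
  filter_upwards [e1, e2, he] with y h1 h2 h3
  have h4 : τ j y • w j y = (τ i y * k y) • w j y := by
    rw [← (hτ j y h2).2, (hτ i y h1).2, h3, smul_smul]
  rw [smul_left_injective ℂ (h0 j y h2) h4, mul_div_cancel_left₀ _ (hτ i y h1).1]

variable {W : Set (Fin n → ℂ)}

/-- the chart over `U` -/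
def ce (hW : IsOpen W) [Nonempty W] {U : Set (Fin n → ℂ)} (hU : IsOpen U) :
    OpenPartialHomeomorph W (Fin n → ℂ) :=
  (hoE hW).restrOpen (Subtype.val ⁻¹' U) (hU.preimage continuous_subtype_val)

theorem ce_source (hW : IsOpen W) [Nonempty W] {U : Set (Fin n → ℂ)} (hU : IsOpen U) :
    (ce hW hU).source = Subtype.val ⁻¹' U := univ_inter _

theorem ce_target (hW : IsOpen W) [Nonempty W] {U : Set (Fin n → ℂ)} (hU : IsOpen U)
    (h : U ⊆ W) : (ce hW hU).target = U := by
  ext z
  change z ∈ (hoE hW).target ∧ (((hoE hW).symm z : W) : Fin n → ℂ) ∈ U ↔ _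
  rw [hoE_target]
  exact ⟨fun hz => hoE_right hW hz.1 ▸ hz.2, fun hz => ⟨h hz, (hoE_right hW (h hz)).symm ▸ hz⟩⟩

/-- the line bundle with the frames `w i` -/
def sh [Finite ι] (hW : IsOpen W) [Nonempty W] (ho : ∀ i, IsOpen (V i)) (hs : ∀ i, V i ⊆ W)
    (hc : ∀ z ∈ W, ∃ i, z ∈ V i) {τ : ι → (Fin n → ℂ) → ℂ} (hm : ∀ i, Measurable (τ i))
    (hne : ∀ i, ∀ z ∈ V i, τ i z ≠ 0)
    (hr : ∀ i j z, z ∈ V i → z ∈ V j → AnalyticAt ℂ (fun y => τ j y / τ i y) z) :
    Sheets (Fin n → ℂ) W volume where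
  ι := ι
  cnt := inferInstance
  π := Subtype.val
  e i := ce hW (ho i)
  e_eq _ _ _ := rfl
  cover p := (hc p p.2).imp fun _ h => ⟨mem_univ _, h⟩
  τ i p := τ i p
  τ_meas i := (hm i).comp measurable_subtype_coe
  τ_ne i p hp := hne i p hp.2
  hol i j := by
    rw [ce_target hW (ho i) (hs i), ce_source]
    have e : ∀ z ∈ V i, (((ce hW (ho i)).symm z : W) : Fin n → ℂ) = z :=
      fun z hz => hoE_right hW (hs i hz)
    refine DifferentiableOn.congr (f := fun y => τ j y / τ i y) (fun z hz => ?_) fun z hz => ?_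
    · exact (hr i j z hz.1 (e z hz.1 ▸ hz.2)).differentiableAt.differentiableWithinAt
    · rw [e z hz.1]
  μ := Measure.comap Subtype.val volume
  μ_eq i := by
    have hme : MeasurableEmbedding (Subtype.val : W → Fin n → ℂ) :=
      MeasurableEmbedding.subtype_coe hW.measurableSet
    have h1 : volume.restrict (ce hW (ho i)).target =
        ((Measure.comap Subtype.val volume).restrict (Subtype.val ⁻¹' V i)).map
          (Subtype.val : W → Fin n → ℂ) := by
      rw [← hme.restrict_map, hme.map_comap, Subtype.range_coe, ce_target hW (ho i) (hs i),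
        Measure.restrict_restrict_of_subset (hs i)]
    have h2 : AEMeasurable (ce hW (ho i)).symm (volume.restrict (ce hW (ho i)).target) :=
      (ce hW (ho i)).continuousOn_symm.aemeasurable (ce hW (ho i)).open_target.measurableSet
    rw [ce_source, h1,
      AEMeasurable.map_map_of_aemeasurable (h1 ▸ h2) hme.measurable.aemeasurable]
    have h3 : ((ce hW (ho i)).symm ∘ Subtype.val : W → W) = id := funext fun p => hoE_left hW p
    rw [h3, Measure.map_id]

theorem cd_nsq {f : (Fin n → ℂ) → E} {z : Fin n → ℂ} (h : AnalyticAt ℂ f z) :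
    ContDiffAt ℝ ∞ (fun y => nsq (f y)) z := by
  have h1 : ContDiffAt ℝ ∞ f z := (h.contDiffAt (n := ∞)).restrict_scalars ℝ
  exact (h1.fst.norm_sq ℂ).add (h1.snd.norm_sq ℂ)

theorem ev_zero {U : Set (Fin n → ℂ)} {χ : (Fin n → ℂ) → ℝ} (hχ : TestOn U χ) {z : Fin n → ℂ}
    (hz : z ∉ U) (k : (Fin n → ℂ) → ℂ) : (fun y => (χ y : ℂ) * k y) =ᶠ[𝓝 z] fun _ => 0 := by
  filter_upwards [notMem_tsupport_iff_eventuallyEq.1 fun h => hz (hχ.2.2 h)] with y hy
  rw [hy, Pi.zero_apply, Complex.ofReal_zero, zero_mul]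

theorem fin_int {U : Set (Fin n → ℂ)} {χ h : (Fin n → ℂ) → ℝ} (hχ : TestOn U χ)
    (hh : ContinuousOn h U) {G : (Fin n → ℂ) → ℝ} (h1 : ∀ z ∈ U, G z = h z)
    (h2 : ∀ z, χ z = 0 → G z = 0) : ∫⁻ z in W, ENNReal.ofReal (G z) ≠ ⊤ := by
  have hK : IsCompact (tsupport χ) := hχ.2.1
  obtain ⟨C, hC⟩ := hK.exists_bound_of_continuousOn (hh.mono hχ.2.2)
  refine ne_top_of_le_ne_top (b := ∫⁻ z, (tsupport χ).indicator (fun _ => ENNReal.ofReal C) z)
    ?_ ((setLIntegral_le_lintegral _ _).trans (lintegral_mono fun z => ?_))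
  · rw [lintegral_indicator_const hK.measurableSet]
    exact ENNReal.mul_ne_top ENNReal.ofReal_ne_top hK.measure_lt_top.ne
  · by_cases hz : z ∈ tsupport χ
    · rw [indicator_of_mem hz, h1 z (hχ.2.2 hz)]
      exact ENNReal.ofReal_le_ofReal ((le_abs_self _).trans (hC z hz))
    · rw [h2 z (image_eq_zero_of_notMem_tsupport hz), ENNReal.ofReal_zero]
      exact zero_le

end HorX

open HorX Fuj in
theorem hor_pf : HorS := by
  intro n W u C₀ hE ι _ V w hV hc hd ψ hψ hlev i₀ χ A hχ hA hA0 hdb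
  have ho := fun i => (hV i).1
  have hs := fun i => (hV i).2.1
  have ha := fun i => (hV i).2.2.1
  have h0 := fun i => (hV i).2.2.2
  have hW := hE.op
  rcases W.eq_empty_or_nonempty with rfl | hne
  · refine ⟨0, fun _ h => h.elim, fun i z hz => (hs i hz).elim, ?_⟩
    rw [subset_empty_iff.1 (hs i₀), Measure.restrict_empty, lintegral_zero_measure]
    exact zero_le
  have : Nonempty W := hne.to_subtype
  obtain ⟨N, τ, hm, hτ⟩ := exists_frame ho ha h0 hd
  have hr := fun i j z => ratio_an ho ha h0 hd hτ (i := i) (j := j) (z := z)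
  have hN : ∀ i, ∀ z ∈ V i, N z ≠ 0 := fun i z hz => by
    rw [(hτ i z hz).2]
    exact smul_ne_zero (hτ i z hz).1 (h0 i z hz)
  set S := sh hW ho hs hc hm (fun i z hz => (hτ i z hz).1) hr with hS
  have hT : ∀ i : ι, (S.e i).target = V i := fun i => ce_target hW (ho i) (hs i)
  have hsy : ∀ i : ι, ∀ z ∈ V i, (((S.e i).symm z : W) : Fin n → ℂ) = z :=
    fun i z hz => hoE_right hW (hs i hz)
  have eloc : ∀ (g : (Fin n → ℂ) → ℝ) (i : ι), ∀ z ∈ V i, S.loc i (fun p => g p) z = g z :=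
    fun g i z hz => congrArg g (hsy i z hz)
  have ewt : ∀ i : ι, ∀ z ∈ V i, S.wt i (fun p => ψ p - Real.log (nsq (N p))) z =
      ψ z - Real.log (nsq (w i z)) := fun i z hz => by
    change ψ ((S.e i).symm z) - Real.log (nsq (N ((S.e i).symm z))) +
      Real.log (‖τ i ((S.e i).symm z)‖ ^ 2) = _
    rw [hsy i z hz, (hτ i z hz).2, nsq_smul,
      Real.log_mul (pow_ne_zero 2 (norm_ne_zero_iff.2 (hτ i z hz).1)) (nsq_pos (h0 i z hz)).ne']
    ring
  have erep : ∀ i : ι, ∀ z ∈ V i, S.rep i (fun p => (χ p : ℂ) / τ i₀ p) z =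
      (χ z : ℂ) * (τ i z / τ i₀ z) := fun i z hz => by
    change τ i ((S.e i).symm z) * ((χ ((S.e i).symm z) : ℂ) / τ i₀ ((S.e i).symm z)) = _
    rw [hsy i z hz]
    ring
  have ev : ∀ {Y : Type} {g g' : (Fin n → ℂ) → Y} (i : ι), (∀ z ∈ V i, g z = g' z) →
      ∀ z ∈ V i, g =ᶠ[𝓝 z] g' := fun i h z hz => eventually_of_mem ((ho i).mem_nhds hz) h
  have hint : ∀ g : (Fin n → ℂ) → ENNReal, ∫⁻ p : W, g p ∂S.μ = ∫⁻ z in W, g z :=
    fun g => lintegral_subtype_comap hW.measurableSet g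
  have hχc : ContDiff ℝ ∞ fun y => (χ y : ℂ) := Complex.ofRealCLM.contDiff.comp hχ.1
  have hfN : ∀ z ∈ V i₀, ((χ z : ℂ) / τ i₀ z) • N z = (χ z : ℂ) • w i₀ z := fun z hz => by
    rw [(hτ i₀ z hz).2, smul_smul, div_mul_cancel₀ _ (hτ i₀ z hz).1]
  obtain ⟨F, hF, hle⟩ := S.hormander (u := fun p => u p)
    (φ := fun p => ψ p - Real.log (nsq (N p))) (f := fun p => (χ p : ℂ) / τ i₀ p)
    (A := fun p => (V i₀).indicator A p / ‖τ i₀ p‖ ^ 2) (C₀ := C₀)
    (fun i => by rw [hT i]; exact (hE.sm.mono (hs i)).congr (eloc u i))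
    (fun i z hz ξ => by
      rw [hT i] at hz
      rw [levi_congr (ev i (eloc u i) z hz)]
      exact hE.psh z (hs i hz) ξ)
    (fun c => by
      rw [Subtype.isCompact_iff]
      have e : Subtype.val '' {p : W | u p ≤ c} = {z | z ∈ W ∧ u z ≤ c} := by
        ext z
        simp only [mem_image, mem_ofPred_eq, Subtype.exists, exists_and_right, exists_eq_right,
          exists_prop]
      rw [e]
      exact hE.cpt c)
    (fun i z hz ξ => by
      rw [hT i] at hz
      rw [dzr_congr (ev i (eloc u i) z hz), eloc u i z hz]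
      exact hE.grad z (hs i hz) ξ)
    (fun i => by
      rw [hT i]
      refine ContDiffOn.congr (fun z hz => ?_) (ewt i)
      exact ((hψ.mono (hs i)) z hz).sub
        ((cd_nsq (ha i z hz)).log (nsq_pos (h0 i z hz)).ne').contDiffWithinAt)
    (fun i z hz ξ => by
      rw [hT i] at hz
      rw [levi_congr (ev i (ewt i) z hz)]
      exact (sq_nonneg _).trans (hlev i z hz ξ))
    (fun i => by
      rw [hT i]
      refine ContDiffOn.congr (fun z hz => ContDiffAt.contDiffWithinAt ?_) (erep i)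
      by_cases hz0 : z ∈ V i₀
      · exact hχc.contDiffAt.mul (((hr i₀ i z hz0 hz).contDiffAt (n := ∞)).restrict_scalars ℝ)
      · exact contDiffAt_const.congr_of_eventuallyEq (ev_zero hχ hz0 _))
    (by
      refine fun h => fin_int (W := W) hχ
        (h := fun z => nsq ((χ z : ℂ) • w i₀ z) * Real.exp (-ψ z))
        (G := fun z => ‖(χ z : ℂ) / τ i₀ z‖ ^ 2 * Real.exp (-(ψ z - Real.log (nsq (N z)))))
        ?_ (fun z hz => ?_) (fun z hz => ?_) ((hint _).symm.trans h)
      · have h1 : ContinuousOn (fun z => (χ z : ℂ) • w i₀ z) (V i₀) :=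
          hχc.continuous.continuousOn.smul (ha i₀).continuousOn
        have h2 : Continuous nsq := by
          unfold nsq
          fun_prop
        exact (h2.comp_continuousOn h1).mul
          (Real.continuous_exp.comp_continuousOn (hψ.continuousOn.mono (hs i₀)).neg)
      · rw [wt_eq (hN i₀ z hz), hfN z hz]
      · rw [hz, Complex.ofReal_zero, zero_div, norm_zero, zero_pow two_ne_zero, zero_mul])
    (((hA.indicator (ho i₀).measurableSet).div ((hm i₀).norm.pow_const 2)).comp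
      measurable_subtype_coe)
    (fun p => div_nonneg (indicator_nonneg (fun z _ => hA0 z) _) (sq_nonneg _))
    (fun i z hz ξ => by
      rw [hT i] at hz
      rw [levi_congr (ev i (ewt i) z hz), db_congr (ev i (erep i) z hz),
        eloc (fun p => (V i₀).indicator A p / ‖τ i₀ p‖ ^ 2) i z hz]
      change _ ≤ ‖τ i ((S.e i).symm z)‖ ^ 2 * _ * _
      rw [hsy i z hz]
      by_cases hz0 : z ∈ V i₀
      · have h1 := (hr i₀ i z hz0 hz).differentiableAt
        rw [db_mul (hχc.differentiable (by simp) z) (h1.restrictScalars ℝ), db_hol h1, mul_zero,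
          add_zero, norm_mul, mul_pow, indicator_of_mem hz0, norm_div, div_pow]
        calc _ ≤ A z * levi (fun y => ψ y - Real.log (nsq (w i y))) z ξ *
              (‖τ i z‖ ^ 2 / ‖τ i₀ z‖ ^ 2) :=
            mul_le_mul_of_nonneg_right ((hdb z ξ).trans
              (mul_le_mul_of_nonneg_left (hlev i z hz ξ) (hA0 z))) (by positivity)
          _ = _ := by ring
      · rw [db_congr (ev_zero hχ hz0 _), db_const, indicator_of_notMem hz0]
        simp)
  have hsi : ∀ i : ι, ∀ z ∈ V i, F ((hoE hW).symm z) • N z = S.rep i F z • w i z :=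
    fun i z hz => by
      change _ = (τ i ((S.e i).symm z) * F ((hoE hW).symm z)) • w i z
      rw [hsy i z hz, (hτ i z hz).2, smul_smul, mul_comm]
  refine ⟨fun z => F ((hoE hW).symm z) • N z, fun z hz => ?_, fun i z hz => ?_, ?_⟩
  · obtain ⟨i, hi⟩ := hc z hz
    have h1 : DifferentiableOn ℂ (S.rep i F) (V i) := hT i ▸ hF i
    exact ((P274.analyticOnNhd_of_differentiableOn (ho i) h1 z hi).smul (ha i z hi)).congr
      (ev i (hsi i) z hi).symm
  · simp only [hsi i z hz]
    rw [det2_smul_right, det2_self, mul_zero]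
  · refine le_trans ?_ (hle.trans (mul_le_mul_right ?_ _))
    · have h1 := hint fun z => ENNReal.ofReal (‖F ((hoE hW).symm z) - (χ z : ℂ) / τ i₀ z‖ ^ 2 *
        Real.exp (-(ψ z - Real.log (nsq (N z)))))
      simp only [hoE_left] at h1
      refine le_trans ?_ (le_of_eq h1.symm)
      refine le_trans (le_of_eq ?_) (lintegral_mono_set (hs i₀))
      refine setLIntegral_congr_fun (ho i₀).measurableSet fun z hz => ?_
      simp only
      rw [wt_eq (hN i₀ z hz), sub_smul, hfN z hz]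
    · rw [hint fun z => ENNReal.ofReal ((V i₀).indicator A z / ‖τ i₀ z‖ ^ 2 *
        Real.exp (-(ψ z - Real.log (nsq (N z))))), ← lintegral_indicator (ho i₀).measurableSet]
      refine (setLIntegral_le_lintegral _ _).trans (le_of_eq (lintegral_congr fun z => ?_))
      by_cases hz : z ∈ V i₀
      · have h2 := wt_eq (hN i₀ z hz) (τ i₀ z)⁻¹ (ψ z)
        rw [(hτ i₀ z hz).2, inv_smul_smul₀ (hτ i₀ z hz).1, ← (hτ i₀ z hz).2, norm_inv, inv_pow] at h2
        rw [indicator_of_mem hz, indicator_of_mem hz, div_eq_mul_inv, mul_assoc, h2, mul_assoc]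
      · rw [indicator_of_notMem hz, indicator_of_notMem hz, zero_div, zero_mul,
          ENNReal.ofReal_zero]

end Vale.Agent.P290
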