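import Vale.Agent.P290.Stm

set_option linter.unusedSectionVars false

open Set Filter Topology Metric MeasureTheory
open scoped Manifold ContDiff LinearAlgebra.Projectivization

noncomputable section
namespace Vale.Agent.P290

namespace IftX

theorem inv_id {X : Type*} [NormedAddCommGroup X] [NormedSpace ℂ X] [CompleteSpace X]
    {Ψ : X → X} {x : X} (h : AnalyticAt ℂ Ψ x) (hd : fderiv ℂ Ψ x = ContinuousLinearMap.id ℂ X) :
    (∃ u ∈ 𝓝 x, InjOn Ψ u) ∧ ∃ Φ : X → X, AnalyticAt ℂ Φ (Ψ x) ∧ Φ (Ψ x) = x ∧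
      ∀ᶠ y in 𝓝 (Ψ x), Ψ (Φ y) = y := by
  have hc : ContDiffAt ℂ ω Ψ x := h.contDiffAt
  have hf : HasFDerivAt Ψ ((ContinuousLinearEquiv.refl ℂ X : X ≃L[ℂ] X) : X →L[ℂ] X) x := by
    have := h.differentiableAt.hasFDerivAt
    rw [hd] at this
    exact this
  have hn : (ω : WithTop ℕ∞) ≠ 0 := by simp
  refine ⟨⟨(hc.toOpenPartialHomeomorph Ψ hf hn).source,
    (hc.toOpenPartialHomeomorph Ψ hf hn).open_source.mem_nhds
      (hc.mem_toOpenPartialHomeomorph_source hf hn),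
    (hc.toOpenPartialHomeomorph Ψ hf hn).injOn⟩, hc.localInverse hf hn,
    (hc.to_localInverse hf hn).analyticAt, hc.localInverse_apply_image hf hn, ?_⟩
  exact (hc.hasStrictFDerivAt' hf hn).eventually_right_inverse

variable {F G : Type*} [NormedAddCommGroup F] [NormedSpace ℂ F] [NormedAddCommGroup G]
  [NormedSpace ℂ G]

theorem fderiv_id {Ψ : F × G → F × G} {z : F} (h : DifferentiableAt ℂ Ψ (z, 0))
    (h1 : ∀ w, Ψ (w, 0) = (w, 0))
    (h2 : HasFDerivAt (fun η => Ψ (z, η)) (ContinuousLinearMap.inr ℂ F G) 0) :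
    fderiv ℂ Ψ (z, 0) = ContinuousLinearMap.id ℂ (F × G) := by
  have a1 : HasFDerivAt (fun w => Ψ (w, 0))
      ((fderiv ℂ Ψ (z, 0)).comp (ContinuousLinearMap.inl ℂ F G)) z :=
    HasFDerivAt.comp z (f := fun w : F => (w, (0 : G))) h.hasFDerivAt (hasFDerivAt_prodMk_left z 0)
  have a2 : HasFDerivAt (fun η => Ψ (z, η))
      ((fderiv ℂ Ψ (z, 0)).comp (ContinuousLinearMap.inr ℂ F G)) 0 :=
    HasFDerivAt.comp (0 : G) (f := fun η : G => (z, η)) h.hasFDerivAt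
      (hasFDerivAt_prodMk_right z 0)
  have b1 : HasFDerivAt (fun w => Ψ (w, 0)) (ContinuousLinearMap.inl ℂ F G) z := by
    simp only [h1]; exact hasFDerivAt_prodMk_left z 0
  have e1 := a1.unique b1
  have e2 := a2.unique h2
  refine ContinuousLinearMap.ext fun q => ?_
  have f1 := congrArg (fun L : F →L[ℂ] F × G => L q.1) e1
  have f2 := congrArg (fun L : G →L[ℂ] F × G => L q.2) e2
  simp only [ContinuousLinearMap.comp_apply, ContinuousLinearMap.inl_apply,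
    ContinuousLinearMap.inr_apply] at f1 f2
  have : q = (q.1, 0) + (0, q.2) := by simp
  rw [this, map_add, f1, f2]
  simp

theorem core [CompleteSpace F] [CompleteSpace G] (S : F × G → E) (Q : F → G →L[ℂ] G) (z₀ : F)
    (hS : AnalyticAt ℂ S (z₀, 0)) (hQ : AnalyticAt ℂ Q z₀) (R : F → E →L[ℂ] G)
    (hR : AnalyticAt ℂ (fun p : F × E => R p.1 p.2) (z₀, 0))
    (h0 : ∀ ξ, R z₀ (fderiv ℂ S (z₀, 0) (0, ξ)) = Q z₀ ξ)
    (h1 : ∀ᶠ z in 𝓝 z₀, (∀ y, fderiv ℂ S (z, 0) (0, R z y) = y) ∧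
      ∀ ξ, fderiv ℂ S (z, 0) (0, Q z ξ) = fderiv ℂ S (z, 0) (0, ξ)) :
    (∃ u ∈ 𝓝 ((z₀, 0) : F × G), InjOn (fun q : F × G => (q.1, q.2 - Q q.1 q.2, S q)) u) ∧
    ∃ h : F × E → G, AnalyticAt ℂ h (z₀, S (z₀, 0)) ∧ h (z₀, S (z₀, 0)) = 0 ∧
      ∀ᶠ q in 𝓝 (z₀, S (z₀, 0)), Q q.1 (h q) = h q ∧ S (q.1, h q) = q.2 := by
  set Ψ : F × G → F × G := fun q => (q.1, q.2 - Q q.1 q.2 + R q.1 (S q - S (q.1, 0))) with hΨ
  have hQ' : AnalyticAt ℂ (fun q : F × G => Q q.1 q.2) (z₀, 0) := by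
    have a : AnalyticAt ℂ (fun q : F × G => Q q.1) (z₀, 0) :=
      AnalyticAt.comp (f := fun q : F × G => q.1) hQ analyticAt_fst
    exact ((ContinuousLinearMap.apply ℂ G).flip.analyticAt_bilinear _).comp₂ a analyticAt_snd
  have hS0 : AnalyticAt ℂ (fun q : F × G => S (q.1, 0)) (z₀, 0) :=
    AnalyticAt.comp (f := fun q : F × G => (q.1, (0 : G))) hS (analyticAt_fst.prod analyticAt_const)
  have hA : AnalyticAt ℂ Ψ (z₀, 0) := by
    refine analyticAt_fst.prod ((analyticAt_snd.sub hQ').add ?_)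
    exact AnalyticAt.comp (g := fun p : F × E => R p.1 p.2)
      (f := fun q : F × G => (q.1, S q - S (q.1, 0))) (by simpa using hR)
      (analyticAt_fst.prod (hS.sub hS0))
  have hz : ∀ w, Ψ (w, 0) = (w, 0) := fun w => by simp [hΨ]
  have hd : HasFDerivAt (fun η => Ψ (z₀, η)) (ContinuousLinearMap.inr ℂ F G) 0 := by
    have a : HasFDerivAt (fun η : G => S (z₀, η))
        ((fderiv ℂ S (z₀, 0)).comp (ContinuousLinearMap.inr ℂ F G)) 0 :=
      HasFDerivAt.comp (0 : G) (f := fun η : G => (z₀, η)) hS.differentiableAt.hasFDerivAt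
        (hasFDerivAt_prodMk_right z₀ 0)
    have b := (hasFDerivAt_const (𝕜 := ℂ) z₀ (0 : G)).prodMk
      (((hasFDerivAt_id (𝕜 := ℂ) (0 : G)).sub (Q z₀).hasFDerivAt).add
        ((R z₀).hasFDerivAt.comp (0 : G) (a.sub_const (S (z₀, 0)))))
    refine b.congr_fderiv ?_
    refine ContinuousLinearMap.ext fun ξ => ?_
    simp [h0]
  obtain ⟨⟨u, hu, hinj⟩, Φ, hΦ, hΦ0, hΦr⟩ :=
    inv_id hA (fderiv_id hA.differentiableAt hz hd)
  rw [hz] at hΦ hΦ0 hΦr
  refine ⟨⟨u, hu, fun p hp q hq e => hinj hp hq ?_⟩, ?_⟩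
  · simp only [Prod.mk.injEq] at e
    obtain ⟨e1, e2, e3⟩ := e
    simp only [hΨ, Prod.mk.injEq]
    exact ⟨e1, by rw [e2, e3, e1]⟩
  set T : F × E → F × G := fun q => (q.1, R q.1 (q.2 - S (q.1, 0))) with hT
  have hT0 : T (z₀, S (z₀, 0)) = (z₀, 0) := by simp [hT]
  have hTA : AnalyticAt ℂ T (z₀, S (z₀, 0)) := by
    have a : AnalyticAt ℂ (fun q : F × E => S (q.1, 0)) (z₀, S (z₀, 0)) :=
      AnalyticAt.comp (f := fun q : F × E => (q.1, (0 : G))) hS
        (analyticAt_fst.prod analyticAt_const)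
    refine analyticAt_fst.prod ?_
    exact AnalyticAt.comp (g := fun p : F × E => R p.1 p.2)
      (f := fun q : F × E => (q.1, q.2 - S (q.1, 0))) (by simpa using hR)
      (analyticAt_fst.prod (analyticAt_snd.sub a))
  refine ⟨fun q => (Φ (T q)).2, ?_, by simp only [hT0, hΦ0], ?_⟩
  · exact analyticAt_snd.comp (AnalyticAt.comp (f := T) (by rw [hT0]; exact hΦ) hTA)
  have t1 : Tendsto T (𝓝 (z₀, S (z₀, 0))) (𝓝 (z₀, 0)) := by
    have := hTA.continuousAt.tendsto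
    rwa [hT0] at this
  have t2 : Tendsto (fun q : F × E => q.1) (𝓝 (z₀, S (z₀, 0))) (𝓝 z₀) :=
    continuous_fst.tendsto' _ _ rfl
  filter_upwards [t1.eventually hΦr, t2.eventually h1] with q hq hq'
  have e1 : (Φ (T q)).1 = q.1 := congrArg Prod.fst hq
  have e2 : (Φ (T q)).2 - Q q.1 (Φ (T q)).2 + R q.1 (S (q.1, (Φ (T q)).2) - S (q.1, 0)) =
      R q.1 (q.2 - S (q.1, 0)) := by
    have := congrArg Prod.snd hq
    have e0 : Φ (T q) = (q.1, (Φ (T q)).2) := Prod.ext e1 rfl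
    rw [e0] at this
    exact this
  generalize (Φ (T q)).2 = η at e2 ⊢
  have e3 : S (q.1, η) = q.2 := by
    have := congrArg (fun ξ : G => fderiv ℂ S (q.1, 0) (0, ξ)) e2
    have l : ∀ a b c : G, ((0 : F), a - b + c) = (0, a) - (0, b) + (0, c) := fun a b c => by simp
    simp only [l, map_add, map_sub (fderiv ℂ S (q.1, 0)), hq'.1, hq'.2] at this
    linear_combination (exp := 1) this
  refine ⟨?_, e3⟩
  rw [e3] at e2
  have : η - Q q.1 η = 0 := by simpa using e2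
  exact (sub_eq_zero.1 this).symm

/-- Cramer inverse -/
def cr (a b : E) (α β : G) : E →L[ℂ] G :=
  (det2 a b)⁻¹ • ((b.2 • ContinuousLinearMap.fst ℂ ℂ ℂ -
      b.1 • ContinuousLinearMap.snd ℂ ℂ ℂ).smulRight α +
    (a.1 • ContinuousLinearMap.snd ℂ ℂ ℂ - a.2 • ContinuousLinearMap.fst ℂ ℂ ℂ).smulRight β)

theorem cr_apply (a b : E) (α β : G) (y : E) :
    cr a b α β y = (det2 a b)⁻¹ • (det2 y b • α + det2 a y • β) := by
  simp only [cr, det2, smul_apply, add_apply,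
    ContinuousLinearMap.smulRight_apply, sub_apply,
    ContinuousLinearMap.coe_fst', ContinuousLinearMap.coe_snd', smul_eq_mul]
  congr 3 <;> ring

theorem cr_inv (L : F × G →L[ℂ] E) (α β : G) (h : det2 (L (0, α)) (L (0, β)) ≠ 0) (y : E) :
    L (0, cr (L (0, α)) (L (0, β)) α β y) = y := by
  rw [cr_apply]
  have l : ∀ (c d e : ℂ), ((0 : F), c • (d • α + e • β)) = c • (d • (0, α) + e • (0, β)) :=
    fun c d e => by simp
  rw [l, map_smul, map_add, map_smul, map_smul, det2_cramer, smul_smul, inv_mul_cancel₀ h,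
    one_smul]

end IftX

theorem ift_pf : IftS := by
  intro F G _ _ _ _ _ _ S Q z₀ hS hQ ⟨α, β, hαβ⟩ hev
  have hD : ∀ ξ : G, AnalyticAt ℂ (fun z : F => fderiv ℂ S (z, 0) (0, ξ)) z₀ := fun ξ => by
    have a : AnalyticAt ℂ (fun z : F => fderiv ℂ S (z, 0)) z₀ :=
      AnalyticAt.comp (f := fun z : F => (z, (0 : G))) hS.fderiv
        (analyticAt_id.prod analyticAt_const)
    exact ((ContinuousLinearMap.apply ℂ E ((0 : F), ξ)).analyticAt _).comp a
  have hΔ := analyticAt_det2 (hD α) (hD β)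
  have hne := hΔ.continuousAt.eventually_ne hαβ
  refine IftX.core S Q z₀ hS hQ (fun z => (Q z).comp
    (IftX.cr (fderiv ℂ S (z, 0) (0, α)) (fderiv ℂ S (z, 0) (0, β)) α β)) ?_ ?_ ?_
  · simp only [ContinuousLinearMap.comp_apply, IftX.cr_apply]
    have a : AnalyticAt ℂ (fun q : F × E => Q q.1) (z₀, 0) :=
      AnalyticAt.comp (f := fun q : F × E => q.1) hQ analyticAt_fst
    have d : ∀ ξ : G, AnalyticAt ℂ (fun q : F × E => fderiv ℂ S (q.1, 0) (0, ξ)) (z₀, 0) :=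
      fun ξ => AnalyticAt.comp (g := fun z : F => fderiv ℂ S (z, 0) (0, ξ))
        (f := fun q : F × E => q.1) (hD ξ) analyticAt_fst
    refine ((ContinuousLinearMap.apply ℂ G).flip.analyticAt_bilinear _).comp₂ a ?_
    refine ((analyticAt_det2 (d α) (d β)).inv hαβ).smul ?_
    exact ((analyticAt_det2 analyticAt_snd (d β)).smul analyticAt_const).add
      ((analyticAt_det2 (d α) analyticAt_snd).smul analyticAt_const)
  · intro ξ
    have h := (hev.self_of_nhds (IftX.cr (fderiv ℂ S (z₀, 0) (0, α)) (fderiv ℂ S (z₀, 0) (0, β))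
      α β (fderiv ℂ S (z₀, 0) (0, ξ)) - ξ)).2 (by
        have l : ∀ a b : G, ((0 : F), a - b) = (0, a) - (0, b) := fun a b => by simp
        rw [l, map_sub, IftX.cr_inv _ _ _ hαβ, sub_self])
    rw [map_sub, sub_eq_zero] at h
    exact h
  · filter_upwards [hev, hne] with z hz hz'
    refine ⟨fun y => ?_, fun ξ => (hz ξ).1⟩
    rw [ContinuousLinearMap.comp_apply, (hz _).1, IftX.cr_inv _ _ _ hz']

end Vale.Agent.P290
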