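import Vale.Agent.P290.Stm

set_option linter.unusedSectionVars false

open Set Filter Topology Metric MeasureTheory
open scoped Manifold ContDiff LinearAlgebra.Projectivization

noncomputable section
namespace Vale.Agent.P290

namespace LiftX

variable {F : Type} [NormedAddCommGroup F] [NormedSpace ℂ F]

/-- points on the segment from `z₀` to `z` -/
def seg (z₀ : F) (N m : ℕ) (z : F) : F := z₀ + (((m : ℝ) / N : ℝ) : ℂ) • (z - z₀)

/-- transport of a vector along the segment -/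
def tr (a b : F → E) (z₀ : F) (u : E) (N : ℕ) : ℕ → F → E
  | 0 => fun _ => u
  | m + 1 => fun z => (tr a b z₀ u N m z).1 • a (seg z₀ N (m + 1) z) +
      (tr a b z₀ u N m z).2 • b (seg z₀ N (m + 1) z)

theorem seg_zero (z₀ : F) (N : ℕ) (z : F) : seg z₀ N 0 z = z₀ := by simp [seg]

theorem seg_last (z₀ : F) (N : ℕ) (z : F) : seg z₀ (N + 1) (N + 1) z = z := by
  have h : ((N + 1 : ℕ) : ℝ) ≠ 0 := by positivity
  rw [seg, div_self h]
  simp

theorem seg_an (z₀ : F) (N m : ℕ) (z : F) : AnalyticAt ℂ (seg z₀ N m) z :=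
  analyticAt_const.add ((analyticAt_id.sub analyticAt_const).const_smul)

theorem seg_mem {K : Set F} (hK : CK K) {z₀ z : F} (h0 : z₀ ∈ K) (hz : z ∈ K) {N m : ℕ}
    (hm : m ≤ N) : seg z₀ N m z ∈ K :=
  hK.cvx z₀ h0 z hz _ (by positivity) (div_le_one_of_le₀ (by exact_mod_cast hm) (by positivity))

theorem seg_dist (z₀ z : F) (N m : ℕ) :
    dist (seg z₀ N m z) (seg z₀ N (m + 1) z) = ‖z - z₀‖ / N := by
  rw [dist_comm, dist_eq_norm, seg, seg, add_sub_add_left_eq_sub, ← sub_smul, norm_smul,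
    ← Complex.ofReal_sub, Complex.norm_real, ← sub_div, Nat.cast_succ, add_sub_cancel_left,
    Real.norm_of_nonneg (by positivity)]
  ring

theorem step_ne {r u a b a' b' : E} (hr : r ≠ 0) (hu : u ≠ 0) (hd : det2 r u = 0)
    (h1 : r.1 • a + r.2 • b = r) (ha : dist a a' < 1 / 2) (hb : dist b b' < 1 / 2) :
    u.1 • a' + u.2 • b' ≠ 0 := by
  intro h0
  obtain ⟨c, hc⟩ := exists_smul_of_det2 hr hd
  have h2 : u.1 • a + u.2 • b = u := by
    rw [hc, Prod.smul_fst, Prod.smul_snd, smul_assoc, smul_assoc, ← smul_add, h1]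
  have h3 : u = u.1 • (a - a') + u.2 • (b - b') := by
    rw [smul_sub, smul_sub, sub_add_sub_comm, h2, h0, sub_zero]
  have h4 : ‖u‖ ≤ ‖u‖ * dist a a' + ‖u‖ * dist b b' := by
    calc ‖u‖ = ‖u.1 • (a - a') + u.2 • (b - b')‖ := by rw [← h3]
      _ ≤ ‖u.1‖ * dist a a' + ‖u.2‖ * dist b b' := by
        rw [dist_eq_norm, dist_eq_norm, ← norm_smul, ← norm_smul]
        exact norm_add_le _ _
      _ ≤ _ := add_le_add (mul_le_mul_of_nonneg_right (norm_fst_le u) dist_nonneg)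
        (mul_le_mul_of_nonneg_right (norm_snd_le u) dist_nonneg)
  have h5 := norm_pos_iff.2 hu
  linarith [mul_lt_mul_of_pos_left ha h5, mul_lt_mul_of_pos_left hb h5]

theorem det_comb {r a b : E} (ha : det2 r a = 0) (hb : det2 r b = 0) (u : E) :
    det2 r (u.1 • a + u.2 • b) = 0 := by
  rw [det2_add_right, det2_smul_right, det2_smul_right, ha, hb, mul_zero, mul_zero, add_zero]

theorem transport {K : Set F} (hK : CK K) {z₀ : F} (h0 : z₀ ∈ K) (g : F → ℙ ℂ E) {a b : F → E}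
    (ha : AnalyticOnNhd ℂ a K) (hb : AnalyticOnNhd ℂ b K)
    (h : ∀ᶠ z in 𝓝ˢ K, det2 (g z).rep (a z) = 0 ∧ det2 (g z).rep (b z) = 0 ∧
      (g z).rep.1 • a z + (g z).rep.2 • b z = (g z).rep) :
    ∃ v : F → E, AnalyticOnNhd ℂ v K ∧ ∀ᶠ z in 𝓝ˢ K, Ln (g z) (v z) := by
  have hK' := h.self_of_nhdsSet
  obtain ⟨δ₁, hδ₁, h1⟩ := Metric.uniformContinuousOn_iff.1
    (hK.cpt.uniformContinuousOn_of_continuous ha.continuousOn) (1 / 2) (by norm_num)
  obtain ⟨δ₂, hδ₂, h2⟩ := Metric.uniformContinuousOn_iff.1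
    (hK.cpt.uniformContinuousOn_of_continuous hb.continuousOn) (1 / 2) (by norm_num)
  obtain ⟨R, hR⟩ := hK.cpt.exists_bound_of_continuousOn (f := fun z => z - z₀)
    (continuous_id.sub continuous_const).continuousOn
  have hδ := lt_min hδ₁ hδ₂
  obtain ⟨N, hN⟩ := exists_nat_gt (R / min δ₁ δ₂)
  have hd : ∀ z ∈ K, ∀ m, dist (seg z₀ (N + 1) m z) (seg z₀ (N + 1) (m + 1) z) < min δ₁ δ₂ := by
    intro z hz m
    rw [seg_dist, div_lt_iff₀ (by positivity), Nat.cast_succ]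
    rw [div_lt_iff₀ hδ] at hN
    linarith [hR z hz]
  have key : ∀ z ∈ K, ∀ m ≤ N + 1, AnalyticAt ℂ (tr a b z₀ (g z₀).rep (N + 1) m) z ∧
      tr a b z₀ (g z₀).rep (N + 1) m z ≠ 0 ∧
      det2 (g (seg z₀ (N + 1) m z)).rep (tr a b z₀ (g z₀).rep (N + 1) m z) = 0 := by
    intro z hz m
    induction m with
    | zero =>
      intro _
      rw [seg_zero]
      exact ⟨analyticAt_const, (g z₀).rep_nonzero, det2_self _⟩
    | succ m ih =>
      intro hm
      obtain ⟨i1, i2, i3⟩ := ih (by omega)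
      have m1 := seg_mem hK h0 hz (show m ≤ N + 1 by omega)
      have m2 := seg_mem hK h0 hz hm
      refine ⟨?_, ?_, det_comb (hK' _ m2).1 (hK' _ m2).2.1 _⟩
      · exact ((analyticAt_fst.comp i1).smul ((ha _ m2).comp (seg_an _ _ _ _))).add
          ((analyticAt_snd.comp i1).smul ((hb _ m2).comp (seg_an _ _ _ _)))
      · exact step_ne (g _).rep_nonzero i2 i3 (hK' _ m1).2.2
          (h1 _ m1 _ m2 ((hd z hz m).trans_le (min_le_left _ _)))
          (h2 _ m1 _ m2 ((hd z hz m).trans_le (min_le_right _ _)))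
  refine ⟨tr a b z₀ (g z₀).rep (N + 1) (N + 1), fun z hz => (key z hz _ le_rfl).1, ?_⟩
  have h3 : ∀ᶠ z in 𝓝ˢ K, tr a b z₀ (g z₀).rep (N + 1) (N + 1) z ≠ 0 :=
    eventually_nhdsSet_iff_forall.2 fun z hz =>
      (key z hz _ le_rfl).1.continuousAt.eventually_ne (key z hz _ le_rfl).2.1
  filter_upwards [h, h3] with z hz hz'
  refine (ln_rep _).of_det hz' ?_
  have e : tr a b z₀ (g z₀).rep (N + 1) (N + 1) z = (tr a b z₀ (g z₀).rep (N + 1) N z).1 • a z +
      (tr a b z₀ (g z₀).rep (N + 1) N z).2 • b z := by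
    rw [tr]
    beta_reduce
    rw [seg_last]
  rw [e]
  exact det_comb hz.1 hz.2.1 _

end LiftX

theorem lift_pf (hB : BezS) (hP : PeakS) : LiftS := by
  intro F _ _ _ K g hK hg
  rcases K.eq_empty_or_nonempty with rfl | ⟨z₀, h0⟩
  · exact ⟨fun _ => 0, fun z hz => hz.elim, by simp⟩
  choose! s hs1 hs2 hs3 using hP F K g hK hg
  obtain ⟨t, ht1, ht2⟩ := hK.cpt.elim_nhds_subcover (fun x => {z | s x z ≠ 0})
    fun x hx => (hs1 x hx x hx).continuousAt.eventually_ne (hs2 x hx)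
  obtain ⟨c, hc1, hc2⟩ := hB F K (t × Bool)
    (fun j z => if j.2 then (s j.1 z).1 else (s j.1 z).2) hK
    (fun j z hz => by
      have h1 := hs1 j.1 (ht1 _ j.1.2) z hz
      split_ifs
      · exact analyticAt_fst.comp h1
      · exact analyticAt_snd.comp h1)
    (fun z hz => by
      obtain ⟨x, hx, h1⟩ := mem_iUnion₂.1 (ht2 hz)
      rcases ne_zero_iff.1 h1 with h2 | h2
      · exact ⟨(⟨x, hx⟩, true), h2⟩
      · exact ⟨(⟨x, hx⟩, false), h2⟩)
  refine LiftX.transport hK h0 g (a := fun z => ∑ k : t, c (k, true) z • s k z)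
    (b := fun z => ∑ k : t, c (k, false) z • s k z) (fun z hz => ?_) (fun z hz => ?_) ?_
  · exact Finset.analyticAt_fun_sum _ fun k _ => (hc1 _ z hz).smul (hs1 k (ht1 _ k.2) z hz)
  · exact Finset.analyticAt_fun_sum _ fun k _ => (hc1 _ z hz).smul (hs1 k (ht1 _ k.2) z hz)
  have h4 : ∀ᶠ z in 𝓝ˢ K, ∀ k : t, det2 (g z).rep (s k z) = 0 :=
    eventually_all.2 fun k => hs3 k (ht1 _ k.2)
  filter_upwards [hc2, h4] with z h5 h6
  choose e he using fun k => exists_smul_of_det2 (g z).rep_nonzero (h6 k)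
  rw [Fintype.sum_prod_type] at h5
  simp only [Fintype.sum_bool, if_true, Bool.false_eq_true, if_false, he, Prod.smul_fst,
    Prod.smul_snd, smul_eq_mul] at h5
  simp only [he, smul_smul, ← Finset.sum_smul, det2_smul_right, det2_self, mul_zero, true_and,
    ← add_smul]
  have h7 : (g z).rep.1 * ∑ k : t, c (k, true) z * e k +
      (g z).rep.2 * ∑ k : t, c (k, false) z * e k = 1 := by
    rw [← h5, Finset.mul_sum, Finset.mul_sum, ← Finset.sum_add_distrib]
    exact Finset.sum_congr rfl fun k _ => by ring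
  rw [h7, one_smul]

end Vale.Agent.P290
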