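import Vale.Agent.P290.Stm

set_option linter.unusedSectionVars false

open Set Filter Topology Metric MeasureTheory
open scoped Manifold ContDiff LinearAlgebra.Projectivization

noncomputable section
namespace Vale.Agent.P290

variable {X : Type*} [MetricSpace X] [ChartedSpace E X] [IsManifold 𝓘(ℂ, E) ω X]

namespace LimX

variable {F : Type} [NormedAddCommGroup F] [NormedSpace ℂ F] [FiniteDimensional ℂ F]

theorem an_lim [CompactSpace X] {g : ℕ → F → X} {G : F → X} {z₀ : F} {r : ℝ} (hr : 0 < r)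
    (ha : ∀ᶠ n in atTop, ∀ z ∈ ball z₀ r, An (g n) z)
    (hu : TendstoUniformlyOn g G atTop (ball z₀ r)) : An G z₀ := by
  have hc : ContinuousOn G (ball z₀ r) :=
    hu.continuousOn (ha.mono fun n hn z hz => (hn z hz).cont.continuousWithinAt).frequently
  have hc0 : ContinuousAt G z₀ := hc.continuousAt (ball_mem_nhds z₀ hr)
  have hz := mem_chart_source E (G z₀)
  obtain ⟨δ, hδ, hs⟩ := nhds_basis_closedBall.mem_iff.1 ((ch (G z₀)).open_source.mem_nhds hz)
  have hC : IsCompact (closedBall (G z₀) δ) := isClosed_closedBall.isCompact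
  obtain ⟨M, hM⟩ := hC.exists_bound_of_continuousOn ((ch (G z₀)).continuousOn.mono hs)
  obtain ⟨ρ, hρ, hb⟩ := nhds_basis_ball.mem_iff.1
    (inter_mem (ball_mem_nhds z₀ hr) (hc0.preimage_mem_nhds (ball_mem_nhds _ (half_pos hδ))))
  have hev : ∀ᶠ n in atTop, ∀ z ∈ ball z₀ ρ, g n z ∈ closedBall (G z₀) δ := by
    filter_upwards [Metric.tendstoUniformlyOn_iff.1 hu _ (half_pos hδ)] with n hn z hz
    have h1 := hn z (hb hz).1
    have h2 : dist (G z) (G z₀) < δ / 2 := (hb hz).2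
    have h3 := dist_triangle (g n z) (G z) (G z₀)
    rw [dist_comm] at h1
    exact mem_closedBall.2 (by linarith)
  have hw := P274.weierstrass (l := atTop) (f := fun n y => ch (G z₀) (g n y))
    (g := fun y => ch (G z₀) (G y)) (V := ball z₀ ρ) isOpen_ball ?_ ?_
  · exact an_of_chart hc0 hz
      (P274.analyticOnNhd_of_differentiableOn isOpen_ball hw.1 z₀ (mem_ball_self hρ))
  · intro x hx
    obtain ⟨t, ht, hsub⟩ := Metric.isOpen_iff.1 isOpen_ball x hx
    refine ⟨t, ht, M, ?_⟩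
    filter_upwards [ha, hev] with n h1 h2
    refine ⟨fun y hy => ?_, fun y hy => hM _ (h2 y (hsub hy))⟩
    exact ((anX_ch (G z₀) (hs (h2 y (hsub hy)))).comp
      (h1 y (hb (hsub hy)).1)).differentiableAt.differentiableWithinAt
  · intro x hx
    have h1 : G x ∈ (ch (G z₀)).source :=
      hs (ball_subset_closedBall (ball_subset_ball (half_le_self hδ.le) (hb hx).2))
    exact ((ch (G z₀)).continuousAt h1).tendsto.comp (hu.tendsto_at (hb hx).1)

theorem geo [CompactSpace X] {u : ℕ → X} {ε : ℝ} {m : ℕ}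
    (h : ∀ k, m ≤ k → dist (u (k + 1)) (u k) ≤ ε / 2 ^ (k + 2)) :
    ∃ a, Tendsto u atTop (𝓝 a) ∧ dist (u m) a ≤ ε / 2 ^ (m + 1) := by
  have h1 : ∀ k, dist (u (k + m)) (u (k + 1 + m)) ≤ ε / 2 ^ (m + 1) / 2 / 2 ^ k := fun k => by
    have := h (k + m) (Nat.le_add_left m k)
    rw [dist_comm, show k + 1 + m = k + m + 1 by ring]
    refine this.trans (le_of_eq ?_)
    rw [div_div, div_div]
    congr 1
    ring
  have h2 : CauchySeq fun k => u (k + m) := cauchySeq_of_le_geometric_two h1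
  obtain ⟨a, ha⟩ := cauchySeq_tendsto_of_complete h2
  refine ⟨a, (tendsto_add_atTop_iff_nat m).1 ha, ?_⟩
  have := dist_le_of_le_geometric_two_of_tendsto₀ h1 ha
  rwa [Nat.zero_add] at this

end LimX

theorem lim_pf [CompactSpace X] (hH : HomS X) : LimS X := by
  intro F _ _ _ K f hK hf ε hε
  obtain ⟨R, hR⟩ := hK.cpt.isBounded.subset_closedBall (0 : F)
  let B : ℕ → Set F := fun n => closedBall 0 (R + n)
  have hB : ∀ {m n : ℕ}, m ≤ n → B m ⊆ B n := fun h =>
    closedBall_subset_closedBall (add_le_add le_rfl (Nat.cast_le.2 h))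
  have hKB : K ⊆ B 0 := hR.trans (closedBall_subset_closedBall (by simp))
  obtain ⟨g₀, h0, h0'⟩ := hH F K (B 0) f hK (ck_closedBall _ _) hKB hf _ (half_pos hε)
  have step : ∀ (n : ℕ) (g : {g : F → X // ∀ z ∈ B n, An g z}),
      ∃ g' : {g : F → X // ∀ z ∈ B (n + 1), An g z},
        ∀ z ∈ B n, dist (g'.1 z) (g.1 z) < ε / 2 ^ (n + 2) := fun n g => by
    obtain ⟨G, h1, h2⟩ := hH F (B n) (B (n + 1)) g.1 (ck_closedBall _ _) (ck_closedBall _ _)
      (hB (Nat.le_succ n)) g.2 (ε / 2 ^ (n + 2)) (by positivity)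
    exact ⟨⟨G, h1⟩, h2⟩
  choose st hst using step
  let s : ∀ n, {g : F → X // ∀ z ∈ B n, An g z} := fun n =>
    Nat.rec ⟨g₀, h0⟩ (fun n g => st n g) n
  have hs : ∀ n, ∀ z ∈ B n, dist ((s (n + 1)).1 z) ((s n).1 z) < ε / 2 ^ (n + 2) :=
    fun n => hst n (s n)
  have key : ∀ m, ∀ z ∈ B m, ∃ a, Tendsto (fun k => (s k).1 z) atTop (𝓝 a) ∧
      dist ((s m).1 z) a ≤ ε / 2 ^ (m + 1) := fun m z hz =>
    LimX.geo (u := fun k => (s k).1 z) fun k hk => (hs k z (hB hk hz)).le
  have hin : ∀ z : F, ∃ m, ball z 1 ⊆ B m := fun z => by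
    obtain ⟨m, hm⟩ := exists_nat_ge (‖z‖ + 1 - R)
    refine ⟨m, fun y hy => mem_closedBall_zero_iff.2 ?_⟩
    have h1 := norm_sub_norm_le y z
    rw [mem_ball_iff_norm] at hy
    linarith
  have hex : ∀ z : F, ∃ a, Tendsto (fun k => (s k).1 z) atTop (𝓝 a) := fun z => by
    obtain ⟨m, hm⟩ := hin z
    obtain ⟨a, ha, -⟩ := key m z (hm (mem_ball_self one_pos))
    exact ⟨a, ha⟩
  choose G hG using hex
  have hd : ∀ m, ∀ z ∈ B m, dist ((s m).1 z) (G z) ≤ ε / 2 ^ (m + 1) := fun m z hz => by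
    obtain ⟨a, ha, h⟩ := key m z hz
    rwa [tendsto_nhds_unique (hG z) ha]
  refine ⟨G, fun z _ => ?_, fun z hz => ?_⟩
  · obtain ⟨m, hm⟩ := hin z
    refine LimX.an_lim (g := fun k => (s k).1) one_pos ?_ ?_
    · filter_upwards [eventually_ge_atTop m] with n hn y hy
      exact (s n).2 y (hB hn (hm hy))
    · refine Metric.tendstoUniformlyOn_iff.2 fun η hη => ?_
      have ht : Tendsto (fun n : ℕ => ε / 2 ^ (n + 1)) atTop (𝓝 0) :=
        tendsto_const_nhds.div_atTop ((tendsto_pow_atTop_atTop_of_one_lt one_lt_two).comp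
          (tendsto_add_atTop_nat 1))
      filter_upwards [eventually_ge_atTop m, ht.eventually (gt_mem_nhds hη)] with n hn h y hy
      rw [dist_comm]
      exact (hd n y (hB hn (hm hy))).trans_lt h
  · have h1 := hd 0 z (hKB hz)
    have h2 : dist ((s 0).1 z) (f z) < ε / 2 := h0' z hz
    have h3 := dist_triangle (G z) ((s 0).1 z) (f z)
    rw [dist_comm, zero_add, pow_one] at h1
    linarith

end Vale.Agent.P290
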