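import Vale.Agent.P290.Stm

set_option linter.unusedSectionVars false

open Set Filter Topology Metric MeasureTheory
open scoped Manifold ContDiff LinearAlgebra.Projectivization

noncomputable section
namespace Vale.Agent.P290

namespace NormX

theorem wronski {f g : ℂ → ℂ} {a : ℂ} (h0 : f a ≠ 0)
    (h : ∀ᶠ b in 𝓝 a, DifferentiableAt ℂ f b ∧ DifferentiableAt ℂ g b ∧
      f b * deriv g b - g b * deriv f b = 0) : ∀ᶠ b in 𝓝 a, f a * g b - g a * f b = 0 := by
  obtain ⟨ρ, hρ, hb⟩ := Metric.eventually_nhds_iff_ball.1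
    (h.and (h.self_of_nhds.1.continuousAt.eventually_ne h0))
  filter_upwards [ball_mem_nhds a hρ] with b hbb
  have h1 := isOpen_ball.is_const_of_deriv_eq_zero (convex_ball a ρ).isPreconnected
    (f := fun z => g z / f z)
    (fun z hz => ((hb z hz).1.2.1.fun_div (hb z hz).1.1 (hb z hz).2).differentiableWithinAt)
    (fun z hz => by
      rw [deriv_fun_div (hb z hz).1.2.1 (hb z hz).1.1 (hb z hz).2, Pi.zero_apply,
        div_eq_zero_iff]
      left
      linear_combination (hb z hz).1.2.2) hbb (mem_ball_self hρ)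
  rw [div_eq_div_iff (hb b hbb).2 h0] at h1
  linear_combination h1

end NormX

open NormX

theorem norm_pf (hB : BezS) (hL : LiftS) : NormS := by
  intro F _ _ _ K g v hK hg hv hl
  obtain ⟨c, hc, hc1⟩ := hB F K Bool (fun j z => if j then (v z).1 else (v z).2) hK
    (fun j z hz => by
      cases j
      · exact analyticAt_snd.comp (hv z hz)
      · exact analyticAt_fst.comp (hv z hz))
    (fun z hz => by
      rcases ne_zero_iff.1 (hl z hz).ne with h | h
      · exact ⟨true, h⟩
      · exact ⟨false, h⟩)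
  simp only [Fintype.sum_bool, if_true, Bool.false_eq_true, if_false] at hc1
  obtain ⟨V, hV, hVl⟩ := hL F K g hK hg
  have hμ : AnalyticOnNhd ℂ (fun z => c true z * (V z).1 + c false z * (V z).2) K := fun z hz =>
    ((hc true z hz).mul (analyticAt_fst.comp (hV z hz))).add
      ((hc false z hz).mul (analyticAt_snd.comp (hV z hz)))
  have hk : ∀ z k, c true z * (v z).1 + c false z * (v z).2 = 1 → V z = k • v z →
      c true z * (V z).1 + c false z * (V z).2 = k := by
    intro z k h1 h2
    rw [h2, Prod.smul_fst, Prod.smul_snd, smul_eq_mul, smul_eq_mul]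
    linear_combination k * h1
  have hne : ∀ z ∈ K, c true z * (V z).1 + c false z * (V z).2 ≠ 0 := by
    intro z hz
    obtain ⟨k, hk0, e⟩ := (hl z hz).exists_smul (hVl.self_of_nhdsSet z hz)
    rwa [hk z k (hc1.self_of_nhdsSet z hz) e]
  have hev : ∀ᶠ z in 𝓝ˢ K, c true z * (V z).1 + c false z * (V z).2 ≠ 0 :=
    eventually_nhdsSet_iff_forall.2 fun z hz => (hμ z hz).continuousAt.eventually_ne (hne z hz)
  refine ⟨fun z => (c true z * (V z).1 + c false z * (V z).2)⁻¹ • V z,
    fun z hz => ((hμ z hz).inv (hne z hz)).smul (hV z hz), ?_⟩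
  filter_upwards [hc1, hVl, hev] with z h1 h2 h3
  refine ⟨h2.smul (inv_ne_zero h3), fun h4 => ?_⟩
  obtain ⟨k, hk0, e⟩ := h4.exists_smul h2
  rw [hk z k h1 e, e, smul_smul, inv_mul_cancel₀ hk0, one_smul]

theorem cst_pf : CstS := by
  intro c hc hm a
  refine IsLocallyConstant.apply_eq_of_preconnectedSpace
    ((IsLocallyConstant.iff_eventually_eq c).2 fun a => ?_) a 0
  obtain ⟨w, hw, hl⟩ := hc a
  have h1 : ∀ᶠ b in 𝓝 a, DifferentiableAt ℂ (fun z => (w z).1) b ∧
      DifferentiableAt ℂ (fun z => (w z).2) b ∧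
      (w b).1 * deriv (fun z => (w z).2) b - (w b).2 * deriv (fun z => (w z).1) b = 0 := by
    filter_upwards [hw.eventually_analyticAt, hl.eventually_nhds] with b hb hbl
    have hd := hb.differentiableAt.hasDerivAt
    refine ⟨hb.differentiableAt.fst, hb.differentiableAt.snd, ?_⟩
    have d1 : HasDerivAt (fun z => (w z).1) (deriv w b).1 b :=
      (ContinuousLinearMap.fst ℂ ℂ ℂ).hasFDerivAt.comp_hasDerivAt b hd
    have d2 : HasDerivAt (fun z => (w z).2) (deriv w b).2 b :=
      (ContinuousLinearMap.snd ℂ ℂ ℂ).hasFDerivAt.comp_hasDerivAt b hd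
    rw [d1.deriv, d2.deriv]
    by_contra hne
    have ht : Tendsto (fun τ : ℂ => b + τ) (𝓝 0) (𝓝 b) :=
      (continuous_const_add b).tendsto' 0 b (add_zero b)
    refine hm b ⟨fun τ => w (b + τ), ?_, ht.eventually hbl, ?_⟩
    · exact AnalyticAt.comp (f := fun τ : ℂ => b + τ) (by rwa [add_zero]) (by fun_prop)
    · rw [deriv_comp_const_add]
      simp only [add_zero]
      exact hne
  have h2 : ∀ᶠ b in 𝓝 a, det2 (w a) (w b) = 0 := by
    rcases ne_zero_iff.1 hl.self_of_nhds.ne with h | h
    · exact wronski (f := fun z => (w z).1) (g := fun z => (w z).2) h h1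
    · filter_upwards [wronski (f := fun z => (w z).2) (g := fun z => (w z).1) h
        (h1.mono fun b hb => ⟨hb.2.1, hb.1, by linear_combination -hb.2.2⟩)] with b hb
      unfold det2
      linear_combination -hb
  filter_upwards [h2, hl] with b hb hbl
  exact hbl.eq (hl.self_of_nhds.of_det hbl.ne hb)

end Vale.Agent.P290
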