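import Vale.Agent.P290.Stm
import Vale.Agent.P271.GLevi

set_option linter.unusedSectionVars false

open Set Filter Topology Metric MeasureTheory
open scoped Manifold ContDiff LinearAlgebra.Projectivization

noncomputable section
namespace Vale.Agent.P290

namespace PeakX

theorem nsq_pos {v : E} (h : v ≠ 0) : 0 < nsq v := by
  unfold nsq
  rcases ne_zero_iff.1 h with h1 | h1
  · have := norm_pos_iff.2 h1
    positivity
  · have := norm_pos_iff.2 h1
    positivity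

theorem smooth_log {n : ℕ} {w : (Fin n → ℂ) → E} {z : Fin n → ℂ} (h : AnalyticAt ℂ w z)
    (h0 : w z ≠ 0) : ContDiffAt ℝ ∞ (fun y => Real.log (nsq (w y))) z := by
  have h1 := Fuj.contDiffAt_normSq (analyticAt_fst.comp h)
  have h2 := Fuj.contDiffAt_normSq (analyticAt_snd.comp h)
  exact (h1.add h2).log (nsq_pos h0).ne'

theorem loc {n : ℕ} {g : (Fin n → ℂ) → ℙ ℂ E} {y : Fin n → ℂ} (h : HolAt g y) :
    ∃ (w : (Fin n → ℂ) → E) (r C : ℝ), 0 < r ∧ 0 ≤ C ∧ ∀ z ∈ ball y r,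
      AnalyticAt ℂ w z ∧ Ln (g z) (w z) ∧
        ∀ ξ, Fuj.levi (fun y => Real.log (nsq (w y))) z ξ ≤ C * ‖ξ‖ ^ 2 := by
  obtain ⟨w, h1, h2⟩ := h
  obtain ⟨R, hR, H⟩ := Metric.eventually_nhds_iff_ball.1 (h1.eventually_analyticAt.and h2)
  obtain ⟨C, hC, HC⟩ := Fuj.levi_upper (ψ := fun y => Real.log (nsq (w y))) (U := ball y R)
    (Q := closedBall y (R / 2)) isOpen_ball
    (fun z hz => (smooth_log (H z hz).1 (H z hz).2.ne).contDiffWithinAt)
    (isCompact_closedBall y (R / 2)) (closedBall_subset_ball (by linarith))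
  refine ⟨w, R / 2, C, by linarith, hC, fun z hz => ?_⟩
  have hz' : z ∈ ball y R := ball_subset_ball (by linarith) hz
  exact ⟨(H z hz').1, (H z hz').2, HC z (ball_subset_closedBall hz)⟩

theorem fin (hE : ExhS) (hP : Peak0S) {n : ℕ} {K : Set (Fin n → ℂ)} {g : (Fin n → ℂ) → ℙ ℂ E}
    (hK : CK K) (hg : ∀ z ∈ K, HolAt g z) {z₀ : Fin n → ℂ} (hz : z₀ ∈ K) :
    ∃ s : (Fin n → ℂ) → E, AnalyticOnNhd ℂ s K ∧ s z₀ ≠ 0 ∧
      ∀ᶠ z in 𝓝ˢ K, det2 (g z).rep (s z) = 0 := by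
  have hU : IsOpen {z | HolAt g z} := isOpen_iff_mem_nhds.2 fun z hz => HolAt.eventually hz
  obtain ⟨W, u, C₀, hx, hKW, hc, hWU⟩ := hE n K _ hK hU hg
  choose! w r C hr hC H using fun y (hy : y ∈ closure W) => loc (hWU hy)
  obtain ⟨t, ht, hcov⟩ := hc.elim_nhds_subcover (fun y => ball y (r y))
    (fun y hy => ball_mem_nhds y (hr y hy))
  have hcov' : ∀ z ∈ W, ∃ i : t, z ∈ ball (i : Fin n → ℂ) (r i) ∩ W := fun z hzW => by
    obtain ⟨y, hy, hzy⟩ := mem_iUnion₂.1 (hcov (subset_closure hzW))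
    exact ⟨⟨y, hy⟩, hzy, hzW⟩
  obtain ⟨s, hs, hd, h0⟩ := hP n W u C₀ hx t (fun i => ball (i : Fin n → ℂ) (r i) ∩ W)
    (fun i => w i) (∑ j : t, C j)
    (fun i => ⟨isOpen_ball.inter hx.op, inter_subset_right,
      fun z hz => (H i (ht i i.2) z hz.1).1, fun z hz => (H i (ht i i.2) z hz.1).2.1.ne⟩)
    hcov'
    (fun i j z hi hj => (H i (ht i i.2) z hi.1).2.1.det (H j (ht j j.2) z hj.1).2.1)
    (fun i z hi ξ => ((H i (ht i i.2) z hi.1).2.2 ξ).trans
      (mul_le_mul_of_nonneg_right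
        (Finset.single_le_sum (f := fun j : t => C j) (fun j _ => hC j (ht j j.2))
          (Finset.mem_univ i)) (sq_nonneg _)))
    z₀ (hKW hz)
  refine ⟨s, fun z hz => hs z (hKW hz), h0, ?_⟩
  filter_upwards [hx.op.mem_nhdsSet.2 hKW] with z hzW
  obtain ⟨i, hi⟩ := hcov' z hzW
  obtain ⟨c, -, hc⟩ := (H i (ht i i.2) z hi.1).2.1.exists_smul (ln_rep (g z))
  rw [hc, det2_smul_left, hd i z hi, mul_zero]

end PeakX

theorem peak_pf (hE : ExhS) (hP : Peak0S) : PeakS := by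
  intro F _ _ _ K g hK hg z₀ hz
  obtain ⟨n, ⟨L⟩⟩ : ∃ n : ℕ, Nonempty (F ≃L[ℂ] (Fin n → ℂ)) :=
    ⟨_, ⟨(Module.finBasis ℂ F).equivFunL⟩⟩
  have hK' : CK (L '' K) := hK.image L.toContinuousLinearMap
  have hg' : ∀ z ∈ L '' K, HolAt (fun y => g (L.symm y)) z := by
    rintro _ ⟨x, hx, rfl⟩
    obtain ⟨w, h1, h2⟩ := hg x hx
    have e : L.symm (L x) = x := L.symm_apply_apply x
    refine ⟨fun y => w (L.symm y), ?_, ?_⟩
    · exact AnalyticAt.comp (f := L.symm) (by rw [e]; exact h1) (L.symm.analyticAt _)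
    · have : Tendsto L.symm (𝓝 (L x)) (𝓝 x) := by
        have := L.symm.continuous.tendsto (L x)
        rwa [e] at this
      exact this.eventually h2
  obtain ⟨s, h1, h2, h3⟩ := PeakX.fin hE hP hK' hg' (mem_image_of_mem _ hz)
  refine ⟨fun z => s (L z), fun z hz => ?_, h2, ?_⟩
  · exact AnalyticAt.comp (f := L) (h1 _ (mem_image_of_mem _ hz)) (L.analyticAt _)
  · have : Tendsto L (𝓝ˢ K) (𝓝ˢ (L '' K)) :=
      L.continuous.tendsto_nhdsSet (mapsTo_image _ _)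
    filter_upwards [this.eventually h3] with z hz
    rwa [L.symm_apply_apply] at hz

end Vale.Agent.P290
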