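import Vale.Agent.P290.Stm
import Vale.Agent.P271.HCalc2
import Vale.Agent.P271.HMV

set_option linter.unusedSectionVars false

open Set Filter Topology Metric MeasureTheory
open scoped Manifold ContDiff LinearAlgebra.Projectivization

noncomputable section
namespace Vale.Agent.P290

namespace Peak0X

variable {n : ℕ}

/-- squared Euclidean distance -/
def qq (z₀ z : Fin n → ℂ) : ℝ := ∑ j, ‖z j - z₀ j‖ ^ 2

theorem sq_le_sum (ξ : Fin n → ℂ) : ‖ξ‖ ^ 2 ≤ ∑ j, ‖ξ j‖ ^ 2 := by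
  have h0 : 0 ≤ ∑ j, ‖ξ j‖ ^ 2 := Finset.sum_nonneg fun _ _ => sq_nonneg _
  have h1 : ‖ξ‖ ≤ √(∑ j, ‖ξ j‖ ^ 2) :=
    (pi_norm_le_iff_of_nonneg (Real.sqrt_nonneg _)).2 fun j => Real.le_sqrt_of_sq_le
      (Finset.single_le_sum (f := fun j => ‖ξ j‖ ^ 2) (fun _ _ => sq_nonneg _) (Finset.mem_univ j))
  exact (pow_le_pow_left₀ (norm_nonneg _) h1 2).trans (Real.sq_sqrt h0).le

theorem sum_le_sq (ξ : Fin n → ℂ) : ∑ j, ‖ξ j‖ ^ 2 ≤ n * ‖ξ‖ ^ 2 := by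
  have h := Finset.sum_le_card_nsmul Finset.univ (fun j => ‖ξ j‖ ^ 2) (‖ξ‖ ^ 2) fun j _ =>
    pow_le_pow_left₀ (norm_nonneg _) (norm_le_pi_norm ξ j) 2
  rwa [Finset.card_univ, Fintype.card_fin, nsmul_eq_mul] at h

theorem hd_coord (z₀ z : Fin n → ℂ) (j : Fin n) :
    HasFDerivAt (fun y : Fin n → ℂ => y j - z₀ j)
      (ContinuousLinearMap.proj (R := ℂ) (φ := fun _ : Fin n => ℂ) j) z :=
  (hasFDerivAt_apply j z).sub_const _

theorem cd_coord (z₀ : Fin n → ℂ) (j : Fin n) :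
    ContDiff ℝ ∞ fun y : Fin n → ℂ => ‖y j - z₀ j‖ ^ 2 :=
  ((contDiff_apply ℝ ℂ j).sub contDiff_const).norm_sq ℂ

theorem cd_qq (z₀ : Fin n → ℂ) : ContDiff ℝ ∞ (qq z₀) := ContDiff.sum fun j _ => cd_coord z₀ j

theorem two_le : (2 : WithTop ℕ∞) ≤ ∞ := WithTop.coe_le_coe.2 (le_top : (2 : ℕ∞) ≤ ⊤)

theorem levi_qq (z₀ z ξ : Fin n → ℂ) : Fuj.levi (qq z₀) z ξ = ∑ j, ‖ξ j‖ ^ 2 := by
  refine (Fuj.levi_sum Finset.univ (f := fun j (y : Fin n → ℂ) => ‖y j - z₀ j‖ ^ 2)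
    (fun j _ => ((cd_coord z₀ j).of_le two_le).contDiffAt) ξ).trans
    (Finset.sum_congr rfl fun j _ => ?_)
  rw [Fuj.levi_normSq (f := fun y : Fin n → ℂ => y j - z₀ j)
    (Eventually.of_forall fun y => (hd_coord z₀ y j).differentiableAt), (hd_coord z₀ z j).fderiv]
  rfl

theorem nsq_nonneg (v : E) : 0 ≤ nsq v := add_nonneg (sq_nonneg _) (sq_nonneg _)

theorem nsq_pos {v : E} (h : v ≠ 0) : 0 < nsq v := by
  unfold nsq
  rcases ne_zero_iff.1 h with h1 | h1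
  · have := norm_pos_iff.2 h1
    positivity
  · have := norm_pos_iff.2 h1
    positivity

theorem cd_log {w : (Fin n → ℂ) → E} {z : Fin n → ℂ} (h : AnalyticAt ℂ w z) (h0 : w z ≠ 0) :
    ContDiffAt ℝ 2 (fun y => Real.log (nsq (w y))) z := by
  have h1 := Fuj.c2_cd (f := fun y => (w y).1) (z := z)
    ((analyticAt_fst.comp h).eventually_analyticAt.mono fun y hy => hy.differentiableAt)
  have h2 := Fuj.c2_cd (f := fun y => (w y).2) (z := z)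
    ((analyticAt_snd.comp h).eventually_analyticAt.mono fun y hy => hy.differentiableAt)
  exact (h1.add h2).log (nsq_pos h0).ne'

theorem levi_ge {w : (Fin n → ℂ) → E} {z : Fin n → ℂ} (h : AnalyticAt ℂ w z) (h0 : w z ≠ 0)
    {C N : ℝ} (hN : |C| + 1 ≤ N) (z₀ ξ : Fin n → ℂ)
    (hC : Fuj.levi (fun y => Real.log (nsq (w y))) z ξ ≤ C * ‖ξ‖ ^ 2) :
    ‖ξ‖ ^ 2 ≤ Fuj.levi (fun y => N * qq z₀ y - Real.log (nsq (w y))) z ξ := by
  have c1 : ContDiffAt ℝ 2 (qq z₀) z := ((cd_qq z₀).of_le two_le).contDiffAt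
  have c2 := cd_log h h0
  have e : (fun y => N * qq z₀ y - Real.log (nsq (w y))) =
      fun y => N * qq z₀ y + -1 * Real.log (nsq (w y)) := funext fun y => by ring
  rw [e, Fuj.levi_add (contDiffAt_const.mul c1) (contDiffAt_const.mul c2), Fuj.levi_const_mul c1,
    Fuj.levi_const_mul c2, levi_qq]
  have h1 : N * ‖ξ‖ ^ 2 ≤ N * ∑ j, ‖ξ j‖ ^ 2 :=
    mul_le_mul_of_nonneg_left (sq_le_sum ξ) (by linarith [abs_nonneg C])
  have h2 : (C + 1) * ‖ξ‖ ^ 2 ≤ N * ‖ξ‖ ^ 2 :=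
    mul_le_mul_of_nonneg_right (by linarith [le_abs_self C]) (sq_nonneg _)
  linarith

/-- the cut-off function -/
theorem exists_cut (z₀ : Fin n → ℂ) {r : ℝ} (hr : 0 < r) :
    ∃ (χ : (Fin n → ℂ) → ℝ) (B : ℝ), 0 ≤ B ∧ Fuj.TestOn (closedBall z₀ (2 * r)) χ ∧
      (∀ z ∈ ball z₀ r, χ z = 1) ∧
      ∀ z ξ, ‖Fuj.db (fun y => (χ y : ℂ)) z ξ‖ ^ 2 ≤
        (closedBall z₀ (2 * r) \ ball z₀ r).indicator (fun _ => B) z * ‖ξ‖ ^ 2 := by
  let χ : ContDiffBump z₀ := ⟨r, 2 * r, hr, by linarith⟩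
  have hc : ContDiff ℝ 1 fun y => (χ y : ℂ) := Complex.ofRealCLM.contDiff.comp χ.contDiff
  obtain ⟨B, hB⟩ := (isCompact_closedBall z₀ (2 * r)).exists_bound_of_continuousOn
    (hc.continuous_fderiv one_ne_zero).continuousOn
  refine ⟨χ, B ^ 2, sq_nonneg _, ⟨χ.contDiff, χ.hasCompactSupport, χ.tsupport_eq.le⟩,
    fun z hz => χ.one_of_mem_closedBall (ball_subset_closedBall hz), fun z ξ => ?_⟩
  by_cases hz : z ∈ closedBall z₀ (2 * r) \ ball z₀ r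
  · rw [indicator_of_mem hz, ← mul_pow]
    exact pow_le_pow_left₀ (norm_nonneg _) ((Fuj.norm_db_le _ z ξ).trans
      (mul_le_mul_of_nonneg_right (hB z hz.1) (norm_nonneg _))) 2
  · rw [indicator_of_notMem hz, zero_mul]
    have h : ∃ c : ℝ, (χ : (Fin n → ℂ) → ℝ) =ᶠ[𝓝 z] fun _ => c := by
      by_cases h1 : z ∈ ball z₀ r
      · exact ⟨1, χ.eventuallyEq_one_of_mem_ball h1⟩
      · refine ⟨0, notMem_tsupport_iff_eventuallyEq.1 ?_⟩
        rw [χ.tsupport_eq]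
        exact fun h2 => hz ⟨h2, h1⟩
    obtain ⟨c, hc⟩ := h
    have e : (fun y => (χ y : ℂ)) =ᶠ[𝓝 z] fun _ => (c : ℂ) := hc.mono fun y hy => by
      beta_reduce at hy ⊢
      rw [hy]
    rw [Fuj.db_congr e, Fuj.db_const]
    simp

theorem exists_proj {v : E} (h : v ≠ 0) :
    ∃ π : E →L[ℂ] ℂ, π v ≠ 0 ∧ ∀ u, ‖π u‖ ^ 2 ≤ nsq u := by
  rcases ne_zero_iff.1 h with h1 | h1
  · exact ⟨ContinuousLinearMap.fst ℂ ℂ ℂ, h1, fun u => le_add_of_nonneg_right (sq_nonneg _)⟩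
  · exact ⟨ContinuousLinearMap.snd ℂ ℂ ℂ, h1, fun u => le_add_of_nonneg_left (sq_nonneg _)⟩

theorem qq_ge {z₀ z : Fin n → ℂ} {r : ℝ} (hr : 0 ≤ r) (hz : z ∉ ball z₀ r) : r ^ 2 ≤ qq z₀ z := by
  rw [mem_ball, dist_eq_norm, not_lt] at hz
  exact (pow_le_pow_left₀ hr hz 2).trans (sq_le_sum (z - z₀))

theorem qq_le {z₀ z : Fin n → ℂ} {r : ℝ} (hr : 0 < r) (hz : z ∈ ball z₀ (r / (n + 2))) :
    qq z₀ z ≤ r ^ 2 / 2 := by
  rw [mem_ball, dist_eq_norm] at hz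
  have hn : (0 : ℝ) ≤ n := Nat.cast_nonneg n
  have h1 : (n : ℝ) * ‖z - z₀‖ ^ 2 ≤ n * (r / (n + 2)) ^ 2 :=
    mul_le_mul_of_nonneg_left (pow_le_pow_left₀ (norm_nonneg _) hz.le 2) hn
  have h2 : (n : ℝ) * (r / (n + 2)) ^ 2 ≤ r ^ 2 / 2 := by
    rw [div_pow, ← mul_div_assoc, div_le_div_iff₀ (by positivity) (by norm_num)]
    have h3 : (n : ℝ) * 2 ≤ (n + 2) ^ 2 := by nlinarith
    have h4 := mul_le_mul_of_nonneg_left h3 (sq_nonneg r)
    linarith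
  exact (sum_le_sq (z - z₀)).trans (h1.trans h2)

end Peak0X

open Peak0X

theorem peak0_pf (hH : HorS) : Peak0S := by
  intro n W u C₀ hE ι _ V w C hV hcov hdet hC z₀ hz₀
  obtain ⟨i₀, hi₀⟩ := hcov z₀ hz₀
  obtain ⟨hVo, hVW, hwa, hw0⟩ := hV i₀
  obtain ⟨ε, hε, hεV⟩ := nhds_basis_closedBall.mem_iff.1 (hVo.mem_nhds hi₀)
  obtain ⟨r, hr, rfl⟩ : ∃ r : ℝ, 0 < r ∧ ε = 2 * r := ⟨ε / 2, by linarith, by ring⟩
  obtain ⟨χ, B, hB, hχ, hχ1, hdb⟩ := exists_cut z₀ hr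
  obtain ⟨π, hπ0, hπ⟩ := exists_proj (hw0 z₀ hi₀)
  have hcw : ContinuousOn (fun z => nsq (w i₀ z)) (closedBall z₀ (2 * r)) := by
    have h1 : Continuous nsq := by unfold nsq; fun_prop
    exact h1.comp_continuousOn (hwa.continuousOn.mono hεV)
  obtain ⟨M, hM⟩ := (isCompact_closedBall z₀ (2 * r)).exists_bound_of_continuousOn hcw
  have hM0 : 0 ≤ M := (norm_nonneg _).trans (hM z₀ (mem_closedBall_self (by linarith)))
  have hn : (0 : ℝ) ≤ n := Nat.cast_nonneg n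
  have hρ : 0 < r / (n + 2) := by positivity
  have hρr : r / (n + 2) ≤ r := div_le_self hr.le (by linarith)
  have hbr : ball z₀ (r / (n + 2)) ⊆ ball z₀ r := ball_subset_ball hρr
  have hbV : ball z₀ (r / (n + 2)) ⊆ V i₀ :=
    hbr.trans (ball_subset_closedBall.trans ((closedBall_subset_closedBall (by linarith)).trans hεV))
  have f1 : volume (ball (0 : Fin n → ℂ) (r / (n + 2))) ≠ ⊤ := measure_ball_lt_top.ne
  have f2 : volume (closedBall z₀ (2 * r)) ≠ ⊤ := measure_closedBall_lt_top.ne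
  obtain ⟨v₁, hv₁, e1⟩ : ∃ v : ℝ, 0 < v ∧
      volume (ball (0 : Fin n → ℂ) (r / (n + 2))) = ENNReal.ofReal v :=
    ⟨_, ENNReal.toReal_pos (measure_ball_pos _ _ hρ).ne' f1, (ENNReal.ofReal_toReal f1).symm⟩
  obtain ⟨v₂, hv₂, e2⟩ : ∃ v : ℝ, 0 ≤ v ∧ volume (closedBall z₀ (2 * r)) = ENNReal.ofReal v :=
    ⟨_, ENNReal.toReal_nonneg, (ENNReal.ofReal_toReal f2).symm⟩
  obtain ⟨a, ha, ea⟩ : ∃ a : ℝ, 0 < a ∧ ‖π (w i₀ z₀)‖ ^ 2 = a :=
    ⟨_, pow_pos (norm_pos_iff.2 hπ0) 2, rfl⟩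
  obtain ⟨N, hN1, hN2⟩ : ∃ N : ℝ, |C| + 1 ≤ N ∧ 2 * (2 * B * M * v₂ / (a * v₁)) / r ^ 2 ≤ N :=
    ⟨_, le_max_left _ _, le_max_right _ _⟩
  have hN0 : 0 ≤ N := by linarith [abs_nonneg C]
  have hS : MeasurableSet (closedBall z₀ (2 * r) \ ball z₀ r) :=
    measurableSet_closedBall.diff measurableSet_ball
  obtain ⟨s, hs, hsd, hint⟩ := hH n W u C₀ hE ι V w hV hcov hdet (fun y => N * qq z₀ y)
    (contDiff_const.mul (cd_qq z₀)).contDiffOn
    (fun i z hz ξ => levi_ge ((hV i).2.2.1 z hz) ((hV i).2.2.2 z hz) hN1 z₀ ξ (hC i z hz ξ))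
    i₀ χ _ ⟨hχ.1, hχ.2.1, hχ.2.2.trans hεV⟩ (measurable_const.indicator hS)
    (fun z => indicator_nonneg (fun _ _ => hB) z) hdb
  refine ⟨s, hs, hsd, fun hs0 => ?_⟩
  have hR : ∫⁻ z in V i₀, ENNReal.ofReal ((closedBall z₀ (2 * r) \ ball z₀ r).indicator
      (fun _ => B) z * nsq (w i₀ z) * Real.exp (-(N * qq z₀ z))) ≤
      ENNReal.ofReal (B * M * Real.exp (-(N * r ^ 2))) * volume (closedBall z₀ (2 * r)) := by
    rw [← lintegral_indicator_const measurableSet_closedBall]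
    refine (setLIntegral_le_lintegral _ _).trans (lintegral_mono fun z => ?_)
    by_cases hz : z ∈ closedBall z₀ (2 * r) \ ball z₀ r
    · rw [indicator_of_mem hz, indicator_of_mem hz.1]
      refine ENNReal.ofReal_le_ofReal (mul_le_mul (mul_le_mul_of_nonneg_left
        ((le_abs_self _).trans (hM z hz.1)) hB) (Real.exp_le_exp.2 (neg_le_neg
          (mul_le_mul_of_nonneg_left (qq_ge hr.le hz.2) hN0))) (Real.exp_pos _).le
        (mul_nonneg hB hM0))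
    · rw [indicator_of_notMem hz, zero_mul, zero_mul, ENNReal.ofReal_zero]
      exact zero_le
  have hF : DifferentiableOn ℂ (fun z => π (s z - w i₀ z)) (V i₀) :=
    π.differentiable.comp_differentiableOn ((hs.mono hVW).differentiableOn.sub hwa.differentiableOn)
  have hmv := Fuj.mv_ball (vol := volume) hVo hF hbV
  rw [hs0, zero_sub, map_neg, norm_neg, ea, e1] at hmv
  have hL : ENNReal.ofReal (Real.exp (-(N * (r ^ 2 / 2)))) *
      ∫⁻ z in ball z₀ (r / (n + 2)), ENNReal.ofReal (‖π (s z - w i₀ z)‖ ^ 2) ≤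
      ∫⁻ z in V i₀, ENNReal.ofReal (nsq (s z - (χ z : ℂ) • w i₀ z) *
        Real.exp (-(N * qq z₀ z))) := by
    rw [← lintegral_const_mul' _ _ ENNReal.ofReal_ne_top]
    refine le_trans (setLIntegral_mono' measurableSet_ball fun z hz => ?_)
      (lintegral_mono_set hbV)
    rw [← ENNReal.ofReal_mul (Real.exp_pos _).le, hχ1 z (hbr hz), Complex.ofReal_one, one_smul,
      mul_comm]
    exact ENNReal.ofReal_le_ofReal (mul_le_mul (hπ _) (Real.exp_le_exp.2 (neg_le_neg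
      (mul_le_mul_of_nonneg_left (qq_le hr hz) hN0))) (Real.exp_pos _).le (nsq_nonneg _))
  have hfin := ((mul_le_mul_right hmv _).trans hL).trans (hint.trans (mul_le_mul_right hR 2))
  rw [e2, ← ENNReal.ofReal_mul ha.le, ← ENNReal.ofReal_mul (Real.exp_pos _).le,
    ← ENNReal.ofReal_mul (by positivity), ← ENNReal.ofReal_ofNat 2,
    ← ENNReal.ofReal_mul (by norm_num), ENNReal.ofReal_le_ofReal_iff (by positivity)] at hfin
  have ex : Real.exp (-(N * (r ^ 2 / 2))) =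
      Real.exp (-(N * r ^ 2)) * Real.exp (N * (r ^ 2 / 2)) := by
    rw [← Real.exp_add]; congr 1; ring
  have h1 : Real.exp (N * (r ^ 2 / 2)) * (a * v₁) ≤ 2 * B * M * v₂ := by
    refine le_of_mul_le_mul_left ?_ (Real.exp_pos (-(N * r ^ 2)))
    rw [ex] at hfin
    linarith
  have h2 : 2 * B * M * v₂ / (a * v₁) ≤ N * (r ^ 2 / 2) := by
    rw [div_le_iff₀ (by positivity : 0 < r ^ 2)] at hN2
    linarith
  have h3 := Real.add_one_le_exp (N * (r ^ 2 / 2))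
  have h4 := (le_div_iff₀ (by positivity : 0 < a * v₁)).2 h1
  linarith

end Vale.Agent.P290
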