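import Vale.Agent.P290.Stm

set_option linter.unusedSectionVars false

open Set Filter Topology Metric MeasureTheory
open scoped Manifold ContDiff LinearAlgebra.Projectivization

noncomputable section
namespace Vale.Agent.P290

variable {X : Type*} [MetricSpace X] [ChartedSpace E X] [IsManifold 𝓘(ℂ, E) ω X]

namespace ProjX

variable {G : Type} [NormedAddCommGroup G] [NormedSpace ℂ G] [FiniteDimensional ℂ G]
  {J : Type} [Fintype J]

theorem expand (b : Module.Basis J ℂ G) (D : G →L[ℂ] E) (ξ : G) (w : E) :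
    det2 (D ξ) w = ∑ γ, b.repr ξ γ * det2 (D (b γ)) w := by
  conv_lhs => rw [← b.sum_repr ξ, map_sum]
  simp only [map_smul, det2, Prod.fst_sum, Prod.snd_sum, Prod.smul_fst, Prod.smul_snd,
    smul_eq_mul, Finset.sum_mul, ← Finset.sum_sub_distrib]
  exact Finset.sum_congr rfl fun γ _ => by ring

theorem expand' (b : Module.Basis J ℂ G) (D : G →L[ℂ] E) (ξ : G) (w : E) :
    det2 w (D ξ) = ∑ γ, b.repr ξ γ * det2 w (D (b γ)) := by
  rw [det2_swap, expand b, ← Finset.sum_neg_distrib]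
  exact Finset.sum_congr rfl fun γ _ => by rw [det2_swap w]; ring

/-- rank one operators -/
def rk (b : Module.Basis J ℂ G) (γ α : J) : G →L[ℂ] G :=
  (LinearMap.toContinuousLinearMap (b.coord γ)).smulRight (b α)

theorem rk_apply (b : Module.Basis J ℂ G) (γ α : J) (ξ : G) : rk b γ α ξ = b.repr ξ γ • b α := rfl

theorem q_apply (b : Module.Basis J ℂ G) (D : G →L[ℂ] E) (l : ℂ) (c : J × J → ℂ) (ξ : G) :
    (∑ j : J × J, ∑ γ, ((c j * (l * det2 (D (b γ)) (D (b j.2)))) • rk b γ j.1 +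
      (c j * (l * det2 (D (b j.1)) (D (b γ)))) • rk b γ j.2)) ξ =
    ∑ j : J × J, (c j * l) • (det2 (D ξ) (D (b j.2)) • b j.1 + det2 (D (b j.1)) (D ξ) • b j.2) := by
  rw [_root_.sum_apply]
  refine Finset.sum_congr rfl fun j _ => ?_
  rw [_root_.sum_apply, expand b D ξ, expand' b D ξ, Finset.sum_smul, Finset.sum_smul,
    ← Finset.sum_add_distrib, Finset.smul_sum]
  refine Finset.sum_congr rfl fun γ _ => ?_
  rw [add_apply, smul_apply, smul_apply, rk_apply, rk_apply]
  module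

end ProjX

theorem proj_pf {lam : X → ℂ} (hF : Form lam) (hP : PullS X) (hB : BezS) : ProjS X := by
  intro F G _ _ _ _ _ _ K S hK hS hd
  obtain ⟨b, -⟩ : ∃ b, b = Module.finBasis ℂ G := ⟨_, rfl⟩
  obtain ⟨D, hD⟩ : ∃ D : F → G →L[ℂ] E, ∀ z ξ, D z ξ = Dv S (z, 0) (0, ξ) :=
    ⟨fun z => (Dv S (z, 0)).comp (ContinuousLinearMap.inr ℂ F G), fun _ _ => rfl⟩
  simp only [← hD] at hd ⊢
  have a1 : ∀ α β : G, AnalyticOnNhd ℂ (fun z => lam (S (z, 0)) * det2 (D z α) (D z β)) K :=
    fun α β z hz => by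
      simp only [hD]
      exact AnalyticAt.comp (f := fun z : F => ((z, 0) : F × G))
        (hP lam hF (F × G) S (z, 0) (0, α) (0, β) (hS z hz)) (analyticAt_id.prod analyticAt_const)
  obtain ⟨c, hc, h1⟩ := hB F K (Fin (Module.finrank ℂ G) × Fin (Module.finrank ℂ G))
    (fun j z => lam (S (z, 0)) * det2 (D z (b j.1)) (D z (b j.2))) hK (fun j => a1 _ _)
    fun z hz => by
      obtain ⟨α, β, h⟩ := hd z hz
      rw [ProjX.expand b] at h
      obtain ⟨γ, -, h2⟩ := Finset.exists_ne_zero_of_sum_ne_zero h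
      have h3 := right_ne_zero_of_mul h2
      rw [ProjX.expand' b] at h3
      obtain ⟨δ, -, h4⟩ := Finset.exists_ne_zero_of_sum_ne_zero h3
      exact ⟨(γ, δ), mul_ne_zero (hF.ne _) (right_ne_zero_of_mul h4)⟩
  refine ⟨fun z => ∑ j : Fin (Module.finrank ℂ G) × Fin (Module.finrank ℂ G), ∑ γ,
    ((c j z * (lam (S (z, 0)) * det2 (D z (b γ)) (D z (b j.2)))) • ProjX.rk b γ j.1 +
      (c j z * (lam (S (z, 0)) * det2 (D z (b j.1)) (D z (b γ)))) • ProjX.rk b γ j.2),
    fun z hz => ?_, ?_⟩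
  · exact Finset.analyticAt_fun_sum _ fun j _ => Finset.analyticAt_fun_sum _ fun γ _ =>
      (((hc j z hz).mul (a1 _ _ z hz)).smul analyticAt_const).add
        (((hc j z hz).mul (a1 _ _ z hz)).smul analyticAt_const)
  · filter_upwards [h1] with z hz ξ
    rw [ProjX.q_apply b (D z) (lam (S (z, 0))) (fun j => c j z) ξ]
    refine ⟨?_, fun h => ?_⟩
    · simp only [map_sum, map_smul, map_add, det2_cramer, smul_smul, mul_assoc]
      rw [← Finset.sum_smul, hz, one_smul]
    · simp [h, det2]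

end Vale.Agent.P290
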