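import Vale.Agent.P290.Stm

set_option linter.unusedSectionVars false

open Set Filter Topology Metric MeasureTheory
open scoped Manifold ContDiff LinearAlgebra.Projectivization

noncomputable section
namespace Vale.Agent.P290

variable {X : Type*} [MetricSpace X] [ChartedSpace E X] [IsManifold 𝓘(ℂ, E) ω X]

namespace PullX

theorem det_ne {A : E →L[ℂ] E} (h : Function.Surjective A) : det2 (A (1, 0)) (A (0, 1)) ≠ 0 := by
  intro h0
  obtain ⟨u, hu⟩ := h (1, 0)
  obtain ⟨v, hv⟩ := h (0, 1)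
  have h1 := det2_map A u v
  rw [h0, zero_mul, hu, hv] at h1
  simp [det2] at h1

theorem an_fderiv {P V : Type*} [NormedAddCommGroup P] [NormedSpace ℂ P] [NormedAddCommGroup V]
    [NormedSpace ℂ V] [CompleteSpace V] {f : P → V} {q : P} (h : AnalyticAt ℂ f q) (a : P) :
    AnalyticAt ℂ (fun r => fderiv ℂ f r a) q :=
  ((ContinuousLinearMap.apply ℂ V a).analyticAt _).comp h.fderiv

theorem spec {c : ℂ} (hc : c ≠ 0) (D : E →L[ℂ] ℂ) (ξ : E) :
    c * det2 (c⁻¹ • ((D (0, 1), -D (1, 0)) : E)) ξ = D ξ := by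
  have e : ξ = ξ.1 • ((1, 0) : E) + ξ.2 • ((0, 1) : E) := by ext <;> simp
  conv_rhs => rw [e, map_add, map_smul, map_smul]
  rw [det2_smul_left, ← mul_assoc, mul_inv_cancel₀ hc]
  simp only [det2, smul_eq_mul]
  ring

end PullX

theorem pull_pf : PullS X := by
  intro lam hl P _ _ _ S q a b hS
  have hq : S q ∈ (ch (S q)).source := mem_chart_source E (S q)
  have hSt : AnalyticAt ℂ (fun r => ch (S q) (S r)) q := (anX_ch (S q) hq).comp hS
  have h1 := (hl.an (S q) _ ((ch (S q)).map_source hq)).comp (f := fun r => ch (S q) (S r)) hSt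
  refine (h1.mul (analyticAt_det2 (PullX.an_fderiv hSt a) (PullX.an_fderiv hSt b))).congr ?_
  filter_upwards [hS.eventually,
    hS.cont.preimage_mem_nhds ((ch (S q)).open_source.mem_nhds hq)] with r hr hr'
  rw [Dv_chart hr hr' a, Dv_chart hr hr' b, det2_map, ← mul_assoc]
  simp only [Pi.mul_apply, Function.comp_apply]
  rw [(ch (S q)).left_inv hr']

theorem ham_pf : HamS X := by
  intro lam hl q Y hq x hx
  have hs : x ∈ (ch x).source := mem_chart_source E x
  have ht : ch x x ∈ (ch x).target := (ch x).map_source hs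
  have hqx : AnX q ((ch x).symm (ch x x)) := by
    rw [(ch x).left_inv hs]
    exact hq x hx
  have hqt : AnalyticAt ℂ (fun y => q ((ch x).symm y)) (ch x x) := hqx.comp (an_symm x ht)
  have hne : ∀ y ∈ (ch x).target, lam ((ch x).symm y) *
      det2 (Dv (ch x).symm y (1, 0)) (Dv (ch x).symm y (0, 1)) ≠ 0 := fun y hy =>
    mul_ne_zero (hl.ne _) (PullX.det_ne (Dv_symm_bij x hy).2)
  refine ⟨fun y => (lam ((ch x).symm y) *
    det2 (Dv (ch x).symm y (1, 0)) (Dv (ch x).symm y (0, 1)))⁻¹ •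
      ((fderiv ℂ (fun y => q ((ch x).symm y)) y (0, 1),
        -fderiv ℂ (fun y => q ((ch x).symm y)) y (1, 0)) : E), ?_, ?_⟩
  · exact ((hl.an x _ ht).inv (hne _ ht)).smul
      ((PullX.an_fderiv hqt (0, 1)).prod (PullX.an_fderiv hqt (1, 0)).neg)
  · filter_upwards [(ch x).open_target.mem_nhds ht,
      (an_symm x ht).cont.eventually hqx.eventually] with y hy hqy
    refine eq_of_det2 fun ξ => ?_
    obtain ⟨η, rfl⟩ := (Dv_symm_bij x hy).2 ξ
    refine mul_left_cancel₀ (hl.ne ((ch x).symm y)) ?_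
    rw [ham_spec (hl.ne _), det2_map, ← mul_assoc, PullX.spec (hne y hy),
      fderiv_comp_An hqy (an_symm x hy)]

end Vale.Agent.P290
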