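import Vale.Agent.P290.Stm

set_option linter.unusedSectionVars false

open Set Filter Topology Metric MeasureTheory
open scoped Manifold ContDiff LinearAlgebra.Projectivization

noncomputable section
namespace Vale.Agent.P290

variable {X : Type*} [MetricSpace X] [ChartedSpace E X] [IsManifold 𝓘(ℂ, E) ω X]

namespace SolveX

variable {F G : Type} [NormedAddCommGroup F] [NormedSpace ℂ F] [FiniteDimensional ℂ F]
  [NormedAddCommGroup G] [NormedSpace ℂ G] [FiniteDimensional ℂ G]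

theorem loc (hI : IftS) {S : F × G → X} {Q : F → G →L[ℂ] G} {z₀ : F} (hS : An S (z₀, 0))
    (hQ : AnalyticAt ℂ Q z₀)
    (hd : ∃ α β : G, det2 (Dv S (z₀, 0) (0, α)) (Dv S (z₀, 0) (0, β)) ≠ 0)
    (hq : ∀ᶠ z in 𝓝 z₀, ∀ ξ, Dv S (z, 0) (0, Q z ξ) = Dv S (z, 0) (0, ξ) ∧
      (Dv S (z, 0) (0, ξ) = 0 → Q z ξ = 0)) :
    (∃ u ∈ 𝓝 ((z₀, 0) : F × G), InjOn (fun q : F × G => (q.1, q.2 - Q q.1 q.2, S q)) u) ∧
    ∃ h : F × E → G, AnalyticAt ℂ h (z₀, ch (S (z₀, 0)) (S (z₀, 0))) ∧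
      h (z₀, ch (S (z₀, 0)) (S (z₀, 0))) = 0 ∧
      ∀ᶠ q in 𝓝 (z₀, ch (S (z₀, 0)) (S (z₀, 0))),
        Q q.1 (h q) = h q ∧ ch (S (z₀, 0)) (S (q.1, h q)) = q.2 := by
  have hx := mem_chart_source E (S (z₀, 0))
  have ht : Tendsto (fun z : F => ((z, 0) : F × G)) (𝓝 z₀) (𝓝 (z₀, 0)) :=
    (continuous_id.prodMk continuous_const).tendsto z₀
  obtain ⟨⟨u, hu, hinj⟩, h2⟩ := hI F G (fun q => ch (S (z₀, 0)) (S q)) Q z₀
    ((anX_ch _ hx).comp hS) hQ (by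
      obtain ⟨α, β, h⟩ := hd
      rw [Dv_chart hS hx, Dv_chart hS hx, det2_map] at h
      exact ⟨α, β, right_ne_zero_of_mul h⟩) (by
      filter_upwards [hq, ht.eventually hS.eventually, ht.eventually
        (hS.cont.preimage_mem_nhds ((ch _).open_source.mem_nhds hx))] with z h1 h2 h3 ξ
      refine ⟨?_, fun h => (h1 ξ).2 ?_⟩
      · rw [fderiv_comp_An (anX_ch _ h3) h2, fderiv_comp_An (anX_ch _ h3) h2, (h1 ξ).1]
      · rw [Dv_chart h2 h3, h, map_zero])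
  refine ⟨⟨u, hu, fun q hq q' hq' e => hinj hq hq' ?_⟩, h2⟩
  simp only [Prod.mk.injEq] at e ⊢
  exact ⟨e.1, e.2.1, by rw [e.2.2]⟩

theorem near {S : F × G → X} {Q : F → G →L[ℂ] G} {z₀ : F} {t₀ : ℂ} {H : F × ℂ → X}
    {O : Set (F × G)} (hS : An S (z₀, 0)) (hH : An H (z₀, t₀)) (h0 : H (z₀, t₀) = S (z₀, 0))
    (hO : O ∈ 𝓝 ((z₀, 0) : F × G)) {h : F × E → G}
    (h1 : AnalyticAt ℂ h (z₀, ch (S (z₀, 0)) (S (z₀, 0))))
    (h2 : h (z₀, ch (S (z₀, 0)) (S (z₀, 0))) = 0)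
    (h3 : ∀ᶠ q in 𝓝 (z₀, ch (S (z₀, 0)) (S (z₀, 0))),
      Q q.1 (h q) = h q ∧ ch (S (z₀, 0)) (S (q.1, h q)) = q.2) :
    ∃ k : F × ℂ → G, AnalyticAt ℂ k (z₀, t₀) ∧ ∀ᶠ q in 𝓝 (z₀, t₀),
      (q.1, k q) ∈ O ∧ Q q.1 (k q) = k q ∧ S (q.1, k q) = H q := by
  obtain ⟨x, hx⟩ : ∃ x, x = S (z₀, 0) := ⟨_, rfl⟩
  have hs : S (z₀, 0) ∈ (ch x).source := hx ▸ mem_chart_source E x
  have hs' : H (z₀, t₀) ∈ (ch x).source := h0 ▸ hs
  rw [show ch (S (z₀, 0)) = ch x by rw [hx], ← h0] at h1 h2 h3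
  have a1 : AnalyticAt ℂ (fun q : F × ℂ => (q.1, ch x (H q))) (z₀, t₀) :=
    analyticAt_fst.prod ((anX_ch x hs').comp hH)
  have a2 : AnalyticAt ℂ (fun q : F × ℂ => h (q.1, ch x (H q))) (z₀, t₀) :=
    AnalyticAt.comp (f := fun q : F × ℂ => (q.1, ch x (H q))) h1 a1
  have t1 : Tendsto (fun q : F × ℂ => (q.1, h (q.1, ch x (H q)))) (𝓝 (z₀, t₀)) (𝓝 (z₀, 0)) := by
    have := (analyticAt_fst.prod a2).continuousAt.tendsto
    rwa [h2] at this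
  refine ⟨_, a2, ?_⟩
  filter_upwards [t1.eventually hO, a1.continuousAt.tendsto.eventually h3,
    t1.eventually (hS.cont.preimage_mem_nhds ((ch x).open_source.mem_nhds hs)),
    hH.cont.preimage_mem_nhds ((ch x).open_source.mem_nhds hs')] with q b1 b2 b3 b4
  exact ⟨b1, b2.1, (ch x).injOn b3 b4 b2.2⟩

end SolveX

theorem solve_pf (hP : ProjS X) (hI : IftS) : SolveS X := by
  intro F _ _ _ K K' g c H t₀ hK hD hH
  have hS : ∀ z ∈ K, An c.S (z, 0) := fun z hz => c.an _ (c.sub z hz)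
  obtain ⟨Q, hQ, hq⟩ := hP F c.G K c.S hK hS hD
  have hl := fun z hz => SolveX.loc hI (hS z hz) (hQ z hz) (hD z hz)
    (hq.filter_mono (nhds_le_nhdsSet hz))
  obtain ⟨Ψ, hΨ⟩ : ∃ Ψ : F × c.G → F × c.G × X,
    Ψ = fun q => (q.1, q.2 - Q q.1 q.2, c.S q) := ⟨_, rfl⟩
  obtain ⟨O, hO, hKO, hinj⟩ := Set.InjOn.exists_isOpen_superset (f := Ψ)
    (s := K ×ˢ ({0} : Set c.G))
    (fun q hq q' hq' e => Prod.ext (by rw [hΨ] at e; exact (Prod.ext_iff.1 e).1)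
      (hq.2.trans hq'.2.symm)) (hK.cpt.prod isCompact_singleton)
    (by
      rintro ⟨z, _⟩ ⟨hz, rfl⟩
      rw [hΨ]
      exact continuousAt_fst.prodMk ((continuousAt_snd.sub
        ((ContinuousAt.comp (f := Prod.fst) (hQ z hz).continuousAt continuousAt_fst).clm_apply
          continuousAt_snd)).prodMk (hS z hz).cont))
    (by
      rintro ⟨z, _⟩ ⟨hz, rfl⟩
      rw [hΨ]
      exact (hl z hz).1)
  obtain ⟨η, hη⟩ : ∃ η : F × ℂ → c.G,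
    ∀ q, η q = (Function.invFunOn Ψ O (q.1, 0, H q)).2 := ⟨_, fun _ => rfl⟩
  have key : ∀ z ∈ K, ∀ᶠ q in 𝓝 (z, t₀),
      AnalyticAt ℂ η q ∧ (q.1, η q) ∈ c.O ∧ c.S (q.1, η q) = H q := fun z hz => by
    obtain ⟨h, h1, h2, h3⟩ := (hl z hz).2
    obtain ⟨k, k1, k2⟩ := SolveX.near (O := O ∩ c.O) (hS z hz) (hH z hz).1
      ((hH z hz).2.trans (c.core z hz).symm)
      ((hO.inter c.op).mem_nhds ⟨hKO ⟨hz, rfl⟩, c.sub z hz⟩) h1 h2 h3
    have e : k =ᶠ[𝓝 (z, t₀)] η := by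
      filter_upwards [k2] with q hq
      have e1 : Ψ (q.1, k q) = (q.1, 0, H q) := by
        rw [hΨ]
        simp only [hq.2.1, hq.2.2, sub_self]
      rw [hη, ← e1, hinj.leftInvOn_invFunOn hq.1.1]
    filter_upwards [(k1.congr e).eventually_analyticAt, k2, e] with q b1 b2 b3
    rw [← b3]
    exact ⟨b1, b2.1.2, b2.2.2⟩
  have tube := hK.cpt.eventually_forall_of_forall_eventually (x₀ := t₀)
    (P := fun t z => AnalyticAt ℂ η (z, t) ∧ (z, η (z, t)) ∈ c.O ∧ c.S (z, η (z, t)) = H (z, t))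
    fun z hz => (continuous_swap.tendsto (t₀, z)).eventually (key z hz)
  filter_upwards [tube] with t ht
  exact ⟨fun z => η (z, t), fun z hz => AnalyticAt.comp (f := fun z : F => (z, t)) (ht z hz).1
    (analyticAt_id.prod analyticAt_const), fun z hz => (ht z hz).2⟩

end Vale.Agent.P290
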