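import Vale.Agent.P290.Stm

set_option linter.unusedSectionVars false

open Set Filter Topology Metric MeasureTheory
open scoped Manifold ContDiff LinearAlgebra.Projectivization

noncomputable section
namespace Vale.Agent.P290

variable {X : Type*} [MetricSpace X] [ChartedSpace E X] [IsManifold 𝓘(ℂ, E) ω X]

namespace SprX

theorem fst_iff {l : ℙ ℂ E} {v : E} (h : Ln l v) : l.rep.1 ≠ 0 ↔ v.1 ≠ 0 := by
  obtain ⟨c, hc, e⟩ := h.exists_smul (ln_rep l)
  rw [e, Prod.smul_fst, smul_eq_mul]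
  exact mul_ne_zero_iff_left hc

theorem snd_iff {l : ℙ ℂ E} {v : E} (h : Ln l v) : l.rep.2 ≠ 0 ↔ v.2 ≠ 0 := by
  obtain ⟨c, hc, e⟩ := h.exists_smul (ln_rep l)
  rw [e, Prod.smul_snd, smul_eq_mul]
  exact mul_ne_zero_iff_left hc

theorem ln_of_fst {l l' : ℙ ℂ E} {v : E} (h : Ln l v) (h1 : l.rep.1 ≠ 0) (h1' : l'.rep.1 ≠ 0)
    (e : l'.rep.2 / l'.rep.1 = l.rep.2 / l.rep.1) : Ln l' v := by
  rw [div_eq_div_iff h1' h1] at e
  have h3 : Ln l' l.rep := (ln_rep l').of_det l.rep_nonzero (by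
    unfold det2; linear_combination -e)
  rw [h3.eq (ln_rep l)]
  exact h

theorem ln_of_snd {l l' : ℙ ℂ E} {v : E} (h : Ln l v) (h1 : l.rep.2 ≠ 0) (h1' : l'.rep.2 ≠ 0)
    (e : -(l'.rep.1 / l'.rep.2) = -(l.rep.1 / l.rep.2)) : Ln l' v := by
  rw [neg_inj, div_eq_div_iff h1' h1] at e
  have h3 : Ln l' l.rep := (ln_rep l').of_det l.rep_nonzero (by
    unfold det2; linear_combination e)
  rw [h3.eq (ln_rep l)]
  exact h

theorem ic_scale {V : X → E} {γ : ℂ → X} {k t : ℂ} (h : IC V γ (k * t)) :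
    An (fun s => γ (k * s)) t ∧ Dv (fun s => γ (k * s)) t 1 = k • V (γ (k * t)) := by
  have hd : HasDerivAt (fun s : ℂ => k * s) k t := by
    simpa using (hasDerivAt_id t).const_mul k
  refine ⟨An.comp (φ := fun s => k * s) h.1 (by fun_prop), ?_⟩
  rw [Dv_comp (φ := fun s => k * s) h.1 hd.differentiableAt, fderiv_apply_one_eq_deriv, hd.deriv,
    ← h.2, ← map_smul, smul_eq_mul, mul_one]

end SprX

open SprX

theorem spr_pf (h2 : Fl2S X) (h4 : Fl4S X) (hA : AffS X) : SprS X := by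
  intro lam hl p hp
  obtain ⟨P0, P1, hD⟩ := hA lam hl p hp
  obtain ⟨Φ0, H0⟩ := h4 _ _ _ P0
  obtain ⟨Φ1, H1⟩ := h4 _ _ _ P1
  simp only [mem_ofPred_eq] at H0 H1
  have snd_ne : ∀ {x v}, Ln (p x) v → ¬ v.1 ≠ 0 → v.2 ≠ 0 := fun h h1 =>
    (ne_zero_iff.1 h.ne).resolve_left h1
  have L0 : ∀ {x v}, Ln (p x) v → v.1 ≠ 0 → ∀ t, Ln (p (Φ0 (x, t))) v := by
    intro x v h h1 t
    have hx := (fst_iff h).2 h1
    exact ln_of_fst h hx ((H0 x hx).2.2 t).2.1 ((H0 x hx).2.2 t).2.2.1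
  have L1 : ∀ {x v}, Ln (p x) v → v.2 ≠ 0 → ∀ t, Ln (p (Φ1 (x, t))) v := by
    intro x v h h1 t
    have hx := (snd_iff h).2 h1
    exact ln_of_snd h hx ((H1 x hx).2.2 t).2.1 ((H1 x hx).2.2 t).2.2.1
  have hV : ∀ {y v}, Ln (p y) v → v.1 ≠ 0 → v.2 ≠ 0 →
      (v.1 ^ 2 / v.2 ^ 2) • Ham lam (fun x => (p x).rep.2 / (p x).rep.1) y =
        Ham lam (fun x => -((p x).rep.1 / (p x).rep.2)) y := by
    intro y v h h1 h2
    obtain ⟨w, hw, hwl, rfl⟩ := hp.lift h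
    refine eq_of_det2 fun ξ => mul_left_cancel₀ (hl.ne y) ?_
    rw [det2_smul_left, mul_left_comm, ham_spec (hl.ne y), ham_spec (hl.ne y), div_mul_eq_mul_div,
      (hD y w hw hwl ξ).1 h1, ← (hD y w hw hwl ξ).2 h2,
      mul_div_cancel_left₀ _ (pow_ne_zero 2 h2)]
  have key : ∀ {x v}, Ln (p x) v → v.1 ≠ 0 → v.2 ≠ 0 → ∀ a,
      Φ0 (x, v.1 ^ 2 * a) = Φ1 (x, v.2 ^ 2 * a) := by
    intro x v h h1 h2' a
    have hx0 := (fst_iff h).2 h1
    have hx1 := (snd_iff h).2 h2'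
    have h3 := h2 _ _ P1.fld univ (fun t => Φ0 (x, v.1 ^ 2 / v.2 ^ 2 * t)) (fun t => Φ1 (x, t))
      isOpen_univ isPreconnected_univ (fun t _ => by
        have h4 := L0 h h1 (v.1 ^ 2 / v.2 ^ 2 * t)
        have h5 := ic_scale ((H0 x hx0).2.2 (v.1 ^ 2 / v.2 ^ 2 * t)).2.2.2
        exact ⟨(snd_iff h4).2 h2', ⟨h5.1, h5.2.trans (hV h4 h1 h2')⟩, ((H1 x hx1).2.2 t).2.2.2⟩)
      0 (mem_univ _) (by simp only [mul_zero, (H0 x hx0).1, (H1 x hx1).1])
      (mem_univ (v.2 ^ 2 * a))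
    simp only at h3
    rw [← h3, ← mul_assoc, div_mul_cancel₀ _ (pow_ne_zero 2 h2')]
  classical
  refine ⟨fun x v a => if v.1 ≠ 0 then Φ0 (x, v.1 ^ 2 * a) else Φ1 (x, v.2 ^ 2 * a),
    fun x v a h => ?_, fun {x v} h => ?_, fun {x v} a b h => ?_, fun {x v} a h => ?_,
    fun {x v} c a h hc => ?_, fun x w hw hwl ξ => ?_⟩
  · by_cases h1 : v.1 ≠ 0
    · refine ⟨fun q => Φ0 (q.1, q.2.1.1 ^ 2 * q.2.2),
        AnP.compP (ψ := Prod.fst) (a := fun q : X × (E × ℂ) => q.2.1.1 ^ 2 * q.2.2)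
          ((H0 x ((fst_iff h).2 h1)).2.2 _).1 (anP_fst _)
          (cm_snd (a := fun r : E × ℂ => r.1.1 ^ 2 * r.2)
            (((analyticAt_fst.comp analyticAt_fst).pow 2).mul analyticAt_snd)), ?_⟩
      have hc : ContinuousAt (fun q : X × (E × ℂ) => q.2.1.1) (x, v, a) := by fun_prop
      filter_upwards [hc.eventually_ne h1] with q hq _
      rw [if_pos hq]
    · have h2' := snd_ne h h1
      refine ⟨fun q => Φ1 (q.1, q.2.1.2 ^ 2 * q.2.2),
        AnP.compP (ψ := Prod.fst) (a := fun q : X × (E × ℂ) => q.2.1.2 ^ 2 * q.2.2)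
          ((H1 x ((snd_iff h).2 h2')).2.2 _).1 (anP_fst _)
          (cm_snd (a := fun r : E × ℂ => r.1.2 ^ 2 * r.2)
            (((analyticAt_snd.comp analyticAt_fst).pow 2).mul analyticAt_snd)), ?_⟩
      have hc : ContinuousAt (fun q : X × (E × ℂ) => q.2.1.2) (x, v, a) := by fun_prop
      filter_upwards [hc.eventually_ne h2'] with q hq hq'
      split_ifs with h3
      · exact key hq' h3 hq _
      · rfl
  · split_ifs with h1
    · rw [mul_zero, (H0 x ((fst_iff h).2 h1)).1]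
    · rw [mul_zero, (H1 x ((snd_iff h).2 (snd_ne h h1))).1]
  · split_ifs with h1
    · rw [(H0 x ((fst_iff h).2 h1)).2.1, mul_add]
    · rw [(H1 x ((snd_iff h).2 (snd_ne h h1))).2.1, mul_add]
  · split_ifs with h1
    · exact (L0 h h1 _).eq h
    · exact (L1 h (snd_ne h h1) _).eq h
  · simp only [Prod.smul_fst, Prod.smul_snd, smul_eq_mul, mul_ne_zero_iff_left hc]
    split_ifs with h1
    · congr 2; ring
    · congr 2; ring
  · have h := hwl.self_of_nhds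
    by_cases h1 : (w x).1 ≠ 0
    · have hx := (fst_iff h).2 h1
      have h5 := (ic_scale ((H0 x hx).2.2 ((w x).1 ^ 2 * 0)).2.2.2).2
      simp only [if_pos h1]
      rw [h5, mul_zero, (H0 x hx).1, det2_smul_left, mul_left_comm, ham_spec (hl.ne x)]
      exact (hD x w hw hwl ξ).1 h1
    · have h2' := snd_ne h h1
      have hx := (snd_iff h).2 h2'
      have h5 := (ic_scale ((H1 x hx).2.2 ((w x).2 ^ 2 * 0)).2.2.2).2
      simp only [if_neg h1]
      rw [h5, mul_zero, (H1 x hx).1, det2_smul_left, mul_left_comm, ham_spec (hl.ne x)]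
      exact (hD x w hw hwl ξ).2 h2'

end Vale.Agent.P290
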