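import Vale.Agent.P290.Runge
import Vale.Agent.P290.Bez
import Vale.Agent.P290.Exh
import Vale.Agent.P290.Hor
import Vale.Agent.P290.Peak0
import Vale.Agent.P290.Peak
import Vale.Agent.P290.Lift
import Vale.Agent.P290.Norm
import Vale.Agent.P290.Ift
import Vale.Agent.P290.Pull
import Vale.Agent.P290.Fl1
import Vale.Agent.P290.Fl2
import Vale.Agent.P290.Fl3
import Vale.Agent.P290.Fl4
import Vale.Agent.P290.Aff
import Vale.Agent.P290.Spr
import Vale.Agent.P290.Dom
import Vale.Agent.P290.Step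
import Vale.Agent.P290.Ext
import Vale.Agent.P290.Add
import Vale.Agent.P290.DomZ
import Vale.Agent.P290.Proj
import Vale.Agent.P290.Solve
import Vale.Agent.P290.Lim

/-! Problem P290: the main theorem. -/

set_option linter.unusedSectionVars false

open Set Filter Topology Metric
open scoped Manifold ContDiff LinearAlgebra.Projectivization

noncomputable section
namespace Vale.Agent.P290

variable {X : Type*} [MetricSpace X] [ChartedSpace E X] [IsManifold 𝓘(ℂ, E) ω X]

theorem bezS : BezS := bez_pf runge_pf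

theorem liftS : LiftS := lift_pf bezS (peak_pf exh_pf (peak0_pf hor_pf))

theorem Sys.lim [CompactSpace X] {ι : Type*} (T : Sys X ι) : LimS X :=
  lim_pf (hom_pf (domK_pf (domZ_pf T liftS (add_pf T (norm_pf bezS liftS)
    (ext_pf T (step_pf T runge_pf bezS liftS)))))
    (solve_pf (proj_pf T.form pull_pf bezS) ift_pf))

theorem sprS [CompactSpace X] : SprS X :=
  spr_pf fl2_pf (fl4_pf fl1_pf fl2_pf (fl3_pf fl1_pf fl2_pf)) (aff_pf ham_pf)

theorem alt_eq (s : E [⋀^Fin 2]→L[ℂ] ℂ) (u v : E) :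
    s ![u, v] = s ![(1, 0), (0, 1)] * det2 u v := by
  have h := congrArg (fun f => f ![u, v])
    (s.toAlternatingMap.eq_smul_basis_det (Module.Basis.finTwoProd ℂ))
  have e : (Module.Basis.finTwoProd ℂ : Fin 2 → E) = ![(1, 0), (0, 1)] := by
    funext i; fin_cases i <;> simp
  simp only [AlternatingMap.smul_apply, Module.Basis.det_apply, Matrix.det_fin_two,
    Module.Basis.toMatrix_apply, e] at h
  refine h.trans ?_
  simp [det2, mul_comm]

theorem IsLift.spec {p : X → ℙ ℂ E} {W : Set X} {w : X → E} (h : IsLift p W w) {x : X}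
    (hx : x ∈ W) : AnX w x ∧ ∀ᶠ y in 𝓝 x, Ln (p y) (w y) :=
  ⟨anX_of_mdiff (mem_of_superset (h.1.mem_nhds hx) fun y hy =>
    (h.2.1 y hy).mdifferentiableAt (h.1.mem_nhds hy)),
    mem_of_superset (h.1.mem_nhds hx) h.2.2⟩

theorem main [CompactSpace X] (σ : ∀ x : X, TangentSpace 𝓘(ℂ, E) x [⋀^Fin 2]→L[ℂ] ℂ)
    (hσ : IsHolForm σ) (hσ0 : ∀ x, σ x ≠ 0) {ι : Type*} (p : ι → X → ℙ ℂ E)
    (hp : ∀ i, IsHolMap (p i)) (hfin : ∀ x, {y | ∀ i, p i y = p i x}.Finite)
    (hsub : ∀ x, ∃ i, IsSubmersiveAt (p i) x) : IsOka X := by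
  let lam : X → ℂ := fun x => σ x ![((1, 0) : E), ((0, 1) : E)]
  have hF : Form lam := by
    refine ⟨fun x h0 => hσ0 x ?_, fun x => ?_⟩
    · ext v
      have e : v = ![v 0, v 1] := by
        funext i; fin_cases i <;> rfl
      rw [e]
      exact (alt_eq (σ x) (v 0) (v 1)).trans (mul_eq_zero_of_left h0 _)
    · refine AnalyticOnNhd.congr (ch x).open_target (P274.analyticOnNhd_of_differentiableOn
        (ch x).open_target (hσ x (1, 0) (0, 1))) fun y _ => ?_
      exact alt_eq (σ _) _ _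
  have hH : ∀ i, HolP (p i) := fun i x => by
    obtain ⟨W, w, hx, h⟩ := hp i x
    exact ⟨w, h.spec hx⟩
  choose s hs using fun i => sprS lam hF (p i) (hH i)
  have hD := dom_pf cst_pf lam p s hF hH hs hfin fun x => by
    obtain ⟨i, W, w, hx, h, ξ, d, rfl, hd⟩ := hsub x
    exact ⟨i, w, (h.spec hx).1, (h.spec hx).2, ξ, hd⟩
  intro m _ K _ hK hc U hU hKU f hf ε hε
  obtain ⟨G, h1, h2⟩ := (Sys.mk lam p s hF hH hs hD).lim _ K f (ck_of_convex hK hc)
    (fun z hz => an_of_mdiff (mem_of_superset (hU.mem_nhds (hKU hz)) fun y hy =>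
      (hf y hy).mdifferentiableAt (hU.mem_nhds hy))) ε hε
  exact ⟨G, fun z => (h1 z (mem_univ z)).md, h2⟩

end Vale.Agent.P290
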