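import Vale.Agent.P290.Stm

set_option linter.unusedSectionVars false

open Set Filter Topology Metric MeasureTheory
open scoped Manifold ContDiff LinearAlgebra.Projectivization

noncomputable section
namespace Vale.Agent.P290

namespace RungeX

variable {F : Type} [NormedAddCommGroup F] [NormedSpace ℂ F] {K U : Set F}

def Ap (K : Set F) (f : F → ℂ) : Prop :=
  ∀ ε : ℝ, 0 < ε → ∃ P ∈ Poly F, ∀ z ∈ K, ‖P z - f z‖ < ε

theorem Ap.congr {f g : F → ℂ} (h : Ap K f) (e : ∀ z ∈ K, f z = g z) : Ap K g := fun ε hε => by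
  obtain ⟨P, hP, h⟩ := h ε hε
  exact ⟨P, hP, fun z hz => e z hz ▸ h z hz⟩

theorem Ap.of_mem {P : F → ℂ} (h : P ∈ Poly F) : Ap K P :=
  fun ε hε => ⟨P, h, fun z _ => by simpa using hε⟩

theorem Ap.add {f g : F → ℂ} (hf : Ap K f) (hg : Ap K g) : Ap K fun z => f z + g z := by
  intro ε hε
  obtain ⟨P, hP, h1⟩ := hf (ε / 2) (half_pos hε)
  obtain ⟨Q, hQ, h2⟩ := hg (ε / 2) (half_pos hε)
  refine ⟨P + Q, add_mem hP hQ, fun z hz => ?_⟩
  have e : (P + Q) z - (f z + g z) = (P z - f z) + (Q z - g z) := by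
    rw [Pi.add_apply]; ring
  rw [e]
  linarith [norm_add_le (P z - f z) (Q z - g z), h1 z hz, h2 z hz]

theorem const_mem (c : ℂ) : (fun _ : F => c) ∈ Poly F := (Poly F).algebraMap_mem c

theorem Ap.sum {T : Type} (s : Finset T) {f : T → F → ℂ} (h : ∀ t ∈ s, Ap K (f t)) :
    Ap K fun z => ∑ t ∈ s, f t z := by
  classical
  induction s using Finset.induction_on with
  | empty => simpa using Ap.of_mem (K := K) (const_mem 0)
  | insert t s ht ih =>
    simp only [Finset.sum_insert ht]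
    exact (h t (Finset.mem_insert_self _ _)).add
      (ih fun u hu => h u (Finset.mem_insert_of_mem hu))

theorem Ap.mul (hK : IsCompact K) {Q f : F → ℂ} (hQ : Q ∈ Poly F) (hf : Ap K f) :
    Ap K fun z => Q z * f z := by
  intro ε hε
  obtain ⟨C, hC⟩ := hK.exists_bound_of_continuousOn
    (f := Q) fun z _ => (Poly.analytic hQ z).continuousAt.continuousWithinAt
  have h0 : 0 < |C| + 1 := by positivity
  obtain ⟨P, hP, h⟩ := hf (ε / (|C| + 1)) (div_pos hε h0)
  refine ⟨Q * P, mul_mem hQ hP, fun z hz => ?_⟩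
  rw [Pi.mul_apply, ← mul_sub, norm_mul]
  have h1 := (lt_div_iff₀ h0).1 (h z hz)
  have h2 := (hC z hz).trans (le_abs_self C)
  nlinarith [norm_nonneg (P z - f z), norm_nonneg (Q z)]

theorem Ap.lim {f : F → ℂ} (h : ∀ ε : ℝ, 0 < ε → ∃ g, Ap K g ∧ ∀ z ∈ K, ‖g z - f z‖ ≤ ε) :
    Ap K f := by
  intro ε hε
  obtain ⟨g, hg, h1⟩ := h (ε / 2) (half_pos hε)
  obtain ⟨P, hP, h2⟩ := hg (ε / 2) (half_pos hε)
  refine ⟨P, hP, fun z hz => ?_⟩
  linarith [norm_sub_le_norm_sub_add_norm_sub (P z) (g z) (f z), h1 z hz, h2 z hz]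

def Good (K U : Set F) (z₀ : F) (t : ℂ) : Prop :=
  ∀ h : F → ℂ, AnalyticOnNhd ℂ h U → Ap K fun z => h (z₀ + t • (z - z₀))

theorem line_analytic {h : F → ℂ} (z₀ v : F) {t : ℂ} (hh : AnalyticAt ℂ h (z₀ + t • v)) :
    AnalyticAt ℂ (fun τ : ℂ => h (z₀ + τ • v)) t :=
  hh.comp (f := fun τ : ℂ => z₀ + τ • v) (analyticAt_const.add (analyticAt_id.smul analyticAt_const))

theorem Good.deriv [FiniteDimensional ℂ F] (hK : IsCompact K) (hU : IsOpen U) {z₀ : F} {t : ℂ}
    (hG : Good K U z₀ t) (ht : ∀ z ∈ K, z₀ + t • (z - z₀) ∈ U) (k : ℕ) :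
    ∀ h : F → ℂ, AnalyticOnNhd ℂ h U →
      Ap K fun z => iteratedDeriv k (fun τ : ℂ => h (z₀ + τ • (z - z₀))) t := by
  induction k with
  | zero => simpa [Good] using hG
  | succ k ih =>
    intro h hh
    let b := Module.finBasis ℂ F
    have hd : ∀ i, AnalyticOnNhd ℂ (fun w => fderiv ℂ h w (b i)) U := fun i w hw =>
      (ContinuousLinearMap.apply ℂ ℂ (b i)).analyticAt _ |>.comp (hh.fderiv w hw)
    have hc : ∀ i, (fun z : F => b.coord i (z - z₀)) ∈ Poly F := fun i => by
      have h1 : (fun z : F => b.coord i z) ∈ Poly F :=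
        Algebra.subset_adjoin ⟨LinearMap.toContinuousLinearMap (b.coord i), rfl⟩
      have h2 := sub_mem h1 (const_mem (b.coord i z₀))
      simp only [map_sub]
      exact h2
    refine (Ap.sum Finset.univ fun i _ => Ap.mul hK (hc i) (ih _ (hd i))).congr fun z hz => ?_
    have hev : ∀ᶠ τ : ℂ in 𝓝 t, z₀ + τ • (z - z₀) ∈ U :=
      (by fun_prop : Continuous fun τ : ℂ => z₀ + τ • (z - z₀)).continuousAt.eventually
        (hU.mem_nhds (ht z hz))
    have he : _root_.deriv (fun τ : ℂ => h (z₀ + τ • (z - z₀))) =ᶠ[𝓝 t]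
        fun τ => ∑ i, b.coord i (z - z₀) * fderiv ℂ h (z₀ + τ • (z - z₀)) (b i) := by
      filter_upwards [hev] with τ hτ
      have h1 : HasDerivAt (fun τ : ℂ => z₀ + τ • (z - z₀)) (z - z₀) τ := by
        simpa using ((hasDerivAt_id τ).smul_const (z - z₀)).const_add z₀
      have h2 := (hh _ hτ).differentiableAt.hasFDerivAt.comp_hasDerivAt τ h1
      refine h2.deriv.trans ?_
      set A := fderiv ℂ h (z₀ + τ • (z - z₀))
      conv_lhs => rw [← b.sum_repr (z - z₀)]
      simp [map_sum]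
    rw [iteratedDeriv_succ', he.iteratedDeriv_eq, iteratedDeriv_fun_sum]
    · exact Finset.sum_congr rfl fun i _ => (iteratedDeriv_const_mul_field _ _).symm
    · exact fun i _ => contDiffAt_const.mul (line_analytic z₀ _ (hd i _ (ht z hz))).contDiffAt

theorem Good.step [FiniteDimensional ℂ F] (hK : IsCompact K) (hU : IsOpen U) {z₀ : F} {d R : ℝ}
    (hd : 0 < d) (hR : 0 < R) (hc : IsCompact (cthickening d K)) (hKU : cthickening d K ⊆ U)
    (hb : ∀ z ∈ K, ‖z - z₀‖ ≤ R) {t s : ℂ} (hG : Good K U z₀ t)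
    (ht : ∀ z ∈ K, z₀ + t • (z - z₀) ∈ K) (hs : ‖s‖ ≤ d / R / 2) : Good K U z₀ (t + s) := by
  intro h hh
  have hρ : 0 < d / R := div_pos hd hR
  obtain ⟨M, hM⟩ := hc.exists_bound_of_continuousOn (hh.continuousOn.mono hKU)
  have hin : ∀ z ∈ K, ∀ τ ∈ closedBall t (d / R), z₀ + τ • (z - z₀) ∈ cthickening d K := by
    intro z hz τ hτ
    refine mem_cthickening_of_dist_le _ _ d K (ht z hz) ?_
    rw [dist_eq_norm, add_sub_add_left_eq_sub, ← sub_smul, norm_smul]
    calc _ ≤ d / R * R := mul_le_mul (mem_closedBall_iff_norm.1 hτ) (hb z hz) (norm_nonneg _) hρ.le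
      _ = d := by field_simp
  have hdiff : ∀ z ∈ K, DifferentiableOn ℂ (fun τ : ℂ => h (z₀ + τ • (z - z₀)))
      (closedBall t (d / R)) := fun z hz τ hτ =>
    (line_analytic z₀ _ (hh _ (hKU (hin z hz τ hτ)))).differentiableAt.differentiableWithinAt
  let a : ℕ → F → ℂ := fun n z => ((n.factorial : ℂ)⁻¹ * s ^ n) *
    iteratedDeriv n (fun τ : ℂ => h (z₀ + τ • (z - z₀))) t
  have ha : ∀ n, Ap K (a n) := fun n => Ap.mul hK (const_mem _)
    (hG.deriv hK hU (fun z hz => hKU (self_subset_cthickening K (ht z hz))) n h hh)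
  have hsum : ∀ z ∈ K, HasSum (fun n => a n z) (h (z₀ + (t + s) • (z - z₀))) := by
    intro z hz
    have := Complex.hasSum_taylorSeries_on_ball ((hdiff z hz).mono ball_subset_closedBall)
      (z := t + s) (by rw [mem_ball_iff_norm, add_sub_cancel_left]; linarith)
    simpa only [add_sub_cancel_left, smul_eq_mul, ← mul_assoc] using this
  have hbd : ∀ n, ∀ z ∈ K, ‖a n z‖ ≤ |M| * (1 / 2) ^ n := by
    intro n z hz
    have h1 := Complex.norm_iteratedDeriv_le_of_forall_mem_sphere_norm_le n hρ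
      (DifferentiableOn.diffContOnCl (by rw [closure_ball t hρ.ne']; exact hdiff z hz))
      fun τ hτ => (hM _ (hin z hz τ (sphere_subset_closedBall hτ))).trans (le_abs_self M)
    have hf : (0 : ℝ) < n.factorial := by exact_mod_cast n.factorial_pos
    simp only [a, norm_mul, norm_inv, norm_pow, Complex.norm_natCast]
    calc _ ≤ (n.factorial : ℝ)⁻¹ * (d / R / 2) ^ n * (n.factorial * |M| / (d / R) ^ n) := by
          gcongr
      _ = _ := by rw [div_pow (d / R), one_div, inv_pow]; field_simp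
  have hu := tendstoUniformlyOn_tsum_nat (summable_geometric_two.mul_left |M|) hbd
  refine Ap.lim fun ε hε => ?_
  obtain ⟨N, hN⟩ := (Metric.tendstoUniformlyOn_iff.1 hu ε hε).exists
  refine ⟨_, Ap.sum (Finset.range N) fun n _ => ha n, fun z hz => ?_⟩
  have := hN z hz
  rw [(hsum z hz).tsum_eq, dist_comm, dist_eq_norm] at this
  exact this.le

end RungeX

open RungeX in
theorem runge_pf : RungeS := by
  intro F _ _ _ K h hK hh
  rcases K.eq_empty_or_nonempty with rfl | ⟨z₀, hz₀⟩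
  · exact fun ε _ => ⟨0, zero_mem _, fun z hz => hz.elim⟩
  have : ProperSpace F := FiniteDimensional.proper ℂ F
  have : CompleteSpace F := FiniteDimensional.complete ℂ F
  have hU : IsOpen {z | AnalyticAt ℂ h z} := isOpen_analyticAt ℂ h
  obtain ⟨d, hd, hKU⟩ := hK.cpt.exists_cthickening_subset_open hU hh
  obtain ⟨R, hR⟩ := hK.cpt.exists_bound_of_continuousOn (f := fun z => z - z₀) (by fun_prop)
  have hR0 : 0 < |R| + 1 := by positivity
  obtain ⟨N, hN⟩ := exists_nat_one_div_lt (half_pos (div_pos hd hR0))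
  have hN0 : (0 : ℝ) < N + 1 := by positivity
  have key : ∀ m : ℕ, m ≤ N + 1 →
      Good K {z | AnalyticAt ℂ h z} z₀ ((m / (N + 1) : ℝ) : ℂ) := by
    intro m
    induction m with
    | zero => exact fun _ g _ => by simpa using Ap.of_mem (K := K) (const_mem (g z₀))
    | succ m ih =>
      intro hm
      have hm' : (m : ℝ) ≤ N + 1 := by exact_mod_cast (by omega : m ≤ N + 1)
      have := (ih (by omega)).step hK.cpt hU hd hR0 hK.cpt.cthickening hKU
        (fun z hz => (hR z hz).trans ((le_abs_self R).trans (le_add_of_nonneg_right zero_le_one)))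
        (fun z hz => hK.cvx z₀ hz₀ z hz _ (by positivity) ((div_le_one hN0).2 hm'))
        (s := ((1 / (N + 1) : ℝ) : ℂ))
        (by rw [Complex.norm_real, Real.norm_of_nonneg (by positivity)]; exact hN.le)
      rw [← Complex.ofReal_add, ← add_div] at this
      rwa [Nat.cast_succ]
  have h1 := key (N + 1) le_rfl h fun z hz => hz
  rw [Nat.cast_succ, div_self hN0.ne'] at h1
  exact h1.congr fun z _ => by simp

end Vale.Agent.P290
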