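import Vale.Agent.P290.Stm

set_option linter.unusedSectionVars false

open Set Filter Topology Metric MeasureTheory
open scoped Manifold ContDiff LinearAlgebra.Projectivization

noncomputable section
namespace Vale.Agent.P290

variable {X : Type*} [MetricSpace X] [ChartedSpace E X] [IsManifold 𝓘(ℂ, E) ω X]

namespace StepX

/-- the linear form with coefficients `c`, `d` -/
def lf (c d : ℂ) (u : E) : ℂ := c * u.1 + d * u.2

theorem lf_smul (c d k : ℂ) (u : E) : lf c d (k • u) = k * lf c d u := by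
  simp only [lf, Prod.smul_fst, Prod.smul_snd, smul_eq_mul]; ring

/-- normalised representative -/
def Nr (c d : ℂ) (l : ℙ ℂ E) : E := (lf c d l.rep)⁻¹ • l.rep

theorem lf_ne {c d : ℂ} {l : ℙ ℂ E} {u w : E} (hu : Ln l u) (hw : Ln l w) (h : lf c d u ≠ 0) :
    lf c d w ≠ 0 := by
  obtain ⟨k, hk, rfl⟩ := hu.exists_smul hw
  rw [lf_smul]
  exact mul_ne_zero hk h

theorem Nr_eq (c d : ℂ) {l : ℙ ℂ E} {w : E} (hw : Ln l w) :
    Nr c d l = (lf c d w)⁻¹ • w := by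
  obtain ⟨k, hk, e⟩ := hw.exists_smul (ln_rep l)
  rw [Nr, e, lf_smul, smul_smul, mul_inv, mul_right_comm, inv_mul_cancel₀ hk, one_mul]

variable {F : Type} [NormedAddCommGroup F] [NormedSpace ℂ F]

/-- the spray in normalised form -/
def Tm (p : X → ℙ ℂ E) (s : X → E → ℂ → X) (c d : F → ℂ) (q : F × X × ℂ) : X :=
  s q.2.1 (Nr (c q.1) (d q.1) (p q.2.1)) q.2.2

theorem loc {lam : X → ℂ} {p : X → ℙ ℂ E} {s : X → E → ℂ → X} (hp : HolP p)
    (hs : IsSpray lam p s) {c d : F → ℂ} {z : F} {x : X} {v : E} (b : ℂ)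
    (hc : ContinuousAt c z) (hd : ContinuousAt d z) (hv : Ln (p x) v)
    (h1 : lf (c z) (d z) v = 1) :
    (∀ᶠ q : F × X × ℂ in 𝓝 (z, x, b), lf (c q.1) (d q.1) (p q.2.1).rep ≠ 0) ∧
      ContinuousAt (Tm p s c d) (z, x, b) := by
  obtain ⟨w, hw, hl, e⟩ := hp.lift hv
  have c1 : ContinuousAt (fun q : F × X × ℂ => q.1) (z, x, b) := continuousAt_fst
  have c2 : ContinuousAt (fun q : F × X × ℂ => q.2.1) (z, x, b) :=
    continuousAt_fst.comp continuousAt_snd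
  have c3 : ContinuousAt (fun q : F × X × ℂ => q.2.2) (z, x, b) :=
    continuousAt_snd.comp continuousAt_snd
  have cw : ContinuousAt (fun q : F × X × ℂ => w q.2.1) (z, x, b) :=
    ContinuousAt.comp (f := fun q : F × X × ℂ => q.2.1) hw.cont c2
  have cc : ContinuousAt (fun q : F × X × ℂ => c q.1) (z, x, b) :=
    ContinuousAt.comp (f := fun q : F × X × ℂ => q.1) hc c1
  have cd : ContinuousAt (fun q : F × X × ℂ => d q.1) (z, x, b) :=
    ContinuousAt.comp (f := fun q : F × X × ℂ => q.1) hd c1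
  have cl : ContinuousAt (fun q : F × X × ℂ => lf (c q.1) (d q.1) (w q.2.1)) (z, x, b) :=
    (cc.mul cw.fst).add (cd.mul cw.snd)
  have l1 : lf (c z) (d z) (w x) = 1 := by rw [e, h1]
  have l0 : lf (c z) (d z) (w x) ≠ 0 := by rw [l1]; exact one_ne_zero
  have e1 : ∀ᶠ q : F × X × ℂ in 𝓝 (z, x, b), lf (c q.1) (d q.1) (w q.2.1) ≠ 0 :=
    cl.eventually_ne l0
  have e2 : ∀ᶠ q : F × X × ℂ in 𝓝 (z, x, b), Ln (p q.2.1) (w q.2.1) := c2.eventually hl
  refine ⟨?_, ?_⟩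
  · filter_upwards [e1, e2] with q a1 a2 using lf_ne a2 (ln_rep _) a1
  obtain ⟨s', hs1, hs2⟩ := hs.loc x v b hv
  have cN : ContinuousAt (fun q : F × X × ℂ =>
      ((q.2.1, (lf (c q.1) (d q.1) (w q.2.1))⁻¹ • w q.2.1, q.2.2) : X × E × ℂ)) (z, x, b) :=
    c2.prodMk (((cl.inv₀ l0).smul cw).prodMk c3)
  have ev : (fun q : F × X × ℂ =>
      ((q.2.1, (lf (c q.1) (d q.1) (w q.2.1))⁻¹ • w q.2.1, q.2.2) : X × E × ℂ)) (z, x, b)
      = (x, v, b) := by
    simp only [h1, inv_one, one_smul, e]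
  have t1 : Tendsto (fun q : F × X × ℂ =>
      ((q.2.1, (lf (c q.1) (d q.1) (w q.2.1))⁻¹ • w q.2.1, q.2.2) : X × E × ℂ))
      (𝓝 (z, x, b)) (𝓝 (x, v, b)) := ev ▸ cN
  have cs : ContinuousAt (fun q : F × X × ℂ => s'
      ((q.2.1, (lf (c q.1) (d q.1) (w q.2.1))⁻¹ • w q.2.1, q.2.2) : X × E × ℂ)) (z, x, b) :=
    ContinuousAt.comp_of_eq hs1.cont cN ev
  refine cs.congr ?_
  filter_upwards [e1, e2, t1.eventually hs2] with q a1 a2 a3
  rw [Tm, Nr_eq _ _ a2]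
  exact (a3 (a2.smul (inv_ne_zero a1))).symm

end StepX

open StepX in
theorem step_pf {ι : Type*} (T : Sys X ι) (hR : RungeS) (hB : BezS) (hL : LiftS) : T.StepS := by
  intro F _ _ _ K K' g i v a hK hK' hKK hg hv ha hl hA ε hε
  have hp := T.hol i
  have hs := T.spr i
  obtain ⟨c, hc, hc1⟩ := hB F K (Fin 2) ![fun z => (v z).1, fun z => (v z).2] hK
    (by
      intro j
      fin_cases j
      · exact fun z hz => analyticAt_fst.comp (hv z hz)
      · exact fun z hz => analyticAt_snd.comp (hv z hz))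
    (fun z hz => by
      rcases ne_zero_iff.1 (hl z hz).ne with h | h
      · exact ⟨0, h⟩
      · exact ⟨1, h⟩)
  have h1 : ∀ z ∈ K, lf (c 0 z) (c 1 z) (v z) = 1 := fun z hz => by
    have := hc1.self_of_nhdsSet z hz
    rw [Fin.sum_univ_two] at this
    exact this
  have hloc := fun z (hz : z ∈ K) => loc hp hs (a z) (hc 0 z hz).continuousAt
    (hc 1 z hz).continuousAt (hl z hz) (h1 z hz)
  have hC : IsCompact ((fun z => ((z, g z, a z) : F × X × ℂ)) '' K) :=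
    hK.cpt.image_of_continuousOn fun z hz =>
      (continuousAt_id.prodMk ((hg z hz).prodMk (ha z hz).continuousAt)).continuousWithinAt
  obtain ⟨δ₁, hδ₁, hu⟩ := Metric.mem_uniformity_dist.1
    (hC.uniformContinuousAt_of_continuousAt (Tm (T.p i) (T.s i) (c 0) (c 1))
      (by rintro _ ⟨z, hz, rfl⟩; exact (hloc z hz).2) (Metric.dist_mem_uniformity hε))
  obtain ⟨δ₂, hδ₂, ht⟩ := hC.exists_thickening_subset_open
    (isOpen_interior (s := {q : F × X × ℂ | lf (c 0 q.1) (c 1 q.1) (T.p i q.2.1).rep ≠ 0}))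
    (by rintro _ ⟨z, hz, rfl⟩; exact mem_interior_iff_mem_nhds.2 (hloc z hz).1)
  obtain ⟨G, hG, hGd⟩ := hA (min δ₁ δ₂) (lt_min hδ₁ hδ₂)
  obtain ⟨V, hV, hVl⟩ := hL F K' (fun z => T.p i (G z)) hK' fun z hz => hp.comp (hG z hz)
  have hVK : ∀ z ∈ K, Ln (T.p i (G z)) (V z) := fun z hz => hVl.self_of_nhdsSet z (hKK hz)
  have hμa : AnalyticOnNhd ℂ (fun z => lf (c 0 z) (c 1 z) (V z)) K := fun z hz =>
    ((hc 0 z hz).mul (analyticAt_fst.comp (hV z (hKK hz)))).add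
      ((hc 1 z hz).mul (analyticAt_snd.comp (hV z (hKK hz))))
  have hμ : ∀ z ∈ K, lf (c 0 z) (c 1 z) (V z) ≠ 0 := fun z hz => by
    have m : ((z, G z, a z) : F × X × ℂ) ∈ thickening δ₂
        ((fun z => ((z, g z, a z) : F × X × ℂ)) '' K) := by
      refine mem_thickening_iff.2 ⟨_, ⟨z, hz, rfl⟩, ?_⟩
      rw [Prod.dist_eq, Prod.dist_eq, dist_self, dist_self]
      exact max_lt hδ₂ (max_lt ((hGd z hz).trans_le (min_le_right _ _)) hδ₂)
    exact lf_ne (ln_rep _) (hVK z hz) (interior_subset (ht m))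
  obtain ⟨B, hB'⟩ := hK.cpt.exists_bound_of_continuousOn (hμa.pow 2).continuousOn
  have hB1 : 0 < |B| + 1 := by positivity
  obtain ⟨A, hAP, hAd⟩ := hR F K (fun z => a z / lf (c 0 z) (c 1 z) (V z) ^ 2) hK
    (fun z hz => (ha z hz).div ((hμa z hz).pow 2) (pow_ne_zero 2 (hμ z hz)))
    (δ₁ / (|B| + 1)) (div_pos hδ₁ hB1)
  refine ⟨fun z => T.s i (G z) (V z) (A z), fun z hz => ?_, fun z hz => ?_⟩
  · exact hs.an (hG z hz) (hV z hz) (Poly.analytic hAP z)
      (eventually_nhdsSet_iff_forall.1 hVl z hz)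
  have e1 : T.s i (G z) (V z) (A z) = Tm (T.p i) (T.s i) (c 0) (c 1)
      (z, G z, lf (c 0 z) (c 1 z) (V z) ^ 2 * A z) := by
    rw [Tm, Nr_eq _ _ (hVK z hz), ← hs.smul _ _ ((hVK z hz).smul (inv_ne_zero (hμ z hz)))
      (hμ z hz), smul_smul, mul_inv_cancel₀ (hμ z hz), one_smul]
  have e2 : T.s i (g z) (v z) (a z) = Tm (T.p i) (T.s i) (c 0) (c 1) (z, g z, a z) := by
    rw [Tm, Nr_eq _ _ (hl z hz), h1 z hz, inv_one, one_smul]
  have hd : dist ((z, g z, a z) : F × X × ℂ) (z, G z, lf (c 0 z) (c 1 z) (V z) ^ 2 * A z) < δ₁ := by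
    rw [Prod.dist_eq, Prod.dist_eq, dist_self]
    refine max_lt hδ₁ (max_lt ?_ ?_)
    · rw [dist_comm]; exact (hGd z hz).trans_le (min_le_left _ _)
    · have e3 : lf (c 0 z) (c 1 z) (V z) ^ 2 * A z - a z = lf (c 0 z) (c 1 z) (V z) ^ 2 *
          (A z - a z / lf (c 0 z) (c 1 z) (V z) ^ 2) := by
        rw [mul_sub, mul_div_cancel₀ _ (pow_ne_zero 2 (hμ z hz))]
      rw [dist_comm, dist_eq_norm, e3, norm_mul]
      have b1 : ‖lf (c 0 z) (c 1 z) (V z) ^ 2‖ ≤ |B| + 1 :=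
        ((hB' z hz).trans (le_abs_self B)).trans (by linarith)
      have b2 := hAd z hz
      rw [lt_div_iff₀ hB1] at b2
      calc _ ≤ (|B| + 1) * ‖A z - a z / lf (c 0 z) (c 1 z) (V z) ^ 2‖ := by gcongr
        _ < δ₁ := by rw [mul_comm]; exact b2
  have := hu hd ⟨z, hz, rfl⟩
  show dist (T.s i (G z) (V z) (A z)) (T.s i (g z) (v z) (a z)) < ε
  rw [e1, e2, dist_comm]
  exact this

end Vale.Agent.P290
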