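import Vale.Agent.P290.Basic
import Vale.Agent.P271.HDefs

/-! Problem P290: the working structures and the intermediate statements. -/

set_option linter.unusedSectionVars false

open Set Filter Topology Metric MeasureTheory
open scoped Manifold ContDiff LinearAlgebra.Projectivization

noncomputable section
namespace Vale.Agent.P290

/-! ### Part A: several complex variables -/

/-- polynomial functions -/
def Poly (F : Type) [NormedAddCommGroup F] [NormedSpace ℂ F] : Subalgebra ℂ (F → ℂ) :=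
  Algebra.adjoin ℂ (range fun l : F →L[ℂ] ℂ => (l : F → ℂ))

theorem Poly.analytic {F : Type} [NormedAddCommGroup F] [NormedSpace ℂ F] {P : F → ℂ}
    (h : P ∈ Poly F) (z : F) : AnalyticAt ℂ P z := by
  induction h using Algebra.adjoin_induction with
  | mem x hx => obtain ⟨l, rfl⟩ := hx; exact l.analyticAt z
  | algebraMap c => exact analyticAt_const
  | add x y _ _ hx hy => exact hx.add hy
  | mul x y _ _ hx hy => exact hx.mul hy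

def RungeS : Prop := ∀ (F : Type) [NormedAddCommGroup F] [NormedSpace ℂ F] [FiniteDimensional ℂ F]
  (K : Set F) (h : F → ℂ), CK K → AnalyticOnNhd ℂ h K → ∀ ε : ℝ, 0 < ε →
  ∃ P ∈ Poly F, ∀ z ∈ K, ‖P z - h z‖ < ε

def BezS : Prop := ∀ (F : Type) [NormedAddCommGroup F] [NormedSpace ℂ F] [FiniteDimensional ℂ F]
  (K : Set F) (J : Type) [Fintype J] (g : J → F → ℂ), CK K → (∀ j, AnalyticOnNhd ℂ (g j) K) →
  (∀ z ∈ K, ∃ j, g j z ≠ 0) →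
  ∃ c : J → F → ℂ, (∀ j, AnalyticOnNhd ℂ (c j) K) ∧ ∀ᶠ z in 𝓝ˢ K, ∑ j, c j z * g j z = 1

/-- squared Euclidean norm -/
def nsq (v : E) : ℝ := ‖v.1‖ ^ 2 + ‖v.2‖ ^ 2

/-- a plurisubharmonic exhaustion as in the L² existence theorem -/
structure Exh {n : ℕ} (W : Set (Fin n → ℂ)) (u : (Fin n → ℂ) → ℝ) (C₀ : ℝ) : Prop where
  op : IsOpen W
  sm : ContDiffOn ℝ ∞ u W
  psh : ∀ z ∈ W, ∀ ξ, 0 ≤ Fuj.levi u z ξ
  cpt : ∀ c, IsCompact {z | z ∈ W ∧ u z ≤ c}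
  grad : ∀ z ∈ W, ∀ ξ, ‖Fuj.dzr u z ξ‖ ^ 2 ≤ C₀ * (1 + Real.exp (u z)) * ‖ξ‖ ^ 2

def ExhS : Prop := ∀ (n : ℕ) (K U : Set (Fin n → ℂ)), CK K → IsOpen U → K ⊆ U →
  ∃ W u C₀, Exh W u C₀ ∧ K ⊆ W ∧ IsCompact (closure W) ∧ closure W ⊆ U

def HorS : Prop := ∀ (n : ℕ) (W : Set (Fin n → ℂ)) (u : (Fin n → ℂ) → ℝ) (C₀ : ℝ), Exh W u C₀ →
  ∀ (ι : Type) [Finite ι] (V : ι → Set (Fin n → ℂ)) (w : ι → (Fin n → ℂ) → E),
  (∀ i, IsOpen (V i) ∧ V i ⊆ W ∧ AnalyticOnNhd ℂ (w i) (V i) ∧ ∀ z ∈ V i, w i z ≠ 0) →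
  (∀ z ∈ W, ∃ i, z ∈ V i) → (∀ i j, ∀ z ∈ V i, z ∈ V j → det2 (w i z) (w j z) = 0) →
  ∀ ψ : (Fin n → ℂ) → ℝ, ContDiffOn ℝ ∞ ψ W →
  (∀ i, ∀ z ∈ V i, ∀ ξ, ‖ξ‖ ^ 2 ≤ Fuj.levi (fun y => ψ y - Real.log (nsq (w i y))) z ξ) →
  ∀ (i₀ : ι) (χ A : (Fin n → ℂ) → ℝ), Fuj.TestOn (V i₀) χ → Measurable A → (∀ z, 0 ≤ A z) →
  (∀ z ξ, ‖Fuj.db (fun y => (χ y : ℂ)) z ξ‖ ^ 2 ≤ A z * ‖ξ‖ ^ 2) →
  ∃ s : (Fin n → ℂ) → E, AnalyticOnNhd ℂ s W ∧ (∀ i, ∀ z ∈ V i, det2 (w i z) (s z) = 0) ∧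
    ∫⁻ z in V i₀, ENNReal.ofReal (nsq (s z - (χ z : ℂ) • w i₀ z) * Real.exp (-ψ z)) ≤
      2 * ∫⁻ z in V i₀, ENNReal.ofReal (A z * nsq (w i₀ z) * Real.exp (-ψ z))

/-- the estimate: a holomorphic section that does not vanish at a given point -/
def Peak0S : Prop := ∀ (n : ℕ) (W : Set (Fin n → ℂ)) (u : (Fin n → ℂ) → ℝ) (C₀ : ℝ), Exh W u C₀ →
  ∀ (ι : Type) [Finite ι] (V : ι → Set (Fin n → ℂ)) (w : ι → (Fin n → ℂ) → E) (C : ℝ),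
  (∀ i, IsOpen (V i) ∧ V i ⊆ W ∧ AnalyticOnNhd ℂ (w i) (V i) ∧ ∀ z ∈ V i, w i z ≠ 0) →
  (∀ z ∈ W, ∃ i, z ∈ V i) → (∀ i j, ∀ z ∈ V i, z ∈ V j → det2 (w i z) (w j z) = 0) →
  (∀ i, ∀ z ∈ V i, ∀ ξ, Fuj.levi (fun y => Real.log (nsq (w i y))) z ξ ≤ C * ‖ξ‖ ^ 2) →
  ∀ z₀ ∈ W, ∃ s : (Fin n → ℂ) → E, AnalyticOnNhd ℂ s W ∧
    (∀ i, ∀ z ∈ V i, det2 (w i z) (s z) = 0) ∧ s z₀ ≠ 0

def PeakS : Prop := ∀ (F : Type) [NormedAddCommGroup F] [NormedSpace ℂ F] [FiniteDimensional ℂ F]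
  (K : Set F) (g : F → ℙ ℂ E), CK K → (∀ z ∈ K, HolAt g z) → ∀ z₀ ∈ K,
  ∃ s : F → E, AnalyticOnNhd ℂ s K ∧ s z₀ ≠ 0 ∧ ∀ᶠ z in 𝓝ˢ K, det2 (g z).rep (s z) = 0

def LiftS : Prop := ∀ (F : Type) [NormedAddCommGroup F] [NormedSpace ℂ F] [FiniteDimensional ℂ F]
  (K : Set F) (g : F → ℙ ℂ E), CK K → (∀ z ∈ K, HolAt g z) →
  ∃ v : F → E, AnalyticOnNhd ℂ v K ∧ ∀ᶠ z in 𝓝ˢ K, Ln (g z) (v z)

def NormS : Prop := ∀ (F : Type) [NormedAddCommGroup F] [NormedSpace ℂ F] [FiniteDimensional ℂ F]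
  (K : Set F) (g : F → ℙ ℂ E) (v : F → E), CK K → (∀ z ∈ K, HolAt g z) → AnalyticOnNhd ℂ v K →
  (∀ z ∈ K, Ln (g z) (v z)) → ∃ u : F → E, AnalyticOnNhd ℂ u K ∧
    ∀ᶠ z in 𝓝ˢ K, Ln (g z) (u z) ∧ (Ln (g z) (v z) → u z = v z)

def IftS : Prop := ∀ (F G : Type) [NormedAddCommGroup F] [NormedSpace ℂ F] [FiniteDimensional ℂ F]
  [NormedAddCommGroup G] [NormedSpace ℂ G] [FiniteDimensional ℂ G]
  (S : F × G → E) (Q : F → G →L[ℂ] G) (z₀ : F), AnalyticAt ℂ S (z₀, 0) → AnalyticAt ℂ Q z₀ →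
  (∃ α β : G, det2 (fderiv ℂ S (z₀, 0) (0, α)) (fderiv ℂ S (z₀, 0) (0, β)) ≠ 0) →
  (∀ᶠ z in 𝓝 z₀, ∀ ξ, fderiv ℂ S (z, 0) (0, Q z ξ) = fderiv ℂ S (z, 0) (0, ξ) ∧
    (fderiv ℂ S (z, 0) (0, ξ) = 0 → Q z ξ = 0)) →
  (∃ u ∈ 𝓝 ((z₀, 0) : F × G), InjOn (fun q : F × G => (q.1, q.2 - Q q.1 q.2, S q)) u) ∧
  ∃ h : F × E → G, AnalyticAt ℂ h (z₀, S (z₀, 0)) ∧ h (z₀, S (z₀, 0)) = 0 ∧
    ∀ᶠ q in 𝓝 (z₀, S (z₀, 0)), Q q.1 (h q) = h q ∧ S (q.1, h q) = q.2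

/-- a holomorphic curve in the projective line with zero velocity is constant -/
def CstS : Prop := ∀ c : ℂ → ℙ ℂ E, (∀ a, HolAt c a) → (∀ a, ¬ Mov fun τ => c (a + τ)) →
  ∀ a, c a = c 0

/-! ### Part B: forms, vector fields, sprays -/

section
variable {X : Type*} [MetricSpace X] [ChartedSpace E X]

def HolP (p : X → ℙ ℂ E) : Prop := ∀ x, ∃ w : X → E, AnX w x ∧ ∀ᶠ y in 𝓝 x, Ln (p y) (w y)

def SubAt (p : X → ℙ ℂ E) (x : X) : Prop :=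
  ∃ w : X → E, AnX w x ∧ (∀ᶠ y in 𝓝 x, Ln (p y) (w y)) ∧ ∃ ξ, det2 (w x) (Dx w x ξ) ≠ 0

theorem HolP.comp {F : Type*} [NormedAddCommGroup F] [NormedSpace ℂ F] {p : X → ℙ ℂ E}
    (h : HolP p) {g : F → X} {z : F} (hg : An g z) : HolAt (fun y => p (g y)) z := by
  obtain ⟨w, h1, h2⟩ := h (g z)
  exact ⟨fun y => w (g y), h1.comp hg, hg.cont.eventually h2⟩

theorem HolP.lift {p : X → ℙ ℂ E} (h : HolP p) {x : X} {v : E} (hv : Ln (p x) v) :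
    ∃ w : X → E, AnX w x ∧ (∀ᶠ y in 𝓝 x, Ln (p y) (w y)) ∧ w x = v := by
  obtain ⟨w, h1, h2⟩ := h x
  obtain ⟨c, hc, rfl⟩ := h2.self_of_nhds.exists_smul hv
  exact ⟨fun y => c • w y, AnX.post (φ := fun u : E => c • u) (by fun_prop) h1,
    h2.mono fun y hy => hy.smul hc, rfl⟩

/-- the form `lam x * det2` is holomorphic and has no zeros -/
structure Form (lam : X → ℂ) : Prop where
  ne : ∀ x, lam x ≠ 0
  an : ∀ x, AnalyticOnNhd ℂ (fun y => lam ((ch x).symm y) *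
    det2 (Dv (ch x).symm y (1, 0)) (Dv (ch x).symm y (0, 1))) (ch x).target

/-- Hamiltonian vector field -/
def Ham (lam q : X → ℂ) (x : X) : E := (lam x)⁻¹ • (Dx q x (0, 1), -Dx q x (1, 0))

theorem ham_spec {lam q : X → ℂ} {x : X} (h : lam x ≠ 0) (ξ : E) :
    lam x * det2 (Ham lam q x) ξ = Dx q x ξ := by
  have e : ξ = ξ.1 • ((1, 0) : E) + ξ.2 • ((0, 1) : E) := by ext <;> simp
  conv_rhs => rw [e, map_add, map_smul, map_smul]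
  rw [Ham, det2_smul_left, ← mul_assoc, mul_inv_cancel₀ h]
  simp only [det2, smul_eq_mul]
  ring

/-- holomorphic vector fields on `Y` -/
def Field (Y : Set X) (V : X → E) : Prop := ∀ x ∈ Y, ∃ f : E → E, AnalyticAt ℂ f (ch x x) ∧
  ∀ᶠ y in 𝓝 (ch x x), Dv (ch x).symm y (f y) = V ((ch x).symm y)

/-- integral curves -/
def IC (V : X → E) (γ : ℂ → X) (t : ℂ) : Prop := An γ t ∧ Dv γ t 1 = V (γ t)

/-- a first integral with compact sublevel sets -/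
structure Prp (Y : Set X) (V : X → E) (q : X → ℂ) : Prop where
  op : IsOpen Y
  fld : Field Y V
  an : ∀ x ∈ Y, AnX q x
  inv : ∀ x ∈ Y, Dx q x (V x) = 0
  cpt : ∀ R : ℝ, IsCompact {x | x ∈ Y ∧ ‖q x‖ ≤ R}

structure IsSpray (lam : X → ℂ) (p : X → ℙ ℂ E) (s : X → E → ℂ → X) : Prop where
  loc : ∀ x v a, Ln (p x) v → ∃ s' : X × (E × ℂ) → X, AnP s' (x, v, a) ∧
    ∀ᶠ q in 𝓝 (x, v, a), Ln (p q.1) q.2.1 → s q.1 q.2.1 q.2.2 = s' q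
  zero : ∀ {x v}, Ln (p x) v → s x v 0 = x
  add : ∀ {x v} a b, Ln (p x) v → s (s x v a) v b = s x v (a + b)
  pres : ∀ {x v} a, Ln (p x) v → p (s x v a) = p x
  smul : ∀ {x v} (c a : ℂ), Ln (p x) v → c ≠ 0 → s x (c • v) a = s x v (c ^ 2 * a)
  der : ∀ (x : X) (w : X → E), AnX w x → (∀ᶠ y in 𝓝 x, Ln (p y) (w y)) →
    ∀ ξ, lam x * det2 (Dv (s x (w x)) 0 1) ξ = det2 (w x) (Dx w x ξ)

theorem IsSpray.an {F : Type*} [NormedAddCommGroup F] [NormedSpace ℂ F] {lam : X → ℂ}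
    {p : X → ℙ ℂ E} {s : X → E → ℂ → X} (h : IsSpray lam p s) {g : F → X} {v : F → E} {a : F → ℂ}
    {z : F} (hg : An g z) (hv : AnalyticAt ℂ v z) (ha : AnalyticAt ℂ a z)
    (hl : ∀ᶠ y in 𝓝 z, Ln (p (g y)) (v y)) : An (fun y => s (g y) (v y) (a y)) z := by
  obtain ⟨s', h1, h2⟩ := h.loc (g z) (v z) (a z) hl.self_of_nhds
  refine (AnP.comp (a := fun y => (v y, a y)) h1 hg (hv.prod ha)).congr ?_
  filter_upwards [(hg.cont.prodMk (hv.prod ha).continuousAt).eventually h2, hl] with y b c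
  exact b c

theorem IsSpray.an_curve {lam : X → ℂ} {p : X → ℙ ℂ E} {s : X → E → ℂ → X} (h : IsSpray lam p s)
    {x : X} {v : E} (hv : Ln (p x) v) (a : ℂ) : An (s x v) a :=
  h.an (an_const x a) analyticAt_const analyticAt_id (Eventually.of_forall fun _ => hv)

theorem IsSpray.ln {lam : X → ℂ} {p : X → ℙ ℂ E} {s : X → E → ℂ → X} (h : IsSpray lam p s)
    {x : X} {v : E} (hv : Ln (p x) v) (a : ℂ) : Ln (p (s x v a)) v := (h.pres a hv).symm ▸ hv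

def DomP {ι : Type*} (p : ι → X → ℙ ℂ E) (s : ι → X → E → ℂ → X) : Prop :=
  ∀ x, ∃ i v j a, Ln (p i x) v ∧ ∀ w, Ln (p j (s i x v a)) w →
    Mov fun τ => p i (s j (s i x v a) w τ)

variable (X)

def PullS : Prop := ∀ lam : X → ℂ, Form lam → ∀ (P : Type) [NormedAddCommGroup P] [NormedSpace ℂ P]
  [FiniteDimensional ℂ P] (S : P → X) (q a b : P), An S q →
  AnalyticAt ℂ (fun r => lam (S r) * det2 (Dv S r a) (Dv S r b)) q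

def HamS : Prop := ∀ lam : X → ℂ, Form lam → ∀ (q : X → ℂ) (Y : Set X), (∀ x ∈ Y, AnX q x) →
  Field Y (Ham lam q)

def Fl1S : Prop := ∀ (Y : Set X) (V : X → E), IsOpen Y → Field Y V → ∀ x₀ ∈ Y,
  ∃ ρ : ℝ, 0 < ρ ∧ ∃ φ : X × ℂ → X, ∀ᶠ x in 𝓝 x₀, φ (x, 0) = x ∧
    ∀ t ∈ ball (0 : ℂ) ρ, AnP φ (x, t) ∧ φ (x, t) ∈ Y ∧ IC V (fun t => φ (x, t)) t

def Fl2S : Prop := ∀ (Y : Set X) (V : X → E), Field Y V → ∀ (D : Set ℂ) (γ δ : ℂ → X), IsOpen D →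
  IsPreconnected D → (∀ t ∈ D, γ t ∈ Y ∧ IC V γ t ∧ IC V δ t) → ∀ t₀ ∈ D, γ t₀ = δ t₀ → EqOn γ δ D

def Fl3S : Prop := ∀ (Y : Set X) (V : X → E) (q : X → ℂ), Prp Y V q → ∀ x ∈ Y,
  ∃ γ : ℂ → X, γ 0 = x ∧ ∀ t, γ t ∈ Y ∧ q (γ t) = q x ∧ IC V γ t

def Fl4S : Prop := ∀ (Y : Set X) (V : X → E) (q : X → ℂ), Prp Y V q → ∃ Φ : X × ℂ → X, ∀ x ∈ Y,
  Φ (x, 0) = x ∧ (∀ a b, Φ (Φ (x, a), b) = Φ (x, a + b)) ∧
  ∀ t, AnP Φ (x, t) ∧ Φ (x, t) ∈ Y ∧ q (Φ (x, t)) = q x ∧ IC V (fun t => Φ (x, t)) t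

/-- the two affine coordinates -/
def AffS : Prop := ∀ lam : X → ℂ, Form lam → ∀ p : X → ℙ ℂ E, HolP p →
  Prp {x | (p x).rep.1 ≠ 0} (Ham lam fun x => (p x).rep.2 / (p x).rep.1)
    (fun x => (p x).rep.2 / (p x).rep.1) ∧
  Prp {x | (p x).rep.2 ≠ 0} (Ham lam fun x => -((p x).rep.1 / (p x).rep.2))
    (fun x => -((p x).rep.1 / (p x).rep.2)) ∧
  ∀ (x : X) (w : X → E), AnX w x → (∀ᶠ y in 𝓝 x, Ln (p y) (w y)) → ∀ ξ,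
    ((w x).1 ≠ 0 → (w x).1 ^ 2 * Dx (fun x => (p x).rep.2 / (p x).rep.1) x ξ =
      det2 (w x) (Dx w x ξ)) ∧
    ((w x).2 ≠ 0 → (w x).2 ^ 2 * Dx (fun x => -((p x).rep.1 / (p x).rep.2)) x ξ =
      det2 (w x) (Dx w x ξ))

def SprS : Prop := ∀ lam : X → ℂ, Form lam → ∀ p : X → ℙ ℂ E, HolP p → ∃ s, IsSpray lam p s

def DomS (ι : Type*) : Prop := ∀ (lam : X → ℂ) (p : ι → X → ℙ ℂ E) (s : ι → X → E → ℂ → X),
  Form lam → (∀ i, HolP (p i)) → (∀ i, IsSpray lam (p i) (s i)) →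
  (∀ x, {y | ∀ i, p i y = p i x}.Finite) → (∀ x, ∃ i, SubAt (p i) x) → DomP p s

/-! ### Part C: approximation -/

structure Sys (ι : Type*) where
  lam : X → ℂ
  p : ι → X → ℙ ℂ E
  s : ι → X → E → ℂ → X
  form : Form lam
  hol : ∀ i, HolP (p i)
  spr : ∀ i, IsSpray lam (p i) (s i)
  dom : DomP p s

variable {X}

/-- `g` can be approximated on `K` by maps holomorphic near `K'` -/
def App {F : Type} [NormedAddCommGroup F] [NormedSpace ℂ F] (K K' : Set F) (g : F → X) : Prop :=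
  ∀ ε : ℝ, 0 < ε → ∃ G : F → X, (∀ z ∈ K', An G z) ∧ ∀ z ∈ K, dist (G z) (g z) < ε

theorem App.congr {F : Type} [NormedAddCommGroup F] [NormedSpace ℂ F] {K K' : Set F}
    {g g' : F → X} (h : App K K' g) (e : ∀ z ∈ K, g z = g' z) : App K K' g' := fun ε hε => by
  obtain ⟨G, h1, h2⟩ := h ε hε
  exact ⟨G, h1, fun z hz => e z hz ▸ h2 z hz⟩

/-- a family of maps all of which are approximable exactly when `g` is -/
structure CS {F : Type} [NormedAddCommGroup F] [NormedSpace ℂ F] (K K' : Set F) (g : F → X) where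
  G : Type
  [i1 : NormedAddCommGroup G]
  [i2 : NormedSpace ℂ G]
  [i3 : FiniteDimensional ℂ G]
  S : F × G → X
  O : Set (F × G)
  op : IsOpen O
  sub : ∀ z ∈ K, (z, 0) ∈ O
  an : ∀ q ∈ O, An S q
  core : ∀ z ∈ K, S (z, 0) = g z
  ch : ∀ η : F → G, AnalyticOnNhd ℂ η K → (∀ z ∈ K, (z, η z) ∈ O) →
    (App K K' (fun z => S (z, η z)) ↔ App K K' g)

attribute [instance] CS.i1 CS.i2 CS.i3

def CS.Dom {F : Type} [NormedAddCommGroup F] [NormedSpace ℂ F] {K K' : Set F} {g : F → X}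
    (c : CS K K' g) (z : F) : Prop :=
  ∃ α β : c.G, det2 (Dv c.S (z, 0) (0, α)) (Dv c.S (z, 0) (0, β)) ≠ 0

namespace Sys
variable {ι : Type*} (T : Sys X ι)

def StepS : Prop := ∀ (F : Type) [NormedAddCommGroup F] [NormedSpace ℂ F] [FiniteDimensional ℂ F]
  (K K' : Set F) (g : F → X) (i : ι) (v : F → E) (a : F → ℂ), CK K → CK K' → K ⊆ K' →
  (∀ z ∈ K, ContinuousAt g z) → AnalyticOnNhd ℂ v K → AnalyticOnNhd ℂ a K →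
  (∀ z ∈ K, Ln (T.p i (g z)) (v z)) → App K K' g → App K K' fun z => T.s i (g z) (v z) (a z)

/-- one more step in a family, no new parameter -/
def ExtS : Prop := ∀ (F : Type) [NormedAddCommGroup F] [NormedSpace ℂ F] [FiniteDimensional ℂ F]
  (K K' : Set F) (G : Type) [NormedAddCommGroup G] [NormedSpace ℂ G] [FiniteDimensional ℂ G]
  (S : F × G → X) (i : ι) (v : F × G → E) (a : F × G → ℂ), CK K → CK K' → K ⊆ K' →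
  (∀ z ∈ K, An S (z, 0) ∧ AnalyticAt ℂ v (z, 0) ∧ AnalyticAt ℂ a (z, 0) ∧
    ∀ᶠ q in 𝓝 ((z, 0) : F × G), Ln (T.p i (S q)) (v q)) →
  ∃ O : Set (F × G), IsOpen O ∧ (∀ z ∈ K, (z, 0) ∈ O) ∧
    (∀ q ∈ O, An (fun q => T.s i (S q) (v q) (a q)) q) ∧
    ∀ η : F → G, AnalyticOnNhd ℂ η K → (∀ z ∈ K, (z, η z) ∈ O) →
      (App K K' (fun z => T.s i (S (z, η z)) (v (z, η z)) (a (z, η z))) ↔
        App K K' fun z => S (z, η z))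

def AddS : Prop := ∀ (F : Type) [NormedAddCommGroup F] [NormedSpace ℂ F] [FiniteDimensional ℂ F]
  (K K' : Set F) (g : F → X) (c : CS K K' g) (i j : ι) (v w : F → E) (a : ℂ),
  CK K → CK K' → K ⊆ K' → AnalyticOnNhd ℂ v K → AnalyticOnNhd ℂ w K →
  (∀ z ∈ K, Ln (T.p i (g z)) (v z) ∧ Ln (T.p j (T.s i (g z) (v z) a)) (w z)) →
  ∃ (c' : CS K K' g) (J : c.G → c'.G) (e : c'.G),
    (∀ z ∈ K, ∀ α, Dv c'.S (z, 0) (0, J α) = Dv c.S (z, 0) (0, α)) ∧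
    ∀ z ∈ K, ∀ᶠ τ in 𝓝 (0 : ℂ), ∃ v' : E, Ln (T.p i (T.s j (T.s i (g z) (v z) a) (w z) τ)) v' ∧
      c'.S (z, τ • e) = T.s i (T.s j (T.s i (g z) (v z) a) (w z) τ) v' (-a)

end Sys

variable (X)

def DomZS : Prop := ∀ (F : Type) [NormedAddCommGroup F] [NormedSpace ℂ F] [FiniteDimensional ℂ F]
  (K K' : Set F) (g : F → X), CK K → CK K' → K ⊆ K' → (∀ z ∈ K, An g z) → ∀ z₀ ∈ K,
  ∃ t ∈ 𝓝 z₀, ∀ c : CS K K' g, ∃ c' : CS K K' g,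
    (∀ z ∈ K, c.Dom z → c'.Dom z) ∧ ∀ z ∈ K, z ∈ t → c'.Dom z

def DomKS : Prop := ∀ (F : Type) [NormedAddCommGroup F] [NormedSpace ℂ F] [FiniteDimensional ℂ F]
  (K K' : Set F) (g : F → X), CK K → CK K' → K ⊆ K' → (∀ z ∈ K, An g z) →
  ∃ c : CS K K' g, ∀ z ∈ K, c.Dom z

def ProjS : Prop := ∀ (F G : Type) [NormedAddCommGroup F] [NormedSpace ℂ F] [FiniteDimensional ℂ F]
  [NormedAddCommGroup G] [NormedSpace ℂ G] [FiniteDimensional ℂ G] (K : Set F) (S : F × G → X),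
  CK K → (∀ z ∈ K, An S (z, 0)) →
  (∀ z ∈ K, ∃ α β : G, det2 (Dv S (z, 0) (0, α)) (Dv S (z, 0) (0, β)) ≠ 0) →
  ∃ Q : F → G →L[ℂ] G, AnalyticOnNhd ℂ Q K ∧ ∀ᶠ z in 𝓝ˢ K, ∀ ξ,
    Dv S (z, 0) (0, Q z ξ) = Dv S (z, 0) (0, ξ) ∧ (Dv S (z, 0) (0, ξ) = 0 → Q z ξ = 0)

def SolveS : Prop := ∀ (F : Type) [NormedAddCommGroup F] [NormedSpace ℂ F] [FiniteDimensional ℂ F]
  (K K' : Set F) (g : F → X) (c : CS K K' g) (H : F × ℂ → X) (t₀ : ℂ), CK K → (∀ z ∈ K, c.Dom z) →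
  (∀ z ∈ K, An H (z, t₀) ∧ H (z, t₀) = g z) → ∀ᶠ t in 𝓝 t₀, ∃ η : F → c.G,
    AnalyticOnNhd ℂ η K ∧ ∀ z ∈ K, (z, η z) ∈ c.O ∧ c.S (z, η z) = H (z, t)

def HomS : Prop := ∀ (F : Type) [NormedAddCommGroup F] [NormedSpace ℂ F] [FiniteDimensional ℂ F]
  (K K' : Set F) (f : F → X), CK K → CK K' → K ⊆ K' → (∀ z ∈ K, An f z) → App K K' f

def LimS : Prop := ∀ (F : Type) [NormedAddCommGroup F] [NormedSpace ℂ F] [FiniteDimensional ℂ F]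
  (K : Set F) (f : F → X), CK K → (∀ z ∈ K, An f z) → App K univ f

end

end Vale.Agent.P290
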